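import Vale.Agent.P290K.KLat

/-! Tori that contain an elliptic curve. -/

open Set Filter Metric
open scoped Manifold ContDiff Topology

noncomputable section

namespace Vale.Agent.P290

namespace Adapt

open Module Submodule

theorem pair (N : Submodule ℤ ℂ) [Module.Finite ℤ N] (h : finrank ℤ N = 2)
    (hs : span ℝ (N : Set ℂ) = ⊤) : ∃ L : PeriodPair, L.lattice = N := by
  let b : Basis (Fin 2) ℤ N := Module.finBasisOfFinrankEq ℤ N h
  have e : range ![(b 0 : ℂ), (b 1 : ℂ)] = range (N.subtype ∘ b) := by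
    congr 1
    funext i
    fin_cases i <;> rfl
  have h1 : span ℤ (range ![(b 0 : ℂ), (b 1 : ℂ)]) = N := by
    rw [e, range_comp, ← Submodule.map_span, b.span_eq, Submodule.map_subtype_top]
  have h2 : LinearIndependent ℝ ![(b 0 : ℂ), (b 1 : ℂ)] := by
    refine linearIndependent_of_top_le_span_of_card_eq_finrank ?_ (by simp)
    rw [← hs, span_le]
    exact fun z hz => span_le_restrictScalars ℤ ℝ _ (h1.ge hz)
  refine ⟨⟨b 0, b 1, h2⟩, Eq.trans ?_ h1⟩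
  rw [PeriodPair.lattice]
  simp [Set.pair_comm]

theorem core {t : Tk} (h : LinearIndependent ℝ t) {τ : ℂ} (hτ : τ.im ≠ 0)
    (h1 : ((1, 0) : ℂ × ℂ) ∈ Lat t) (h2 : ((τ, 0) : ℂ × ℂ) ∈ Lat t) :
    ∃ (L₁ L₂ : PeriodPair) (a₁ a₂ : ℂ), Adp L₁ L₂ a₁ a₂ = Lat t := by
  let N : Submodule ℤ ℂ := (Lat t).comap (LinearMap.inl ℤ ℂ ℂ)
  let f : Lat t →ₗ[ℤ] ℂ := (LinearMap.snd ℤ ℂ ℂ).domRestrict (Lat t)
  have hN : ∀ z, z ∈ N ↔ ((z, 0) : ℂ × ℂ) ∈ Lat t := fun z => Iff.rfl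
  have hP : ∀ z, z ∈ LinearMap.range f ↔ ∃ a, ((a, z) : ℂ × ℂ) ∈ Lat t := fun z =>
    ⟨by rintro ⟨x, rfl⟩; exact ⟨x.1.1, x.2⟩, fun ⟨a, ha⟩ => ⟨⟨_, ha⟩, rfl⟩⟩
  have : DiscreteTopology N := by
    obtain ⟨δ, hδ, hd⟩ := isDisc_lat h
    refine discreteTopology_of_isOpen_singleton_zero ?_
    have e : ({0} : Set N) = ball 0 δ := by
      refine Subset.antisymm (singleton_subset_iff.2 (mem_ball_self hδ)) fun z hz => ?_
      have h3 := hd _ ((hN z).1 z.2) (by simpa using hz)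
      exact Subtype.ext (congrArg Prod.fst h3)
    rw [e]
    exact isOpen_ball
  have sN : span ℝ (N : Set ℂ) = ⊤ := by
    refine eq_top_iff.2 fun z _ => ?_
    have e : z = (z.re - z.im / τ.im * τ.re) • (1 : ℂ) + (z.im / τ.im) • τ := by
      apply Complex.ext
      · simp
      · simp [hτ]
    rw [e]
    exact add_mem (smul_mem _ _ (subset_span ((hN 1).2 h1)))
      (smul_mem _ _ (subset_span ((hN τ).2 h2)))
  have : IsZLattice ℝ N := ⟨sN⟩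
  have rN : finrank ℤ N = 2 := by rw [ZLattice.rank ℝ N, Complex.finrank_real_complex]
  have : Module.Finite ℤ (Lat t) := Module.Finite.span_of_finite ℤ (finite_range t)
  have rL : finrank ℤ (Lat t) = 4 :=
    (finrank_span_eq_card (h.restrict_scalars' ℤ)).trans (Fintype.card_fin 4)
  let e : N ≃ₗ[ℤ] LinearMap.ker f :=
    { toFun := fun z => ⟨⟨(z.1, 0), z.2⟩, rfl⟩
      invFun := fun x => ⟨x.1.1.1, by
        have h3 : x.1.1.2 = 0 := x.2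
        rw [hN, ← h3]
        exact x.1.2⟩
      map_add' := fun _ _ => Subtype.ext (Subtype.ext (Prod.ext rfl (add_zero _).symm))
      map_smul' := fun _ _ => Subtype.ext (Subtype.ext (Prod.ext rfl (smul_zero _).symm))
      left_inv := fun _ => rfl
      right_inv := fun x => Subtype.ext (Subtype.ext (Prod.ext rfl (Eq.symm x.2))) }
  have rP : finrank ℤ (LinearMap.range f) = 2 := by
    have h3 := (LinearMap.ker f).finrank_quotient_add_finrank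
    rw [f.quotKerEquivRange.finrank_eq, ← e.finrank_eq, rN, rL] at h3
    omega
  have sP : span ℝ (LinearMap.range f : Set ℂ) = ⊤ := by
    refine eq_top_iff.2 fun z _ => ?_
    have h3 : ((0, z) : ℂ × ℂ) ∈ span ℝ (range t) := by
      rw [h.span_eq_top_of_card_eq_finrank' (by simp)]
      trivial
    have h4 := Submodule.mem_map_of_mem (f := LinearMap.snd ℝ ℂ ℂ) h3
    rw [Submodule.map_span] at h4
    refine span_mono ?_ h4
    rintro _ ⟨_, ⟨j, rfl⟩, rfl⟩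
    exact (hP _).2 ⟨(t j).1, subset_span ⟨j, rfl⟩⟩
  obtain ⟨L₁, e₁⟩ := pair N rN sN
  obtain ⟨L₂, e₂⟩ := pair _ rP sP
  obtain ⟨a₁, k₁⟩ := (hP _).1 (e₂ ▸ L₂.ω₁_mem_lattice)
  obtain ⟨a₂, k₂⟩ := (hP _).1 (e₂ ▸ L₂.ω₂_mem_lattice)
  have key : ∀ (x : ℂ × ℂ) (m n : ℤ), x.2 = m * L₂.ω₁ + n * L₂.ω₂ →
      (x.1 - (m * a₁ + n * a₂) ∈ L₁.lattice ↔ x ∈ Lat t) := fun x m n hx => by
    have h3 : ((x.1 - (m * a₁ + n * a₂), 0) : ℂ × ℂ) =
        x - (m • ((a₁, L₂.ω₁) : ℂ × ℂ) + n • ((a₂, L₂.ω₂) : ℂ × ℂ)) :=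
      Prod.ext (by simp) (by simp [hx])
    rw [e₁, hN, h3]
    exact (Lat t).sub_mem_iff_left (add_mem (smul_mem _ _ k₁) (smul_mem _ _ k₂))
  refine ⟨L₁, L₂, a₁, a₂, Submodule.ext fun x => mem_adp.trans ⟨?_, fun hx => ?_⟩⟩
  · rintro ⟨m, n, h3, h4⟩
    exact (key x m n h3).1 h4
  · obtain ⟨m, n, h3⟩ := PeriodPair.mem_lattice.1 (e₂ ▸ (hP x.2).2 ⟨x.1, hx⟩ : x.2 ∈ L₂.lattice)
    exact ⟨m, n, h3.symm, (key x m n h3.symm).2 hx⟩

end Adapt

theorem adapt {t : Tk} (h : LinearIndependent ℝ t) (he : HasEll (Lat t)) :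
    ∃ (L₁ L₂ : PeriodPair) (a₁ a₂ : ℂ) (g : (ℂ × ℂ) ≃L[ℂ] ℂ × ℂ),
      ∀ x, g x ∈ Adp L₁ L₂ a₁ a₂ ↔ x ∈ Lat t := by
  obtain ⟨v, τ, hv, hτ, h1, h2⟩ := he
  obtain ⟨g, hg⟩ := SeparatingDual.exists_continuousLinearEquiv_apply_eq (R := ℂ) hv
    (y := (1, 0)) (by simp)
  have hm : ∀ x, g x ∈ Lat (g ∘ t) ↔ x ∈ Lat t := fun x => by
    simp only [mem_lat, Function.comp_apply, ← map_zsmul g, ← map_sum g, g.injective.eq_iff]
  have hl : LinearIndependent ℝ (g ∘ t) :=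
    h.map' (g.toLinearEquiv.restrictScalars ℝ).toLinearMap (LinearEquiv.ker _)
  obtain ⟨L₁, L₂, a₁, a₂, e⟩ := Adapt.core hl hτ (hg ▸ (hm v).2 h1) (by
    have h3 := (hm _).2 h2
    rwa [map_smul, hg, Prod.smul_mk, smul_zero, smul_eq_mul, mul_one] at h3)
  exact ⟨L₁, L₂, a₁, a₂, g, fun x => e ▸ hm x⟩

end Vale.Agent.P290
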