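import Vale.Agent.P290D.Defs
import Vale.Agent.P290G.Defs

/-! Kummer surfaces: internal definitions. -/

open Set Filter Metric
open scoped Manifold ContDiff Topology

noncomputable section

namespace Vale.Agent.P290

/-- Four vectors in the plane. -/
abbrev Tk : Type := Fin 4 → ℂ × ℂ

/-- The group generated by four vectors. -/
def Lat (t : Tk) : Submodule ℤ (ℂ × ℂ) := Submodule.span ℤ (range t)

/-- A discrete subgroup. -/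
def IsDisc (Λ : Submodule ℤ (ℂ × ℂ)) : Prop := ∃ δ > (0 : ℝ), ∀ l ∈ Λ, ‖l‖ < δ → l = 0

/-- The torus contains an elliptic curve. -/
def HasEll (Λ : Submodule ℤ (ℂ × ℂ)) : Prop :=
  ∃ (v : ℂ × ℂ) (τ : ℂ), v ≠ 0 ∧ τ.im ≠ 0 ∧ v ∈ Λ ∧ τ • v ∈ Λ

/-- A basis adapted to an elliptic curve. -/
def adp (L₁ L₂ : PeriodPair) (a₁ a₂ : ℂ) : Tk :=
  ![(L₁.ω₁, 0), (L₁.ω₂, 0), (a₁, L₂.ω₁), (a₂, L₂.ω₂)]

/-- A lattice adapted to an elliptic curve. -/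
def Adp (L₁ L₂ : PeriodPair) (a₁ a₂ : ℂ) : Submodule ℤ (ℂ × ℂ) := Lat (adp L₁ L₂ a₁ a₂)

open Classical in
/-- Homogeneous coordinates of the Weierstrass function. -/
def wpv (L : PeriodPair) (y : ℂ) : ℂ × ℂ :=
  if y ∈ L.lattice then (0, 1) else (1, L.weierstrassP y)

open Classical in
/-- Homogeneous coordinates of the derivative of the Weierstrass function. -/
def dpv (L : PeriodPair) (y : ℂ) : ℂ × ℂ :=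
  if y ∈ L.lattice then (0, 1) else (1, L.derivWeierstrassP y)

/-- The Weierstrass zeta function. -/
structure IsZeta (L : PeriodPair) (ζ : ℂ → ℂ) : Prop where
  der : ∀ y ∉ L.lattice, HasDerivAt ζ (-L.weierstrassP y) y
  odd : ∀ y ∉ L.lattice, ζ (-y) = -ζ y
  pole : ∃ g : ℂ → ℂ, AnalyticAt ℂ g 0 ∧ ∀ᶠ y in 𝓝[≠] (0 : ℂ), ζ y = y⁻¹ + g y

/-- An odd function with additive periods `a₁`, `a₂`. -/
structure Shear (L : PeriodPair) (a₁ a₂ : ℂ) (D : Set ℂ) (u : ℂ → ℂ) : Prop where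
  an : AnalyticOnNhd ℂ u D
  odd : ∀ y ∈ D, u (-y) = -u y
  per : ∀ y ∈ D, ∀ m n : ℤ, u (y + (m * L.ω₁ + n * L.ω₂)) = u y + (m * a₁ + n * a₂)

/-- An odd equivariant local isomorphism. -/
structure Equi (Λ Λ' : Submodule ℤ (ℂ × ℂ)) (O : Set (ℂ × ℂ)) (Φ : ℂ × ℂ → ℂ × ℂ) : Prop where
  op : IsOpen O
  an : AnalyticOnNhd ℂ Φ O
  add : ∀ x ∈ O, ∀ l ∈ Λ, x + l ∈ O ∧ ∃ l' ∈ Λ', ∀ᶠ y in 𝓝 x, Φ (y + l) = Φ y + l'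
  neg : ∀ x ∈ O, -x ∈ O ∧ Φ (-x) = -Φ x
  tor : ∀ x ∈ O, Φ x + Φ x ∈ Λ' → x + x ∈ Λ
  inj : ∀ x ∈ O, Function.Injective (fderiv ℂ Φ x)

/-- Homogeneous coordinates near an exceptional point. -/
def ELift (V : ℂ × ℂ → ℂ × ℂ) (μ α : ℂ × ℂ) (P : ℂ × ℂ × ℂ → ℂ × ℂ) : Prop :=
  AnalyticAt ℂ P (0, α) ∧ P (0, α) ≠ 0 ∧ ∀ᶠ v : ℂ × ℂ × ℂ in 𝓝 (0, α), v.1 ≠ 0 →
    ∃ c : ℂ, c ≠ 0 ∧ P (v.1 ^ 2, v.2) = c • V (μ + v.1 • v.2)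

section

variable {X : Type} [TopologicalSpace X] [ChartedSpace C2 X]

/-- `X` is the Kummer surface of the lattice `Λ`. -/
structure Kum (Λ : Submodule ℤ (ℂ × ℂ)) (q : ℂ × ℂ → X) (e : ℂ × ℂ → ℂ × ℂ × ℂ → X) : Prop where
  qeq : ∀ x y, x + x ∉ Λ → y + y ∉ Λ → (q x = q y ↔ x - y ∈ Λ ∨ x + y ∈ Λ)
  qhol : ∀ x, x + x ∉ Λ → Hol q x ∧ Function.Injective (dif q x)
  ehol : ∀ μ α, μ + μ ∈ Λ → α ≠ 0 → Hol (e μ) (0, α) ∧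
    Function.Surjective (dif (e μ) (0, α)) ∧
    ∀ᶠ v : ℂ × ℂ × ℂ in 𝓝 (0, α), v.1 ≠ 0 → e μ (v.1 ^ 2, v.2) = q (μ + v.1 • v.2)
  eeq : ∀ μ μ' α α', μ + μ ∈ Λ → μ' + μ' ∈ Λ → α ≠ 0 → α' ≠ 0 →
    (e μ (0, α) = e μ' (0, α') ↔ μ - μ' ∈ Λ ∧ α.1 * α'.2 = α.2 * α'.1)
  ene : ∀ x μ α, x + x ∉ Λ → μ + μ ∈ Λ → α ≠ 0 → q x ≠ e μ (0, α)
  cover : ∀ y, (∃ x, x + x ∉ Λ ∧ q x = y) ∨ ∃ μ α, μ + μ ∈ Λ ∧ α ≠ 0 ∧ e μ (0, α) = y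

/-- The fibration given by the Weierstrass function of a linear form. -/
structure IsFib (Λ : Submodule ℤ (ℂ × ℂ)) (q : ℂ × ℂ → X) (e : ℂ × ℂ → ℂ × ℂ × ℂ → X)
    (L : PeriodPair) (ℓ : ℂ × ℂ →L[ℂ] ℂ) (π : X → P1) : Prop where
  hol : HolP π
  rq : ∀ x, x + x ∉ Λ → Rep (wpv L (ℓ x)) (π (q x))
  re : ∀ μ α, μ + μ ∈ Λ → α ≠ 0 → Rep (wpv L (ℓ μ)) (π (e μ (0, α)))
  regq : ∀ x, x + x ∉ Λ → 2 * ℓ x ∉ L.lattice → Reg π (q x)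
  rege : ∀ μ α, μ + μ ∈ Λ → ℓ α ≠ 0 → Reg π (e μ (0, α))

end

/-- An atlas of parametrisations. -/
structure Atl {M ι Y : Type} [NormedAddCommGroup M] [NormedSpace ℂ M] (O : ι → Set M)
    (Ψ : ι → M → Y) : Prop where
  op : ∀ i, IsOpen (O i)
  cover : ∀ y, ∃ i, ∃ m ∈ O i, Ψ i m = y
  inj : ∀ i, ∀ m ∈ O i, ∃ N ∈ 𝓝 m, InjOn (Ψ i) N
  trans : ∀ i j, ∀ m ∈ O i, ∀ m' ∈ O j, Ψ i m = Ψ j m' → ∃ τ : M → M, AnalyticAt ℂ τ m ∧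
    τ m = m' ∧ ∀ᶠ n in 𝓝 m, Ψ j (τ n) = Ψ i n
  sep : ∀ i j, ∀ m ∈ O i, ∀ m' ∈ O j, Ψ i m ≠ Ψ j m' →
    ∀ᶠ v : M × M in 𝓝 (m, m'), Ψ i v.1 ≠ Ψ j v.2

section

variable {Y : Type}

/-- The points of the family of all Kummer surfaces. -/
structure Mk (mk : ℂ × ℂ → P1 → Tk → Y) : Prop where
  surj : ∀ y, ∃ x a t, LinearIndependent ℝ t ∧ mk x a t = y
  eq : ∀ x a t x' a' t', LinearIndependent ℝ t → LinearIndependent ℝ t' →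
    (mk x a t = mk x' a' t' ↔ t = t' ∧ (x - x' ∈ Lat t ∨ x + x' ∈ Lat t) ∧
      (x + x ∈ Lat t → a = a'))

open Classical in
/-- The point with given homogeneous coordinates. -/
def pt (α : ℂ × ℂ) : P1 :=
  if h : α = 0 then Projectivization.mk ℂ (1, 0) (by simp) else Projectivization.mk ℂ α h

/-- The quotient map. -/
def qk (mk : ℂ × ℂ → P1 → Tk → Y) (t : Tk) (x : ℂ × ℂ) : Y := mk x (pt 0) t

/-- The parametrisation near an exceptional curve. -/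
def ek (mk : ℂ × ℂ → P1 → Tk → Y) (t : Tk) (μ : ℂ × ℂ) (v : ℂ × ℂ × ℂ) : Y :=
  mk (μ + v.1 ^ (2⁻¹ : ℂ) • v.2) (pt v.2) t

/-- A half period. -/
def hv (n : Fin 4 → ℤ) (t : Tk) : ℂ × ℂ := (2⁻¹ : ℂ) • ∑ j, n j • t j

/-- A direction. -/
def dir (b : Bool) (a : ℂ) : ℂ × ℂ := if b then (1, a) else (a, 1)

/-- The parametrisations of the family. -/
def Psi (mk : ℂ × ℂ → P1 → Tk → Y) : Option ((Fin 4 → ℤ) × Bool) → C2 × Tk → Y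
  | none => fun m => qk mk m.2 (m.1 0, m.1 1)
  | some i => fun m => ek mk m.2 (hv i.1 m.2) (m.1 0, dir i.2 (m.1 1))

/-- Their domains. -/
def Okm : Option ((Fin 4 → ℤ) × Bool) → Set (C2 × Tk)
  | none => {m | LinearIndependent ℝ m.2 ∧ (m.1 0, m.1 1) + (m.1 0, m.1 1) ∉ Lat m.2}
  | some i => interior {m | LinearIndependent ℝ m.2 ∧ ∀ l ∈ Lat m.2, l ≠ 0 →
      16 * ‖m.1 0‖ * ‖dir i.2 (m.1 1)‖ ^ 2 < ‖l‖ ^ 2}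

end

end Vale.Agent.P290
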