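import Vale.Agent.P290K.KLat

/-! Tori that contain an elliptic curve are dense. -/

open Set Filter Metric
open scoped Manifold ContDiff Topology

noncomputable section

namespace Vale.Agent.P290

namespace Dens

lemma den (q : Fin 4 → ℚ) : ∃ D : ℤ, D ≠ 0 ∧ ∀ j, ∃ m : ℤ, (D : ℝ) * (q j : ℝ) = m := by
  refine ⟨∏ j, ((q j).den : ℤ), Finset.prod_ne_zero_iff.2 fun j _ => by simp, fun j => ?_⟩
  obtain ⟨c, hc⟩ := Finset.dvd_prod_of_mem (fun j => ((q j).den : ℤ)) (Finset.mem_univ j)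
  refine ⟨c * (q j).num, ?_⟩
  have h : ((q j).den : ℝ) * (q j : ℝ) = (q j).num := by exact_mod_cast Rat.den_mul_eq_num (q j)
  rw [hc]
  push_cast
  rw [← h]
  ring

lemma coord {t : Tk} (h : LinearIndependent ℝ t) :
    ∃ (r : Fin 4 → ℝ) (k : Fin 4), k ≠ 0 ∧ r k ≠ 0 ∧ ∑ j, r j • t j = Complex.I • t 0 := by
  have hc : Fintype.card (Fin 4) = Module.finrank ℝ (ℂ × ℂ) := by simp
  let b := basisOfLinearIndependentOfCardEqFinrank h hc
  have hb : ∀ j, b j = t j := fun j => by simp [b]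
  have e : ∑ j, b.repr (Complex.I • t 0) j • t j = Complex.I • t 0 := by
    simpa only [hb] using b.sum_repr (Complex.I • t 0)
  by_contra hn
  push Not at hn
  have hz : ∀ k : Fin 4, k ≠ 0 → b.repr (Complex.I • t 0) k = 0 := fun k hk => by
    by_contra h0
    exact hn _ k hk h0 e
  rw [Finset.sum_eq_single 0 (fun k _ hk => by rw [hz k hk, zero_smul]) (by simp)] at e
  have e2 : (Complex.I - (b.repr (Complex.I • t 0) 0 : ℝ)) • t 0 = 0 := by
    rw [sub_smul, Complex.coe_smul, e, sub_self]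
  rcases smul_eq_zero.1 e2 with h1 | h1
  · simpa using congrArg Complex.im h1
  · exact h.ne_zero 0 h1

/-- The perturbed family. -/
def F (t : Tk) (k : Fin 4) (s : Fin 4 → ℝ) : Tk :=
  Function.update t k ((s k)⁻¹ • (Complex.I • t 0 - ∑ j ∈ Finset.univ.erase k, s j • t j))

lemma sum_F (t : Tk) (k : Fin 4) {s : Fin 4 → ℝ} (h : s k ≠ 0) :
    ∑ j, s j • F t k s j = Complex.I • t 0 := by
  rw [← Finset.add_sum_erase _ _ (Finset.mem_univ k)]
  have e : ∑ j ∈ Finset.univ.erase k, s j • F t k s j = ∑ j ∈ Finset.univ.erase k, s j • t j :=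
    Finset.sum_congr rfl fun j hj => by
      rw [F, Function.update_of_ne (Finset.ne_of_mem_erase hj)]
  rw [e, F, Function.update_self, smul_smul, mul_inv_cancel₀ h, one_smul, sub_add_cancel]

lemma F_self {t : Tk} {k : Fin 4} {r : Fin 4 → ℝ} (h : r k ≠ 0)
    (e : ∑ j, r j • t j = Complex.I • t 0) : F t k r = t := by
  rw [F, ← e, ← Finset.add_sum_erase _ _ (Finset.mem_univ k), add_sub_cancel_right, smul_smul,
    inv_mul_cancel₀ h, one_smul, Function.update_eq_self]

lemma F_cont (t : Tk) {k : Fin 4} {r : Fin 4 → ℝ} (h : r k ≠ 0) : ContinuousAt (F t k) r := by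
  refine continuousAt_const.update k ?_
  refine ((continuous_apply k).continuousAt.inv₀ h).smul (Continuous.continuousAt ?_)
  fun_prop

end Dens

theorem dens_ell : {t : Tk | LinearIndependent ℝ t} ⊆
    closure {t : Tk | LinearIndependent ℝ t ∧ HasEll (Lat t)} := by
  intro t ht
  obtain ⟨r, k, hk, hr, e⟩ := Dens.coord ht
  have hc : Tendsto (Dens.F t k) (𝓝 r) (𝓝 t) := by
    have := Dens.F_cont t hr
    rwa [ContinuousAt, Dens.F_self hr e] at this
  have hd : DenseRange (Pi.map fun _ : Fin 4 => ((↑) : ℚ → ℝ)) :=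
    DenseRange.piMap fun _ => Rat.denseRange_cast
  have h1 := mem_closure_iff_frequently.1 (hd r)
  have h2 : ∀ᶠ s in 𝓝 r, s k ≠ 0 := (continuous_apply k).continuousAt.eventually_ne hr
  have h3 : ∀ᶠ s in 𝓝 r, LinearIndependent ℝ (Dens.F t k s) := hc (isOpen_li.mem_nhds ht)
  refine mem_closure_of_frequently_of_tendsto ((h1.and_eventually (h2.and h3)).mono ?_) hc
  rintro s ⟨⟨q, rfl⟩, h0, hl⟩
  obtain ⟨D, hD, hm⟩ := Dens.den q
  choose m hm using hm
  have e0 : Dens.F t k (Pi.map (fun _ : Fin 4 => ((↑) : ℚ → ℝ)) q) 0 = t 0 := by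
    rw [Dens.F, Function.update_of_ne hk.symm]
  refine ⟨hl, D • t 0, Complex.I, ?_, by simp, ?_, ?_⟩
  · rw [← Int.cast_smul_eq_zsmul ℝ]
    exact smul_ne_zero (by exact_mod_cast hD) (LinearIndependent.ne_zero 0 ht)
  · exact Submodule.smul_mem _ _ (Submodule.subset_span ⟨0, e0⟩)
  · rw [smul_comm, ← Dens.sum_F t k h0, Finset.smul_sum]
    refine Submodule.sum_mem _ fun j _ => ?_
    rw [← Int.cast_smul_eq_zsmul ℝ, smul_smul, Pi.map_apply, hm, Int.cast_smul_eq_zsmul]
    exact Submodule.smul_mem _ _ (Submodule.subset_span ⟨j, rfl⟩)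

end Vale.Agent.P290
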