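import Vale.Agent.P290K.Defs

/-! Even and odd analytic functions. -/

open Set Filter Metric
open scoped Manifold ContDiff Topology

noncomputable section

namespace Vale.Agent.P290

variable {W V : Type} [NormedAddCommGroup W] [NormedSpace ℂ W] [FiniteDimensional ℂ W]
  [NormedAddCommGroup V] [NormedSpace ℂ V] [FiniteDimensional ℂ V]

theorem EvSq.an_circ {R : ℝ} (hR : 0 ≤ R) {G : W × ℂ → V} {z : W}
    (h : ∀ ζ ∈ sphere (0 : ℂ) R, AnalyticAt ℂ G (z, ζ)) :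
    AnalyticAt ℂ (fun w => ∮ ζ in C(0, R), G (w, ζ)) z := by
  have : CompleteSpace V := FiniteDimensional.complete ℂ V
  have h1 := analytic_integral (H := fun v : W × ℂ => (v.2 * Complex.I) • G v)
    (continuous_circleMap 0 R) (α := 0) (β := 2 * Real.pi) (z := z) fun s _ =>
      (analyticAt_snd.mul analyticAt_const).smul (h _ (circleMap_mem_sphere 0 hR s))
  simpa only [circleIntegral, deriv_circleMap] using h1

theorem EvSq.split {F : ℂ × W → V} {y₀ : W} (hF : AnalyticAt ℂ F (0, y₀)) :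
    ∃ G G' : ℂ × W → V, AnalyticAt ℂ G (0, y₀) ∧ AnalyticAt ℂ G' (0, y₀) ∧
      ∀ᶠ v in 𝓝 (((0 : ℂ), y₀)), F v = G (v.1 ^ 2, v.2) + v.1 • G' (v.1 ^ 2, v.2) := by
  have : CompleteSpace V := FiniteDimensional.complete ℂ V
  obtain ⟨r, hr, h⟩ := nhds_basis_closedBall.eventually_iff.1 hF.eventually_analyticAt
  have h1 : ∀ ζ ∈ closedBall (0 : ℂ) r, ∀ y ∈ closedBall y₀ r, AnalyticAt ℂ F (ζ, y) :=
    fun ζ hζ y hy => h (by rw [← closedBall_prod_same]; exact ⟨hζ, hy⟩)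
  have h2 : ∀ ζ ∈ sphere (0 : ℂ) r,
      AnalyticAt ℂ (fun u : (ℂ × W) × ℂ => (u.2 ^ 2 - u.1.1)⁻¹ • F (u.2, u.1.2)) ((0, y₀), ζ) := by
    intro ζ hζ
    refine AnalyticAt.smul (((analyticAt_snd.pow 2).sub
      (analyticAt_fst.comp analyticAt_fst)).inv ?_)
      ((h1 ζ (sphere_subset_closedBall hζ) y₀ (mem_closedBall_self hr.le)).comp_of_eq
        (analyticAt_snd.prod (analyticAt_snd.comp analyticAt_fst)) rfl)
    show ζ ^ 2 - 0 ≠ 0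
    rw [sub_zero]
    exact pow_ne_zero 2 (ne_of_mem_sphere hζ hr.ne')
  refine ⟨fun v => (2 * Real.pi * Complex.I : ℂ)⁻¹ •
      ∮ ζ in C(0, r), ζ • (ζ ^ 2 - v.1)⁻¹ • F (ζ, v.2),
    fun v => (2 * Real.pi * Complex.I : ℂ)⁻¹ • ∮ ζ in C(0, r), (ζ ^ 2 - v.1)⁻¹ • F (ζ, v.2),
    analyticAt_const.smul (EvSq.an_circ hr.le
      (G := fun u : (ℂ × W) × ℂ => u.2 • (u.2 ^ 2 - u.1.1)⁻¹ • F (u.2, u.1.2))
      fun ζ hζ => analyticAt_snd.smul (h2 ζ hζ)),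
    analyticAt_const.smul (EvSq.an_circ hr.le h2), ?_⟩
  filter_upwards [ball_mem_nhds _ hr] with v hv
  obtain ⟨w, y⟩ := v
  rw [← ball_prod_same] at hv
  have hd : DifferentiableOn ℂ (fun ζ => F (ζ, y)) (closedBall 0 r) := fun ζ hζ =>
    (((h1 ζ hζ y (ball_subset_closedBall hv.2)).comp_of_eq
      (analyticAt_id.prod analyticAt_const) rfl).differentiableAt).differentiableWithinAt
  have hw : ‖w‖ < r := mem_ball_zero_iff.1 hv.1
  have n1 : ∀ ζ ∈ sphere (0 : ℂ) r, ζ - w ≠ 0 := fun ζ hζ e => by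
    rw [sub_eq_zero.1 e, mem_sphere_zero_iff_norm] at hζ
    exact hw.ne hζ
  have n2 : ∀ ζ ∈ sphere (0 : ℂ) r, ζ + w ≠ 0 := fun ζ hζ e => by
    rw [eq_neg_of_add_eq_zero_left e, mem_sphere_zero_iff_norm, norm_neg] at hζ
    exact hw.ne hζ
  have n3 : ∀ ζ ∈ sphere (0 : ℂ) r, ζ ^ 2 - w ^ 2 ≠ 0 := fun ζ hζ => by
    rw [sq_sub_sq]
    exact mul_ne_zero (n2 ζ hζ) (n1 ζ hζ)
  have c1 : ContinuousOn (fun ζ : ℂ => (ζ ^ 2 - w ^ 2)⁻¹ • F (ζ, y)) (sphere 0 r) :=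
    (((continuousOn_id.pow 2).sub continuousOn_const).inv₀ n3).smul
      (hd.continuousOn.mono sphere_subset_closedBall)
  have j1 : CircleIntegrable (fun ζ : ℂ => ζ • (ζ ^ 2 - w ^ 2)⁻¹ • F (ζ, y)) 0 r :=
    (continuousOn_id.smul c1).circleIntegrable hr.le
  have j2 : CircleIntegrable (fun ζ : ℂ => w • (ζ ^ 2 - w ^ 2)⁻¹ • F (ζ, y)) 0 r :=
    (continuousOn_const.smul c1).circleIntegrable hr.le
  have e1 := hd.circleIntegral_sub_inv_smul hv.1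
  have e2 : (∮ ζ in C(0, r), (ζ - w)⁻¹ • F (ζ, y)) =
      ∮ ζ in C(0, r), (ζ • (ζ ^ 2 - w ^ 2)⁻¹ • F (ζ, y) + w • (ζ ^ 2 - w ^ 2)⁻¹ • F (ζ, y)) := by
    refine circleIntegral.integral_congr hr.le fun ζ hζ => ?_
    show _ = ζ • (ζ ^ 2 - w ^ 2)⁻¹ • F (ζ, y) + w • (ζ ^ 2 - w ^ 2)⁻¹ • F (ζ, y)
    rw [← add_smul, smul_smul, sq_sub_sq, mul_inv, mul_inv_cancel_left₀ (n2 ζ hζ)]
  show F (w, y) = (2 * Real.pi * Complex.I : ℂ)⁻¹ •
      (∮ ζ in C(0, r), ζ • (ζ ^ 2 - w ^ 2)⁻¹ • F (ζ, y)) +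
    w • (2 * Real.pi * Complex.I : ℂ)⁻¹ • ∮ ζ in C(0, r), (ζ ^ 2 - w ^ 2)⁻¹ • F (ζ, y)
  rw [smul_comm w, ← smul_add, ← circleIntegral.integral_smul w,
    ← circleIntegral.integral_add j1 j2, ← e2, e1, inv_smul_smul₀ Complex.two_pi_I_ne_zero]

theorem EvSq.neg (y₀ : W) : Tendsto (fun v : ℂ × W => (-v.1, v.2)) (𝓝 (0, y₀)) (𝓝 (0, y₀)) := by
  have h : Continuous fun v : ℂ × W => (-v.1, v.2) := continuous_fst.neg.prodMk continuous_snd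
  simpa using h.tendsto (0, y₀)

theorem even_sq {F : ℂ × W → V} {y₀ : W} (hF : AnalyticAt ℂ F (0, y₀))
    (he : ∀ᶠ v in 𝓝 (((0 : ℂ), y₀)), F (-v.1, v.2) = F v) :
    ∃ G : ℂ × W → V, AnalyticAt ℂ G (0, y₀) ∧ ∀ᶠ v in 𝓝 (((0 : ℂ), y₀)), F v = G (v.1 ^ 2, v.2) := by
  obtain ⟨G, G', h1, -, h⟩ := EvSq.split hF
  refine ⟨G, h1, ?_⟩
  filter_upwards [he, h, (EvSq.neg y₀).eventually h] with v k1 k2 k3
  simp only [even_two.neg_pow] at k3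
  rw [k1] at k3
  refine smul_right_injective V (two_ne_zero (α := ℂ)) ?_
  show (2 : ℂ) • F v = (2 : ℂ) • G (v.1 ^ 2, v.2)
  linear_combination (norm := module) k2 + k3

theorem odd_sq {F : ℂ × W → V} {y₀ : W} (hF : AnalyticAt ℂ F (0, y₀))
    (he : ∀ᶠ v in 𝓝 (((0 : ℂ), y₀)), F (-v.1, v.2) = -F v) :
    ∃ G : ℂ × W → V, AnalyticAt ℂ G (0, y₀) ∧
      (∀ᶠ v in 𝓝 (((0 : ℂ), y₀)), F v = v.1 • G (v.1 ^ 2, v.2)) ∧
      ∀ᶠ y in 𝓝 y₀, G (0, y) = fderiv ℂ F (0, y) (1, 0) := by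
  obtain ⟨G', G, -, h1, h⟩ := EvSq.split hF
  have h2 : ∀ᶠ v in 𝓝 (((0 : ℂ), y₀)), F v = v.1 • G (v.1 ^ 2, v.2) := by
    filter_upwards [he, h, (EvSq.neg y₀).eventually h] with v k1 k2 k3
    simp only [even_two.neg_pow] at k3
    rw [k1] at k3
    refine smul_right_injective V (two_ne_zero (α := ℂ)) ?_
    show (2 : ℂ) • F v = (2 : ℂ) • v.1 • G (v.1 ^ 2, v.2)
    linear_combination (norm := module) k2 - k3
  refine ⟨G, h1, h2, ?_⟩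
  have hc : Continuous fun y : W => ((0 : ℂ), y) := continuous_const.prodMk continuous_id
  filter_upwards [hc.continuousAt.eventually h2.eventually_nhds,
    hc.continuousAt.eventually h1.eventually_analyticAt,
    hc.continuousAt.eventually hF.eventually_analyticAt] with y k1 k2 k3
  have l1 : HasDerivAt (fun w : ℂ => (w, y)) (1, 0) 0 :=
    (hasDerivAt_id 0).prodMk (hasDerivAt_const 0 y)
  have l2 := k3.differentiableAt.hasFDerivAt.comp_hasDerivAt (f := fun w : ℂ => (w, y)) 0 l1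
  have l3 : DifferentiableAt ℂ (fun w : ℂ => G (w ^ 2, y)) 0 :=
    (k2.comp_of_eq ((analyticAt_id.pow 2).prod analyticAt_const) (by simp)).differentiableAt
  have l4 := (hasDerivAt_id (0 : ℂ)).smul l3.hasDerivAt
  have l5 := (l4.congr_of_eventuallyEq (l1.continuousAt.eventually k1)).unique l2
  simpa using l5

theorem even_sq1 {f : ℂ → V} (hf : AnalyticAt ℂ f 0) (he : ∀ᶠ s in 𝓝 (0 : ℂ), f (-s) = f s) :
    ∃ g : ℂ → V, AnalyticAt ℂ g 0 ∧ ∀ᶠ s in 𝓝 (0 : ℂ), f s = g (s ^ 2) := by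
  obtain ⟨G, h1, h2⟩ := even_sq (F := fun v : ℂ × ℂ => f v.1) (y₀ := 0)
    (hf.comp_of_eq analyticAt_fst rfl) ((continuous_fst.tendsto ((0 : ℂ), (0 : ℂ))).eventually he)
  have hc : Continuous fun s : ℂ => (s, (0 : ℂ)) := continuous_id.prodMk continuous_const
  exact ⟨fun s => G (s, 0), h1.comp_of_eq (analyticAt_id.prod analyticAt_const) rfl,
    hc.continuousAt.eventually h2⟩

theorem ev_sq {y₀ : W} {R : ℂ × W → Prop} (h0 : ∀ᶠ y in 𝓝 y₀, R (0, y))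
    (h1 : ∀ᶠ v in 𝓝 (((0 : ℂ), y₀)), v.1 ≠ 0 → R (v.1 ^ 2, v.2)) :
    ∀ᶠ v in 𝓝 (((0 : ℂ), y₀)), R v := by
  obtain ⟨ε, hε, h⟩ := nhds_basis_ball.eventually_iff.1 h1
  filter_upwards [(continuous_snd.tendsto ((0 : ℂ), y₀)).eventually h0,
    (continuous_fst.tendsto ((0 : ℂ), y₀)).eventually (ball_mem_nhds 0 (pow_pos hε 2)),
    (continuous_snd.tendsto ((0 : ℂ), y₀)).eventually (ball_mem_nhds y₀ hε)] with v k1 k2 k3
  obtain ⟨s, y⟩ := v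
  by_cases hs : s = 0
  · rw [hs]
    exact k1
  · obtain ⟨w, rfl⟩ := IsAlgClosed.exists_pow_nat_eq s two_pos
    have k4 : ‖w ^ 2‖ < ε ^ 2 := mem_ball_zero_iff.1 k2
    rw [norm_pow] at k4
    refine h (x := (w, y)) ?_ fun e => hs ?_
    · rw [← ball_prod_same]
      exact ⟨mem_ball_zero_iff.2 (lt_of_pow_lt_pow_left₀ 2 hε.le k4), k3⟩
    · rw [show w = 0 from e, zero_pow two_ne_zero]

end Vale.Agent.P290
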