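import Vale.Agent.P290K.Defs

/-! A manifold from an atlas of parametrisations. -/

open Set Filter Metric
open scoped Manifold ContDiff Topology

noncomputable section

namespace Vale.Agent.P290

namespace Glue

variable {M ι Y : Type} [NormedAddCommGroup M] [NormedSpace ℂ M] {O : ι → Set M} {Ψ : ι → M → Y}

/-- The final topology. -/
@[reducible] def top (h : Atl O Ψ) : TopologicalSpace Y where
  IsOpen U := ∀ i, IsOpen (O i ∩ Ψ i ⁻¹' U)
  isOpen_univ i := by simpa using h.op i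
  isOpen_inter U V hU hV i := by
    rw [preimage_inter, inter_inter_distrib_left]
    exact (hU i).inter (hV i)
  isOpen_sUnion S hS i := by
    rw [preimage_sUnion, inter_iUnion₂]
    exact isOpen_biUnion fun U hU => hS U hU i

variable [TopologicalSpace Y] (h : Atl O Ψ) (ht : ∀ U, IsOpen U ↔ ∀ i, IsOpen (O i ∩ Ψ i ⁻¹' U))
include h ht

theorem cont (i : ι) : ContinuousOn (Ψ i) (O i) :=
  (continuousOn_open_iff (h.op i)).2 fun U hU => (ht U).1 hU i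

theorem img {i : ι} {N : Set M} (hN : IsOpen N) (hO : N ⊆ O i) : IsOpen (Ψ i '' N) := by
  refine (ht _).2 fun j => isOpen_iff_mem_nhds.2 ?_
  rintro m' ⟨hm', m, hm, e⟩
  obtain ⟨τ, hτ, e1, e2⟩ := h.trans j i m' hm' m (hO hm) e.symm
  have h1 : ∀ᶠ n in 𝓝 m', τ n ∈ N := hτ.continuousAt.eventually_mem (e1 ▸ hN.mem_nhds hm)
  filter_upwards [(h.op j).mem_nhds hm', h1, e2] with n a b c
  exact ⟨a, τ n, b, c⟩

theorem omap {i : ι} {N : Set M} (hN : IsOpen N) (hO : N ⊆ O i) :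
    IsOpenMap (N.domRestrict (Ψ i)) := fun U hU => by
  rw [domRestrict_eq, image_comp]
  exact img h ht (hN.isOpenMap_subtype_val U hU) ((Subtype.coe_image_subset N U).trans hO)

theorem img_nhds {i : ι} {m : M} (hm : m ∈ O i) {S : Set M} (hS : S ∈ 𝓝 m) :
    Ψ i '' S ∈ 𝓝 (Ψ i m) := by
  obtain ⟨N, h1, h2, h3⟩ := _root_.mem_nhds_iff.1 (inter_mem hS ((h.op i).mem_nhds hm))
  exact mem_of_superset ((img h ht h2 (h1.trans inter_subset_right)).mem_nhds ⟨m, h3, rfl⟩)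
    (image_mono (h1.trans inter_subset_left))

theorem chart {i : ι} {m : M} (hm : m ∈ O i) : ∃ e : OpenPartialHomeomorph M Y,
    ⇑e = Ψ i ∧ e.source ⊆ O i ∧ m ∈ e.source := by
  obtain ⟨S, hS, hi⟩ := h.inj i m hm
  obtain ⟨N, h1, h2, h3⟩ := _root_.mem_nhds_iff.1 (inter_mem hS ((h.op i).mem_nhds hm))
  have h4 := h1.trans inter_subset_right
  exact ⟨.ofContinuousOpenRestrict ((hi.mono (h1.trans inter_subset_left)).toPartialEquiv _ N)
    ((cont h ht i).mono h4) (omap h ht h2 h4) h2, rfl, h4, h3⟩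

theorem t2 : T2Space Y := by
  refine t2Space_iff_disjoint_nhds.2 fun y y' hne => ?_
  obtain ⟨i, m, hm, rfl⟩ := h.cover y
  obtain ⟨j, m', hm', rfl⟩ := h.cover y'
  have h1 := h.sep i j m hm m' hm' hne
  rw [nhds_prod_eq] at h1
  obtain ⟨S, hS, S', hS', h2⟩ := mem_prod_iff.1 h1
  refine disjoint_of_disjoint_of_mem (Set.disjoint_left.2 ?_) (img_nhds h ht hm hS)
    (img_nhds h ht hm' hS')
  rintro _ ⟨a, ha, rfl⟩ ⟨b, hb, e⟩
  exact h2 (mk_mem_prod ha hb) e.symm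

theorem sc [SecondCountableTopology M] [Countable ι] : SecondCountableTopology Y := by
  have ho : IsOpenMap fun x : Σ i, O i => Ψ x.1 x.2 :=
    isOpenMap_sigma.2 fun i => omap h ht (h.op i) subset_rfl
  have hc : Continuous fun x : Σ i, O i => Ψ x.1 x.2 :=
    continuous_sigma fun i => (cont h ht i).domRestrict
  refine (ho.isQuotientMap hc fun y => ?_).secondCountableTopology ho
  obtain ⟨i, m, hm, e⟩ := h.cover y
  exact ⟨⟨i, m, hm⟩, e⟩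

omit ht in
theorem an {i j : ι} {e : OpenPartialHomeomorph M Y} (he : ⇑e = Ψ j) (hs : e.source ⊆ O j) {m : M}
    (hm : m ∈ O i) (hy : Ψ i m ∈ e.target) : AnalyticAt ℂ (fun n => e.symm (Ψ i n)) m := by
  obtain ⟨τ, hτ, e1, e2⟩ := h.trans i j m hm _ (hs (e.map_target hy))
    (by rw [← he, e.right_inv hy])
  have h1 : ∀ᶠ n in 𝓝 m, τ n ∈ e.source :=
    hτ.continuousAt.eventually_mem (e1 ▸ e.open_source.mem_nhds (e.map_target hy))
  refine hτ.congr ?_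
  filter_upwards [h1, e2] with n a b
  rw [← b, ← he, e.left_inv a]

theorem charted [CompleteSpace M] : ∃ _ : ChartedSpace M Y, IsManifold 𝓘(ℂ, M) ω Y ∧
    ∀ i, ∀ m ∈ O i, ContMDiffAt 𝓘(ℂ, M) 𝓘(ℂ, M) ω (Ψ i) m ∧
      ∃ ρ : Y → M, ContMDiffAt 𝓘(ℂ, M) 𝓘(ℂ, M) ω ρ (Ψ i m) ∧ (∀ᶠ n in 𝓝 m, ρ (Ψ i n) = n) ∧
        ∀ᶠ y in 𝓝 (Ψ i m), Ψ i (ρ y) = y := by
  have hc : ∀ y : Y, ∃ c : OpenPartialHomeomorph Y M,
      (∃ i, ⇑c.symm = Ψ i ∧ c.target ⊆ O i) ∧ y ∈ c.source := fun y => by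
    obtain ⟨i, m, hm, rfl⟩ := h.cover y
    obtain ⟨e, e1, e2, e3⟩ := chart h ht hm
    exact ⟨e.symm, ⟨i, e1, e2⟩, e1 ▸ e.map_source e3⟩
  choose c c1 c2 using hc
  let C : ChartedSpace M Y :=
    { atlas := {c | ∃ i, ⇑c.symm = Ψ i ∧ c.target ⊆ O i}
      chartAt := c
      mem_chart_source := c2
      chart_mem_atlas := c1 }
  have hM : IsManifold 𝓘(ℂ, M) ω Y := by
    refine isManifold_of_contDiffOn _ _ _ ?_
    rintro e e' ⟨i, a1, a2⟩ ⟨j, b1, b2⟩ m ⟨hm, -⟩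
    have h1 : Ψ i m ∈ e'.symm.target := a1 ▸ hm.2
    have h2 := (an h (e := e'.symm) b1 b2 (a2 hm.1) h1).contDiffAt (n := ω)
    rw [← a1] at h2
    exact h2.contDiffWithinAt
  refine ⟨C, hM, fun i m hm => ?_⟩
  obtain ⟨e, e1, e2, e3⟩ := chart h ht hm
  have ha : e.symm ∈ IsManifold.maximalAtlas 𝓘(ℂ, M) ω Y :=
    IsManifold.subset_maximalAtlas ⟨i, e1, e2⟩
  rw [← e1]
  exact ⟨contMDiffAt_symm_of_mem_maximalAtlas ha e3, e.symm,
    contMDiffAt_of_mem_maximalAtlas ha (e.map_source e3), e.eventually_left_inverse e3,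
    e.eventually_right_inverse' e3⟩

end Glue

theorem Atl.mfd {M ι Y : Type} [NormedAddCommGroup M] [NormedSpace ℂ M] [FiniteDimensional ℂ M]
    [Countable ι] {O : ι → Set M} {Ψ : ι → M → Y} (h : Atl O Ψ) :
    ∃ (_ : MetricSpace Y) (_ : ChartedSpace M Y), IsManifold 𝓘(ℂ, M) ω Y ∧
      SecondCountableTopology Y ∧ ∀ i, ∀ m ∈ O i, ContMDiffAt 𝓘(ℂ, M) 𝓘(ℂ, M) ω (Ψ i) m ∧
        ∃ ρ : Y → M, ContMDiffAt 𝓘(ℂ, M) 𝓘(ℂ, M) ω ρ (Ψ i m) ∧ (∀ᶠ n in 𝓝 m, ρ (Ψ i n) = n) ∧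
          ∀ᶠ y in 𝓝 (Ψ i m), Ψ i (ρ y) = y := by
  let _ := Glue.top h
  have ht : ∀ U : Set Y, IsOpen U ↔ ∀ i, IsOpen (O i ∩ Ψ i ⁻¹' U) := fun U => Iff.rfl
  have := FiniteDimensional.proper ℂ M
  have := Glue.t2 h ht
  have := Glue.sc h ht
  obtain ⟨C, h1, h2⟩ := Glue.charted h ht
  have := ChartedSpace.locallyCompactSpace M Y
  exact ⟨TopologicalSpace.metrizableSpaceMetric Y, C, h1, inferInstance, h2⟩

end Vale.Agent.P290
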