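import Vale.Agent.P290K.Glue
import Vale.Agent.P290D.YMfd

/-! A family from an atlas of parametrisations. -/

open Set Filter Metric
open scoped Manifold ContDiff Topology

noncomputable section

namespace Vale.Agent.P290

namespace GlueF

/-- A fibre. -/
def Fib {Y T : Type} (p : Y → T) (s : T) : Type := {y // p y = s}

/-- The inclusion of a fibre. -/
def val {Y T : Type} {p : Y → T} {s : T} (x : Fib p s) : Y := x.1

/-- A point of a fibre. -/
def mk {Y T : Type} {p : Y → T} {s : T} (y : Y) (h : p y = s) : Fib p s := ⟨y, h⟩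

theorem inj {E E' : Type} [NormedAddCommGroup E] [NormedSpace ℂ E] [NormedAddCommGroup E']
    [NormedSpace ℂ E'] {M N : Type} [TopologicalSpace M] [ChartedSpace E M] [TopologicalSpace N]
    [ChartedSpace E' N] {f : M → N} {g : N → M} {x : M}
    (hf : ContMDiffAt 𝓘(ℂ, E) 𝓘(ℂ, E') ω f x) (hg : ContMDiffAt 𝓘(ℂ, E') 𝓘(ℂ, E) ω g (f x))
    (h : ∀ᶠ y in 𝓝 x, g (f y) = y) : Function.Injective (mfderiv 𝓘(ℂ, E) 𝓘(ℂ, E') f x) := by
  have h1 : g ∘ f =ᶠ[𝓝 x] id := h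
  have h2 := h1.mfderiv_eq (I := 𝓘(ℂ, E)) (I' := 𝓘(ℂ, E))
  rw [mfderiv_comp x (hg.mdifferentiableAt Mfd.ne0) (hf.mdifferentiableAt Mfd.ne0),
    mfderiv_id] at h2
  have h3 : ∀ u, mfderiv 𝓘(ℂ, E') 𝓘(ℂ, E) g (f x) (mfderiv 𝓘(ℂ, E) 𝓘(ℂ, E') f x u) = u :=
    fun u => DFunLike.congr_fun h2 u
  intro u v huv
  rw [← h3 u, ← h3 v, huv]

variable {T : Type} [NormedAddCommGroup T] [NormedSpace ℂ T]
  {ι Y : Type} {B : Set T} {O : ι → Set (C2 × T)} {Ψ : ι → C2 × T → Y} {p : Y → T}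

theorem atl (h : Atl O Ψ) (hO : ∀ i, ∀ m ∈ O i, m.2 ∈ B)
    (hp : ∀ i u, ∀ s ∈ B, p (Ψ i (u, s)) = s) {s : T} (hs : s ∈ B) :
    Atl (Y := Fib p s) (fun i => {u | (u, s) ∈ O i}) fun i u => mk (Ψ i (u, s)) (hp i u s hs) := by
  have hc : Continuous fun u : C2 => ((u, s) : C2 × T) := Continuous.prodMk_left s
  refine ⟨fun i => (h.op i).preimage hc, fun y => ?_, fun i u hu => ?_,
    fun i j u hu u' hu' e => ?_, fun i j u hu u' hu' e => ?_⟩
  · obtain ⟨i, m, hm, e⟩ := h.cover y.1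
    have h1 : m.2 = s := by rw [← hp i m.1 m.2 (hO i m hm), ← y.2, ← e]
    subst h1
    exact ⟨i, m.1, hm, Subtype.ext e⟩
  · obtain ⟨N, hN, hi⟩ := h.inj i _ hu
    exact ⟨_, hc.continuousAt.preimage_mem_nhds hN, fun a ha b hb e =>
      congrArg Prod.fst (hi ha hb (congrArg Subtype.val e))⟩
  · obtain ⟨τ, h1, h2, h3⟩ := h.trans i j _ hu _ hu' (congrArg Subtype.val e)
    refine ⟨fun a => (τ (a, s)).1, analyticAt_fst.comp (AnalyticAt.comp (f := fun a => (a, s)) h1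
      (analyticAt_id.prod analyticAt_const)), congrArg Prod.fst h2, ?_⟩
    have h4 : ∀ᶠ n in 𝓝 ((u, s) : C2 × T), τ n ∈ O j :=
      h1.continuousAt.preimage_mem_nhds ((h.op j).mem_nhds (h2 ▸ hu'))
    filter_upwards [hc.continuousAt.eventually h3, hc.continuousAt.eventually h4] with a ha hb
    have h5 : (τ (a, s)).2 = s := by
      rw [← hp j (τ (a, s)).1 _ (hO j _ hb), Prod.mk.eta, ha, hp i a s hs]
    refine Subtype.ext (Eq.trans ?_ ha)
    exact congrArg (Ψ j) (Prod.ext rfl h5.symm)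
  · have h1 := h.sep i j _ hu _ hu' fun e' => e (Subtype.ext e')
    have h2 : Continuous fun v : C2 × C2 => (((v.1, s), (v.2, s)) : (C2 × T) × C2 × T) := by
      fun_prop
    filter_upwards [(h2.continuousAt (x := (u, u'))).eventually h1] with v hv e'
    exact hv (congrArg Subtype.val e')

end GlueF

theorem Atl.family {T : Type} [NormedAddCommGroup T] [NormedSpace ℂ T] [FiniteDimensional ℂ T]
    {ι Y : Type} [Countable ι] {B : Set T} {O : ι → Set (C2 × T)} {Ψ : ι → C2 × T → Y} {p : Y → T}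
    (h : Atl O Ψ) (hB : IsOpen B) (hne : B.Nonempty) (hO : ∀ i, ∀ m ∈ O i, m.2 ∈ B)
    (hp : ∀ i u, ∀ s ∈ B, p (Ψ i (u, s)) = s) :
    ∃ (_ : MetricSpace Y) (_ : ChartedSpace (C2 × T) Y) (X : T → Type)
      (_ : ∀ t, MetricSpace (X t)) (_ : ∀ t, ChartedSpace C2 (X t)) (j : ∀ t, X t → Y),
      IsManifold 𝓘(ℂ, C2 × T) ω Y ∧ SecondCountableTopology Y ∧ Family B p X j ∧
      ∀ t ∈ B, ∀ i, ∃ g : C2 → X t, (∀ u, j t (g u) = Ψ i (u, t)) ∧
        ∀ u, (u, t) ∈ O i → Hol g u ∧ Function.Bijective (dif g u) := by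
  classical
  obtain ⟨mY, cY, hY, sY, hΨ⟩ := h.mfd
  obtain ⟨t₁, ht₁⟩ := hne
  obtain ⟨r, hr, hr'⟩ : ∃ r : T → T, (∀ t, r t ∈ B) ∧ ∀ t ∈ B, r t = t :=
    ⟨fun t => if t ∈ B then t else t₁, fun t => by by_cases h : t ∈ B <;> simp [h, ht₁],
      fun t h => if_pos h⟩
  choose mX cX hX _ hΨ' using fun t => (GlueF.atl h hO hp (hr t)).mfd
  refine ⟨mY, cY, fun t => GlueF.Fib p (r t), mX, cX, fun t => GlueF.val, hY, sY,
    ⟨fun y => ?_, fun t _ => hX t, fun t _ x => ?_, fun t _ => Subtype.val_injective,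
      fun t ht => ?_⟩, fun t ht i => ⟨fun u => GlueF.mk (Ψ i (u, r t)) (hp i u _ (hr t)),
      fun u => congrArg (fun s => Ψ i (u, s)) (hr' t ht), fun u hu => ?_⟩⟩
  · obtain ⟨i, m, hm, rfl⟩ := h.cover y
    obtain ⟨h1, ρ, h2, h3, h4⟩ := hΨ i m hm
    have h5 : ∀ᶠ y in 𝓝 (Ψ i m), ρ y ∈ O i :=
      h2.continuousAt.preimage_mem_nhds ((h.op i).mem_nhds (h3.self_of_nhds.symm ▸ hm))
    have h6 : HolYF T p (Ψ i m) := by
      refine (ContMDiffAt.comp (g := Prod.snd) _ (Mfd.an analyticAt_snd) h2).congr_of_eventuallyEq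
        ?_
      filter_upwards [h4, h5] with y a b
      exact (congrArg p a).symm.trans (hp i (ρ y).1 _ (hO i _ b))
    refine ⟨h6, fun v => ⟨difY T (Ψ i) m (0, v), ?_⟩⟩
    have h7 : (fun n => p (Ψ i n)) =ᶠ[𝓝 m] Prod.snd := by
      filter_upwards [(h.op i).mem_nhds hm] with n hn
      exact hp i n.1 _ (hO i n hn)
    have h8 := YMfd.fd_comp h6 h1 (0, v)
    rw [h7.fderiv_eq, fderiv_snd] at h8
    exact h8.symm
  · obtain ⟨i, u, hu, rfl⟩ := (GlueF.atl h hO hp (hr t)).cover x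
    obtain ⟨h1, ρ, h2, h3, -⟩ := hΨ i _ hu
    obtain ⟨k1, σ, k2, k3, k4⟩ := hΨ' t i u hu
    have k5 := k3.self_of_nhds
    have k6 := ContMDiffAt.comp (g := fun a : C2 => ((a, r t) : C2 × T)) _
      (Mfd.an (analyticAt_id.prod analyticAt_const)) k2
    have k7 := (ContMDiffAt.comp (g := Ψ i) _ (by simpa only [Function.comp, k5] using h1)
      k6).congr_of_eventuallyEq (f₁ := GlueF.val)
        (k4.mono fun x hx => (congrArg GlueF.val hx).symm)
    refine ⟨k7, GlueF.inj k7 (g := fun y => GlueF.mk (Ψ i ((ρ y).1, r t)) (hp i _ _ (hr t))) ?_ ?_⟩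
    · have k8 := ContMDiffAt.comp (g := Prod.fst) _ (Mfd.an analyticAt_fst) h2
      exact ContMDiffAt.comp _ (by simpa only [Function.comp, h3.self_of_nhds] using k1) k8
    · have k9 := k6.continuousAt.tendsto
      simp only [Function.comp, k5] at k9
      filter_upwards [k4, k9.eventually h3] with x a b
      refine Eq.trans (Subtype.ext ?_) a
      have c : GlueF.val x = Ψ i (σ x, r t) := (congrArg GlueF.val a).symm
      change Ψ i ((ρ (GlueF.val x)).1, r t) = Ψ i (σ x, r t)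
      rw [c]
      exact congrArg (fun m : C2 × T => Ψ i (m.1, r t)) b
  · ext y
    exact ⟨fun ⟨x, hx⟩ => (congrArg p hx).symm.trans (x.2.trans (hr' t ht)),
      fun hy => ⟨GlueF.mk y (hy.trans (hr' t ht).symm), rfl⟩⟩
  · obtain ⟨k1, σ, k2, k3, -⟩ := hΨ' t i u (by rwa [mem_ofPred_eq, hr' t ht])
    have k5 := GlueF.inj k1 k2 k3
    exact ⟨k1, k5, LinearMap.injective_iff_surjective.1 k5⟩

end Vale.Agent.P290
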