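import Vale.Agent.P290K.KLat

/-! The atlas of the family: first properties. -/

open Set Filter Metric
open scoped Manifold ContDiff Topology

noncomputable section

namespace Vale.Agent.P290

variable {Y : Type} {mk : ℂ × ℂ → P1 → Tk → Y}

theorem KAt1.tors {Λ : Submodule ℤ (ℂ × ℂ)} {x y : ℂ × ℂ} (h : x - y ∈ Λ ∨ x + y ∈ Λ)
    (hy : y + y ∈ Λ) : x + x ∈ Λ := by
  rcases h with h | h
  · have h1 := Λ.add_mem (Λ.add_mem h h) hy
    rwa [show x - y + (x - y) + (y + y) = x + x by abel] at h1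
  · have h1 := Λ.sub_mem (Λ.add_mem h h) hy
    rwa [show x + y + (x + y) - (y + y) = x + x by abel] at h1

theorem KAt1.sym {Λ : Submodule ℤ (ℂ × ℂ)} {x y : ℂ × ℂ} (h : x - y ∈ Λ ∨ x + y ∈ Λ) :
    y - x ∈ Λ ∨ y + x ∈ Λ :=
  h.imp (fun h => by simpa using Λ.neg_mem h) fun h => by rwa [add_comm]

theorem KAt1.tra {Λ : Submodule ℤ (ℂ × ℂ)} {x y z : ℂ × ℂ} (h : x - y ∈ Λ ∨ x + y ∈ Λ)
    (h' : y - z ∈ Λ ∨ y + z ∈ Λ) : x - z ∈ Λ ∨ x + z ∈ Λ := by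
  rcases h with h | h <;> rcases h' with h' | h'
  · exact Or.inl (by simpa using Λ.add_mem h h')
  · refine Or.inr ?_
    have h1 := Λ.add_mem h h'
    rwa [show x - y + (y + z) = x + z by abel] at h1
  · refine Or.inr ?_
    have h1 := Λ.sub_mem h h'
    rwa [show x + y - (y - z) = x + z by abel] at h1
  · refine Or.inl ?_
    have h1 := Λ.sub_mem h h'
    rwa [add_sub_add_comm, show x - y + (y - z) = x - z by abel] at h1

/-- The relation that defines the family. -/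
def KAt1.rel : Setoid ((ℂ × ℂ) × P1 × Tk) where
  r u v := u.2.2 = v.2.2 ∧ (u.1 - v.1 ∈ Lat u.2.2 ∨ u.1 + v.1 ∈ Lat u.2.2) ∧
    (u.1 + u.1 ∈ Lat u.2.2 → u.2.1 = v.2.1)
  iseqv :=
    { refl := fun u => ⟨rfl, Or.inl (by simp), fun _ => rfl⟩
      symm := fun {u v} h => ⟨h.1.symm, h.1 ▸ KAt1.sym h.2.1, fun h1 =>
        (h.2.2 (KAt1.tors h.2.1 (h.1 ▸ h1))).symm⟩
      trans := fun {u v w} h h' => ⟨h.1.trans h'.1, KAt1.tra h.2.1 (h.1 ▸ h'.2.1), fun h1 =>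
        (h.2.2 h1).trans (h'.2.2 (h.1 ▸ KAt1.tors (KAt1.sym h.2.1) h1))⟩ }

theorem exists_mk : ∃ (Y : Type) (mk : ℂ × ℂ → P1 → Tk → Y) (p : Y → Tk), Mk mk ∧
    ∀ x a t, LinearIndependent ℝ t → p (mk x a t) = t := by
  classical
  obtain ⟨t₁, h1⟩ : ∃ t : Tk, LinearIndependent ℝ t :=
    ⟨_, (Module.finBasisOfFinrankEq ℝ (ℂ × ℂ) (n := 4) (by simp)).linearIndependent⟩
  obtain ⟨r, hr, hr'⟩ : ∃ r : Tk → Tk, (∀ t, LinearIndependent ℝ (r t)) ∧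
      ∀ t, LinearIndependent ℝ t → r t = t :=
    ⟨fun t => if LinearIndependent ℝ t then t else t₁, fun t => by
      by_cases h : LinearIndependent ℝ t
      · simpa only [if_pos h]
      · simpa only [if_neg h], fun t h => if_pos h⟩
  obtain ⟨Q, f, p, hf, hp⟩ : ∃ (Q : Type) (f : (ℂ × ℂ) × P1 × Tk → Q) (p : Q → Tk),
      (∀ u v, f u = f v ↔ KAt1.rel.r u v) ∧ ∀ u, p (f u) = u.2.2 :=
    ⟨Quotient KAt1.rel, Quotient.mk _, Quotient.lift (fun u => u.2.2) fun _ _ h => h.1,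
      fun _ _ => Quotient.eq, fun _ => rfl⟩
  refine ⟨{y : Q // ∃ u : (ℂ × ℂ) × P1 × Tk, LinearIndependent ℝ u.2.2 ∧ f u = y},
    fun x a t => ⟨f (x, a, r t), (x, a, r t), hr t, rfl⟩, fun y => p y.1, ⟨?_, ?_⟩,
    fun x a t ht => (hp _).trans (hr' t ht)⟩
  · rintro ⟨_, ⟨x, a, t⟩, ht, rfl⟩
    exact ⟨x, a, t, ht, Subtype.ext (congrArg (fun s => f (x, a, s)) (hr' t ht))⟩
  · intro x a t x' a' t' ht ht'
    refine Subtype.ext_iff.trans ((hf _ _).trans ?_)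
    rw [hr' t ht, hr' t' ht']
    exact Iff.rfl

theorem rep_pt {α : ℂ × ℂ} (h : α ≠ 0) : Rep α (pt α) := ⟨h, by rw [pt, dif_neg h]⟩

theorem dir_ne (b : Bool) (a : ℂ) : dir b a ≠ 0 := by
  cases b <;> simp [dir]

theorem hv_add (n : Fin 4 → ℤ) (t : Tk) : hv n t + hv n t ∈ Lat t := by
  refine mem_lat.2 ⟨n, ?_⟩
  rw [hv, ← add_smul]
  norm_num

theorem exists_hv {t : Tk} {μ : ℂ × ℂ} (h : μ + μ ∈ Lat t) : ∃ n, hv n t = μ := by
  obtain ⟨n, hn⟩ := mem_lat.1 h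
  refine ⟨n, ?_⟩
  rw [hv, hn, smul_add, ← add_smul]
  norm_num

theorem KAt1.root (z : ℂ) : (z ^ (2⁻¹ : ℂ)) ^ 2 = z := Complex.cpow_ofNat_inv_pow z 2

theorem Mk.ek_sq (h : Mk mk) {t : Tk} (ht : LinearIndependent ℝ t) {μ : ℂ × ℂ}
    (hμ : μ + μ ∈ Lat t) (w : ℂ) (α : ℂ × ℂ) :
    ek mk t μ (w ^ 2, α) = mk (μ + w • α) (pt α) t := by
  refine (h.eq _ _ _ _ _ _ ht ht).2 ⟨rfl, ?_, fun _ => rfl⟩
  rcases sq_eq_sq_iff_eq_or_eq_neg.1 (KAt1.root (w ^ 2)) with h1 | h1 <;> simp only [h1]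
  · exact Or.inl (by simp)
  · refine Or.inr ?_
    rwa [show μ + -w • α + (μ + w • α) = μ + μ by rw [neg_smul]; abel]

theorem Mk.nt (h : Mk mk) {t : Tk} (ht : LinearIndependent ℝ t) {x : ℂ × ℂ}
    (hx : x + x ∉ Lat t) (a a' : P1) : mk x a t = mk x a' t :=
  (h.eq _ _ _ _ _ _ ht ht).2 ⟨rfl, Or.inl (by simp), fun h1 => absurd h1 hx⟩

theorem okm_li {i : Option ((Fin 4 → ℤ) × Bool)} {m : C2 × Tk} (h : m ∈ Okm i) :
    LinearIndependent ℝ m.2 := by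
  cases i with
  | none => exact h.1
  | some i => exact (interior_subset h).1

theorem KAt1.li {m : C2 × Tk} (ht : LinearIndependent ℝ m.2) :
    ∀ᶠ n : C2 × Tk in 𝓝 m, LinearIndependent ℝ n.2 :=
  continuousAt_snd.eventually (isOpen_li.mem_nhds ht)

theorem okm_zero (i : (Fin 4 → ℤ) × Bool) {m : C2 × Tk} (ht : LinearIndependent ℝ m.2)
    (h0 : m.1 0 = 0) : m ∈ Okm (some i) := by
  obtain ⟨δ, hδ, h1⟩ := lat_small ht
  have hd : Continuous (dir i.2) := by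
    unfold dir
    split_ifs <;> fun_prop
  have h2 : Continuous fun n : C2 × Tk => 16 * ‖n.1 0‖ * ‖dir i.2 (n.1 1)‖ ^ 2 := by fun_prop
  have h3 : ∀ᶠ n : C2 × Tk in 𝓝 m, 16 * ‖n.1 0‖ * ‖dir i.2 (n.1 1)‖ ^ 2 < δ ^ 2 :=
    h2.continuousAt.eventually (gt_mem_nhds (by simpa [h0] using pow_pos hδ 2))
  refine mem_interior_iff_mem_nhds.2 ?_
  filter_upwards [KAt1.li ht, continuousAt_snd.eventually h1, h3] with n h4 h5 h6
  exact ⟨h4, fun l hl h7 => h6.trans_le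
    (pow_le_pow_left₀ hδ.le (not_lt.1 fun h8 => h7 (h5 l hl h8)) 2)⟩

theorem okm_small {i : (Fin 4 → ℤ) × Bool} {m : C2 × Tk} (h : m ∈ Okm (some i)) {w : ℂ}
    (hw : w ^ 2 = m.1 0) : ∀ l ∈ Lat m.2, l ≠ 0 → 4 * ‖w • dir i.2 (m.1 1)‖ < ‖l‖ := by
  intro l hl h0
  have h1 := (interior_subset h).2 l hl h0
  rw [← hw, norm_pow] at h1
  refine lt_of_pow_lt_pow_left₀ 2 (norm_nonneg _) (lt_of_eq_of_lt ?_ h1)
  rw [norm_smul]
  ring

theorem okm_nt {i : (Fin 4 → ℤ) × Bool} {m : C2 × Tk} (h : m ∈ Okm (some i)) {w : ℂ}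
    (hw : w ^ 2 = m.1 0) (h0 : w ≠ 0) :
    (hv i.1 m.2 + w • dir i.2 (m.1 1)) + (hv i.1 m.2 + w • dir i.2 (m.1 1)) ∉ Lat m.2 := fun h1 => by
  have h2 := (Lat m.2).sub_mem h1 (hv_add i.1 m.2)
  rw [show ∀ a b : ℂ × ℂ, a + b + (a + b) - (a + a) = b + b from fun a b => by abel] at h2
  have h3 := okm_small h hw _ h2 fun h4 => smul_ne_zero h0 (dir_ne _ _)
    ((smul_eq_zero_iff_right (two_ne_zero' ℂ)).1 ((two_smul ℂ _).trans h4))
  linarith [norm_add_le (w • dir i.2 (m.1 1)) (w • dir i.2 (m.1 1)),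
    norm_nonneg (w • dir i.2 (m.1 1))]

theorem okm_op (i : Option ((Fin 4 → ℤ) × Bool)) : IsOpen (Okm i) := by
  cases i with
  | some i => exact isOpen_interior
  | none =>
    refine isOpen_iff_mem_nhds.2 fun m hm => ?_
    have h1 : Continuous fun n : C2 × Tk => ((n.1 0, n.1 1) + (n.1 0, n.1 1), n.2) := by fun_prop
    exact (KAt1.li hm.1).and (h1.continuousAt.eventually (lat_not hm.1 hm.2))

theorem KAt1.pt_dir (a : P1) : ∃ b c, pt (dir b c) = a := by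
  by_cases h : a.rep.1 = 0
  · exact ⟨false, 0, ((rep_pt (dir_ne _ _)).eq_iff (rep_rep a)).2 (by simp [dir, h])⟩
  · exact ⟨true, a.rep.2 / a.rep.1, ((rep_pt (dir_ne _ _)).eq_iff (rep_rep a)).2
      (by simp [dir, h])⟩

theorem Mk.cover (h : Mk mk) (y : Y) : ∃ i, ∃ m ∈ Okm i, Psi mk i m = y := by
  obtain ⟨x, a, t, ht, rfl⟩ := h.surj y
  by_cases hx : x + x ∈ Lat t
  · obtain ⟨n, rfl⟩ := exists_hv hx
    obtain ⟨b, c, rfl⟩ := KAt1.pt_dir a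
    refine ⟨some (n, b), (!₂[0, c], t), okm_zero _ ht rfl, ?_⟩
    have h1 := h.ek_sq ht hx 0 (dir b c)
    rw [zero_smul, add_zero, zero_pow two_ne_zero] at h1
    exact h1
  · exact ⟨none, (!₂[x.1, x.2], t), ⟨ht, hx⟩, h.nt ht hx _ _⟩

theorem KAt1.ext {m n : C2 × Tk} (h0 : m.1 0 = n.1 0) (h1 : m.1 1 = n.1 1) (h2 : m.2 = n.2) :
    m = n := by
  refine Prod.ext ?_ h2
  ext k
  fin_cases k
  exacts [h0, h1]

theorem KAt1.dir_eq {b : Bool} {w u a a' : ℂ} (h : w • dir b a = u • dir b a') :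
    w = u ∧ (w ≠ 0 → a = a') := by
  have h1 : w = u ∧ w * a = u * a' := by
    cases b <;> simpa [dir, Prod.ext_iff, and_comm] using h
  exact ⟨h1.1, fun h0 => mul_left_cancel₀ h0 (h1.2.trans (by rw [h1.1]))⟩

theorem Mk.inj (h : Mk mk) (i : Option ((Fin 4 → ℤ) × Bool)) {m : C2 × Tk} (hm : m ∈ Okm i) :
    ∃ N ∈ 𝓝 m, InjOn (Psi mk i) N := by
  cases i with
  | none =>
    obtain ⟨δ, hδ, h1⟩ := lat_small hm.1
    have c1 : Continuous fun v : (C2 × Tk) × C2 × Tk =>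
        ((v.1.1 0, v.1.1 1) + (v.2.1 0, v.2.1 1), v.1.2) := by fun_prop
    have c2 : Continuous fun v : (C2 × Tk) × C2 × Tk =>
        ‖(v.1.1 0, v.1.1 1) - (v.2.1 0, v.2.1 1)‖ := by fun_prop
    have h2 : ∀ᶠ v : (C2 × Tk) × C2 × Tk in 𝓝 (m, m),
        Psi mk none v.1 = Psi mk none v.2 → v.1 = v.2 := by
      filter_upwards [(continuousAt_fst (p := (m, m))).eventually (KAt1.li hm.1),
        (continuousAt_snd (p := (m, m))).eventually (KAt1.li hm.1),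
        (continuousAt_fst (p := (m, m))).snd.eventually h1,
        (c1.continuousAt (x := (m, m))).eventually (lat_not hm.1 hm.2),
        (c2.continuousAt (x := (m, m))).eventually (gt_mem_nhds (by simpa using hδ))]
        with v h3 h4 h5 h6 h7 h8
      obtain ⟨e1, e2, -⟩ := (h.eq _ _ _ _ _ _ h3 h4).1 h8
      have e3 := sub_eq_zero.1 (h5 _ (e2.resolve_right h6) h7)
      exact KAt1.ext (congrArg Prod.fst e3) (congrArg Prod.snd e3) e1
    obtain ⟨U, hU, hmU, h3⟩ := exists_nhds_square h2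
    exact ⟨U, hU.mem_nhds hmU, fun a ha b hb => h3 (mk_mem_prod ha hb)⟩
  | some i =>
    refine ⟨_, (okm_op _).mem_nhds hm, ?_⟩
    rintro ⟨z, t⟩ ha ⟨z', t'⟩ hb e
    obtain ⟨e1, e2, e3⟩ := (h.eq _ _ _ _ _ _ (okm_li ha) (okm_li hb)).1 e
    simp only at e1 e2 e3
    subst e1
    have s1 := KAt1.root (z 0)
    have s2 := KAt1.root (z' 0)
    generalize z 0 ^ (2⁻¹ : ℂ) = w at e2 e3 s1
    generalize z' 0 ^ (2⁻¹ : ℂ) = w' at e2 s2
    obtain ⟨u, hu, h1⟩ : ∃ u : ℂ, u ^ 2 = z' 0 ∧ w • dir i.2 (z 1) - u • dir i.2 (z' 1) ∈ Lat t := by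
      rcases e2 with e2 | e2
      · exact ⟨w', s2, by simpa using e2⟩
      · refine ⟨-w', by rw [neg_sq, s2], ?_⟩
        have h2 := (Lat t).sub_mem e2 (hv_add i.1 t)
        rwa [show ∀ a b c : ℂ × ℂ, a + b + (a + c) - (a + a) = b - -c from fun a b c => by abel,
          ← neg_smul] at h2
    have h2 : w • dir i.2 (z 1) = u • dir i.2 (z' 1) := by
      by_contra h3
      have h4 := okm_small ha s1 _ h1 (sub_ne_zero.2 h3)
      have h5 := okm_small hb hu _ h1 (sub_ne_zero.2 h3)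
      simp only at h4 h5
      linarith [norm_sub_le (w • dir i.2 (z 1)) (u • dir i.2 (z' 1)),
        norm_nonneg (w • dir i.2 (z 1) - u • dir i.2 (z' 1))]
    obtain ⟨h3, h4⟩ := KAt1.dir_eq h2
    refine KAt1.ext (by simp only [← s1, ← hu, h3]) ?_ rfl
    by_cases h0 : w = 0
    · rw [h0, zero_smul, add_zero] at e3
      have h5 := ((rep_pt (dir_ne _ _)).eq_iff (rep_pt (dir_ne _ _))).1 (e3 (hv_add _ _))
      generalize i.2 = b at h5
      cases b <;> simpa [dir, eq_comm] using h5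
    · exact h4 h0

end Vale.Agent.P290
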