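import Vale.Agent.P290K.KAt1

/-! The atlas of the family: transition maps. -/

open Set Filter Metric
open scoped Manifold ContDiff Topology

noncomputable section

namespace Vale.Agent.P290

variable {Y : Type} {mk : ℂ × ℂ → P1 → Tk → Y}

namespace KAt2

section

variable {E : Type} [NormedAddCommGroup E] [NormedSpace ℂ E]

theorem an_vec {f g : E → ℂ} {z : E} (hf : AnalyticAt ℂ f z) (hg : AnalyticAt ℂ g z) :
    AnalyticAt ℂ (fun n => (!₂[f n, g n] : C2)) z := by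
  have h1 : AnalyticAt ℂ (fun n => (![f n, g n] : Fin 2 → ℂ)) z := by
    refine analyticAt_pi_iff.2 fun i => ?_
    fin_cases i
    · exact hf
    · exact hg
  exact ((EuclideanSpace.equiv (Fin 2) ℂ).symm.toContinuousLinearMap.analyticAt _).comp h1

theorem an_co {f : E → C2} {z : E} (hf : AnalyticAt ℂ f z) (i : Fin 2) :
    AnalyticAt ℂ (fun n => f n i) z :=
  ((EuclideanSpace.proj i : C2 →L[ℂ] ℂ).analyticAt _).comp hf

theorem an_sum {T : E → Tk} {z : E} (hT : AnalyticAt ℂ T z) (k : Fin 4 → ℤ) :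
    AnalyticAt ℂ (fun n => ∑ j, k j • T n j) z := by
  refine Finset.analyticAt_fun_sum _ fun j _ => ?_
  exact (analyticAt_pi_iff.1 hT j).const_smul (c := k j)

theorem an_hv {T : E → Tk} {z : E} (hT : AnalyticAt ℂ T z) (k : Fin 4 → ℤ) :
    AnalyticAt ℂ (fun n => hv k (T n)) z :=
  (an_sum hT k).const_smul (c := (2⁻¹ : ℂ))

theorem an_dir (b : Bool) {f : E → ℂ} {z : E} (hf : AnalyticAt ℂ f z) :
    AnalyticAt ℂ (fun n => dir b (f n)) z := by
  cases b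
  · exact hf.prod analyticAt_const
  · exact analyticAt_const.prod hf

theorem root {f : E → ℂ} {z : E} (hf : AnalyticAt ℂ f z) (h0 : f z ≠ 0) :
    ∃ w : E → ℂ, AnalyticAt ℂ w z ∧ ∀ᶠ n in 𝓝 z, w n ^ 2 = f n ∧ w n ≠ 0 := by
  obtain ⟨w₀, hw⟩ := IsAlgClosed.exists_pow_nat_eq (f z) (n := 2) (by norm_num)
  have hw0 : w₀ ≠ 0 := by
    rintro rfl
    exact h0 (by rw [← hw]; norm_num)
  have h1 : AnalyticAt ℂ (fun n => f n / f z) z := hf.div_const
  have h2 : AnalyticAt ℂ (fun n => Complex.log (f n / f z)) z :=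
    h1.clog (by rw [div_self h0]; exact Complex.one_mem_slitPlane)
  refine ⟨fun n => w₀ * Complex.exp (Complex.log (f n / f z) / 2),
    analyticAt_const.mul h2.div_const.cexp', ?_⟩
  filter_upwards [hf.continuousAt.eventually_ne h0] with n hn
  refine ⟨?_, mul_ne_zero hw0 (Complex.exp_ne_zero _)⟩
  rw [mul_pow, hw, ← Complex.exp_nat_mul,
    show ((2 : ℕ) : ℂ) * (Complex.log (f n / f z) / 2) = Complex.log (f n / f z) by
      push_cast; ring,
    Complex.exp_log (div_ne_zero hn h0)]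
  field_simp

end

theorem vec_eq (x : C2) : (!₂[x 0, x 1] : C2) = x := by
  ext i
  fin_cases i <;> rfl

/-- Points of the charts outside the exceptional curves. -/
def NE (i : Option ((Fin 4 → ℤ) × Bool)) (m : C2 × Tk) : Prop := i = none ∨ m.1 0 ≠ 0

theorem lift (h : Mk mk) {i : Option ((Fin 4 → ℤ) × Bool)} {m : C2 × Tk} (hm : m ∈ Okm i)
    (hn : NE i m) : ∃ X : C2 × Tk → ℂ × ℂ, AnalyticAt ℂ X m ∧ X m + X m ∉ Lat m.2 ∧
      ∀ᶠ n in 𝓝 m, Psi mk i n = qk mk n.2 (X n) := by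
  have a0 : AnalyticAt ℂ (fun n : C2 × Tk => n.1 0) m := an_co analyticAt_fst 0
  have a1 : AnalyticAt ℂ (fun n : C2 × Tk => n.1 1) m := an_co analyticAt_fst 1
  cases i with
  | none => exact ⟨fun n => (n.1 0, n.1 1), a0.prod a1, hm.2, Eventually.of_forall fun n => rfl⟩
  | some i =>
    have h0 : m.1 0 ≠ 0 := hn.resolve_left (Option.some_ne_none i)
    obtain ⟨w, hw, hev⟩ := root a0 h0
    refine ⟨fun n => hv i.1 n.2 + w n • dir i.2 (n.1 1),
      (an_hv analyticAt_snd i.1).add (hw.smul (an_dir i.2 a1)),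
      okm_nt hm hev.self_of_nhds.1 hev.self_of_nhds.2, ?_⟩
    filter_upwards [hev, (okm_op (some i)).mem_nhds hm] with n hn1 hn2
    have hl := okm_li hn2
    show ek mk n.2 (hv i.1 n.2) (n.1 0, dir i.2 (n.1 1)) = mk _ (pt 0) n.2
    rw [← hn1.1, h.ek_sq hl (hv_add _ _)]
    exact h.nt hl (okm_nt hn2 hn1.1 hn1.2) _ _

theorem desc (h : Mk mk) {j : Option ((Fin 4 → ℤ) × Bool)} {m : C2 × Tk} (hm : m ∈ Okm j)
    (hn : NE j m) : ∃ x : ℂ × ℂ, x + x ∉ Lat m.2 ∧ ∃ σ : (ℂ × ℂ) × Tk → C2 × Tk,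
      AnalyticAt ℂ σ (x, m.2) ∧ σ (x, m.2) = m ∧
      ∀ᶠ v in 𝓝 (x, m.2), Psi mk j (σ v) = qk mk v.2 v.1 := by
  cases j with
  | none =>
    refine ⟨(m.1 0, m.1 1), hm.2, fun v => (!₂[v.1.1, v.1.2], v.2),
      (an_vec (analyticAt_fst.comp analyticAt_fst) (analyticAt_snd.comp analyticAt_fst)).prod
        analyticAt_snd, Prod.ext (vec_eq _) rfl, Eventually.of_forall fun v => rfl⟩
  | some j =>
    have h0 : m.1 0 ≠ 0 := hn.resolve_left (Option.some_ne_none j)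
    obtain ⟨w, hw⟩ := IsAlgClosed.exists_pow_nat_eq (m.1 0) (n := 2) (by norm_num)
    have hw0 : w ≠ 0 := by
      rintro rfl
      exact h0 (by rw [← hw]; norm_num)
    have hx := okm_nt hm hw hw0
    have hl := okm_li hm
    obtain ⟨n, b⟩ := j
    set x := hv n m.2 + w • dir b (m.1 1) with hxd
    have hu : AnalyticAt ℂ (fun v : (ℂ × ℂ) × Tk => v.1 - hv n v.2) (x, m.2) :=
      analyticAt_fst.sub (an_hv analyticAt_snd n)
    have hu1 : AnalyticAt ℂ (fun v : (ℂ × ℂ) × Tk => (v.1 - hv n v.2).1) (x, m.2) :=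
      analyticAt_fst.comp hu
    have hu2 : AnalyticAt ℂ (fun v : (ℂ × ℂ) × Tk => (v.1 - hv n v.2).2) (x, m.2) :=
      analyticAt_snd.comp hu
    have hux : x - hv n m.2 = w • dir b (m.1 1) := by rw [hxd, add_sub_cancel_left]
    have e1 : ∀ᶠ v : (ℂ × ℂ) × Tk in 𝓝 (x, m.2), LinearIndependent ℝ v.2 :=
      (continuousAt_snd (p := (x, m.2))).eventually (isOpen_li.mem_nhds hl)
    have e2 : ∀ᶠ v : (ℂ × ℂ) × Tk in 𝓝 (x, m.2), v.1 + v.1 ∉ Lat v.2 := by
      have c : ContinuousAt (fun v : (ℂ × ℂ) × Tk => (v.1 + v.1, v.2)) (x, m.2) := by fun_prop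
      exact c.eventually (lat_not hl hx)
    refine ⟨x, hx, ?_⟩
    cases b
    · have p2 : (x - hv n m.2).2 = w := by rw [hux]; exact mul_one w
      have p1 : (x - hv n m.2).1 = w * m.1 1 := by rw [hux]; rfl
      refine ⟨fun v => (!₂[(v.1 - hv n v.2).2 ^ 2, (v.1 - hv n v.2).1 / (v.1 - hv n v.2).2], v.2),
        (an_vec (hu2.pow 2) (hu1.div hu2 (by rw [p2]; exact hw0))).prod analyticAt_snd, ?_, ?_⟩
      · refine Prod.ext ?_ rfl
        show (!₂[(x - hv n m.2).2 ^ 2, (x - hv n m.2).1 / (x - hv n m.2).2] : C2) = m.1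
        rw [p1, p2, hw, mul_div_cancel_left₀ _ hw0, vec_eq]
      · filter_upwards [e1, e2, hu2.continuousAt.eventually_ne (y := 0) (by rw [p2]; exact hw0)]
          with v hv1 hv2 hv3
        show ek mk v.2 (hv n v.2) ((v.1 - hv n v.2).2 ^ 2,
          ((v.1 - hv n v.2).1 / (v.1 - hv n v.2).2, 1)) = mk v.1 (pt 0) v.2
        have q : hv n v.2 + (v.1 - hv n v.2).2 •
            ((v.1 - hv n v.2).1 / (v.1 - hv n v.2).2, (1 : ℂ)) = v.1 := by
          rw [Prod.smul_mk, smul_eq_mul, smul_eq_mul, mul_div_cancel₀ _ hv3, mul_one]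
          exact add_sub_cancel _ _
        rw [h.ek_sq hv1 (hv_add _ _), q]
        exact h.nt hv1 hv2 _ _
    · have p1 : (x - hv n m.2).1 = w := by rw [hux]; exact mul_one w
      have p2 : (x - hv n m.2).2 = w * m.1 1 := by rw [hux]; rfl
      refine ⟨fun v => (!₂[(v.1 - hv n v.2).1 ^ 2, (v.1 - hv n v.2).2 / (v.1 - hv n v.2).1], v.2),
        (an_vec (hu1.pow 2) (hu2.div hu1 (by rw [p1]; exact hw0))).prod analyticAt_snd, ?_, ?_⟩
      · refine Prod.ext ?_ rfl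
        show (!₂[(x - hv n m.2).1 ^ 2, (x - hv n m.2).2 / (x - hv n m.2).1] : C2) = m.1
        rw [p1, p2, hw, mul_div_cancel_left₀ _ hw0, vec_eq]
      · filter_upwards [e1, e2, hu1.continuousAt.eventually_ne (y := 0) (by rw [p1]; exact hw0)]
          with v hv1 hv2 hv3
        show ek mk v.2 (hv n v.2) ((v.1 - hv n v.2).1 ^ 2,
          (1, (v.1 - hv n v.2).2 / (v.1 - hv n v.2).1)) = mk v.1 (pt 0) v.2
        have q : hv n v.2 + (v.1 - hv n v.2).1 •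
            ((1 : ℂ), (v.1 - hv n v.2).2 / (v.1 - hv n v.2).1) = v.1 := by
          rw [Prod.smul_mk, smul_eq_mul, smul_eq_mul, mul_div_cancel₀ _ hv3, mul_one]
          exact add_sub_cancel _ _
        rw [h.ek_sq hv1 (hv_add _ _), q]
        exact h.nt hv1 hv2 _ _

theorem move (h : Mk mk) {t : Tk} {x x' : ℂ × ℂ} (hx : x - x' ∈ Lat t ∨ x + x' ∈ Lat t) :
    ∃ (s : ℤ) (k : Fin 4 → ℤ), s • x + ∑ j, k j • t j = x' ∧
      ∀ y t', LinearIndependent ℝ t' → qk mk t' (s • y + ∑ j, k j • t' j) = qk mk t' y := by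
  rcases hx with hx | hx
  · obtain ⟨k, hk⟩ := mem_lat.1 ((Lat t).neg_mem hx)
    refine ⟨1, k, by rw [hk, one_smul]; abel, fun y t' ht' => ?_⟩
    refine (h.eq _ _ _ _ _ _ ht' ht').2 ⟨rfl, Or.inl (mem_lat.2 ⟨k, ?_⟩), fun _ => rfl⟩
    rw [one_smul, add_sub_cancel_left]
  · obtain ⟨k, hk⟩ := mem_lat.1 hx
    refine ⟨-1, k, by rw [hk, neg_smul, one_smul]; abel, fun y t' ht' => ?_⟩
    refine (h.eq _ _ _ _ _ _ ht' ht').2 ⟨rfl, Or.inr (mem_lat.2 ⟨k, ?_⟩), fun _ => rfl⟩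
    rw [neg_smul, one_smul]
    abel

theorem exc (h : Mk mk) {i : (Fin 4 → ℤ) × Bool} {m : C2 × Tk} (hl : LinearIndependent ℝ m.2)
    (h0 : m.1 0 = 0) : Psi mk (some i) m = mk (hv i.1 m.2) (pt (dir i.2 (m.1 1))) m.2 := by
  show ek mk m.2 (hv i.1 m.2) (m.1 0, dir i.2 (m.1 1)) = _
  have := h.ek_sq hl (hv_add i.1 m.2) 0 (dir i.2 (m.1 1))
  rw [zero_smul, add_zero, zero_pow two_ne_zero] at this
  rw [h0, this]

theorem tors {t : Tk} {x x' : ℂ × ℂ} (hx : x - x' ∈ Lat t ∨ x + x' ∈ Lat t) :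
    x + x ∈ Lat t ↔ x' + x' ∈ Lat t := by
  rcases hx with hx | hx
  · have e : x + x = x' + x' + ((x - x') + (x - x')) := by abel
    rw [e]
    exact (Lat t).add_mem_iff_left ((Lat t).add_mem hx hx)
  · have e : x + x = (x + x') + (x + x') - (x' + x') := by abel
    rw [e]
    exact (Lat t).sub_mem_iff_right ((Lat t).add_mem hx hx)

theorem half {t : Tk} (hl : LinearIndependent ℝ t) {n n' : Fin 4 → ℤ}
    (hx : hv n t - hv n' t ∈ Lat t ∨ hv n t + hv n' t ∈ Lat t) (t' : Tk) :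
    hv n t' - hv n' t' ∈ Lat t' := by
  have h1 : hv n t - hv n' t ∈ Lat t := by
    rcases hx with hx | hx
    · exact hx
    · have e : hv n t - hv n' t = hv n t + hv n' t - (hv n' t + hv n' t) := by abel
      rw [e]
      exact (Lat t).sub_mem hx (hv_add _ _)
  obtain ⟨k, hk⟩ := mem_lat.1 h1
  have key : ∀ s : Tk, (∑ j, ((2 * k j - n j + n' j : ℤ) : ℝ) • s j) =
      (2 : ℂ) • (∑ j, k j • s j - (hv n s - hv n' s)) := by
    intro s
    simp only [hv, smul_sub, smul_smul, mul_inv_cancel₀ (two_ne_zero (α := ℂ)), one_smul,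
      Int.cast_smul_eq_zsmul, two_smul, ← Finset.sum_add_distrib, ← Finset.sum_sub_distrib]
    refine Finset.sum_congr rfl fun j _ => ?_
    module
  have h2 := Fintype.linearIndependent_iff.1 hl (fun j => ((2 * k j - n j + n' j : ℤ) : ℝ))
    (by rw [key, hk, sub_self, smul_zero])
  refine mem_lat.2 ⟨k, ?_⟩
  have h3 := key t'
  rw [Finset.sum_eq_zero fun j _ => by rw [h2 j, zero_smul], eq_comm, smul_eq_zero] at h3
  exact sub_eq_zero.1 (h3.resolve_left two_ne_zero)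

theorem scale (h : Mk mk) {t : Tk} (hl : LinearIndependent ℝ t) {μ μ' : ℂ × ℂ}
    (hμ : μ + μ ∈ Lat t) (hμ' : μ' + μ' ∈ Lat t) (hd : μ - μ' ∈ Lat t) {c : ℂ} (hc : c ≠ 0)
    (s : ℂ) {α : ℂ × ℂ} (hα : α ≠ 0) :
    ek mk t μ' (s * c ^ 2, c⁻¹ • α) = ek mk t μ (s, α) := by
  obtain ⟨w, rfl⟩ := IsAlgClosed.exists_pow_nat_eq s (n := 2) (by norm_num)
  rw [← mul_pow, h.ek_sq hl hμ, h.ek_sq hl hμ', smul_smul, mul_inv_cancel_right₀ hc, eq_comm]
  refine (h.eq _ _ _ _ _ _ hl hl).2 ⟨rfl, Or.inl ?_, fun _ => ?_⟩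
  · rw [add_sub_add_right_eq_sub]
    exact hd
  · exact ((rep_pt hα).smul (inv_ne_zero hc)).inj (rep_pt (smul_ne_zero (inv_ne_zero hc) hα))

theorem dir_not (b : Bool) {a : ℂ} (ha : a ≠ 0) : dir (!b) a⁻¹ = a⁻¹ • dir b a := by
  cases b
  · exact Prod.ext (inv_mul_cancel₀ ha).symm (mul_one _).symm
  · exact Prod.ext (mul_one _).symm (inv_mul_cancel₀ ha).symm

theorem both (h : Mk mk) {i j : (Fin 4 → ℤ) × Bool} {m m' : C2 × Tk}
    (hl : LinearIndependent ℝ m.2) (hl' : LinearIndependent ℝ m'.2) (h0 : m.1 0 = 0)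
    (h0' : m'.1 0 = 0) (e : Psi mk (some i) m = Psi mk (some j) m') :
    ∃ τ : C2 × Tk → C2 × Tk, AnalyticAt ℂ τ m ∧ τ m = m' ∧
      ∀ᶠ n in 𝓝 m, Psi mk (some j) (τ n) = Psi mk (some i) n := by
  rw [exc h hl h0, exc h hl' h0'] at e
  obtain ⟨ht, hx, hp⟩ := (h.eq _ _ _ _ _ _ hl hl').1 e
  rw [← ht] at hx
  have hd := half hl hx
  have hq := ((rep_pt (dir_ne _ _)).eq_iff (rep_pt (dir_ne _ _))).1 (hp (hv_add _ _))
  have e1 : ∀ᶠ n : C2 × Tk in 𝓝 m, LinearIndependent ℝ n.2 :=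
    continuousAt_snd.eventually (isOpen_li.mem_nhds hl)
  obtain ⟨n, b⟩ := i
  obtain ⟨n', b'⟩ := j
  by_cases hb : b' = b
  · subst hb
    have ha : m.1 1 = m'.1 1 := by
      cases b'
      · simpa [dir] using hq
      · simpa [dir, eq_comm] using hq
    refine ⟨id, analyticAt_id, Prod.ext ?_ ht, ?_⟩
    · show m.1 = m'.1
      rw [← vec_eq m.1, ← vec_eq m'.1, h0, h0', ha]
    · filter_upwards [e1] with v hv1
      have := scale h hv1 (hv_add n v.2) (hv_add n' v.2) (hd v.2) one_ne_zero (v.1 0)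
        (dir_ne b' (v.1 1))
      rw [one_pow, mul_one, inv_one, one_smul] at this
      exact this
  · obtain rfl : b' = !b := Bool.eq_not_iff.2 hb
    have ha : m.1 1 * m'.1 1 = 1 := by
      cases b
      · simpa [dir] using hq
      · simpa [dir, eq_comm] using hq
    have ha0 : m.1 1 ≠ 0 := left_ne_zero_of_mul_eq_one ha
    have a0 : AnalyticAt ℂ (fun n : C2 × Tk => n.1 0) m := an_co analyticAt_fst 0
    have a1 : AnalyticAt ℂ (fun n : C2 × Tk => n.1 1) m := an_co analyticAt_fst 1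
    refine ⟨fun v => (!₂[v.1 0 * v.1 1 ^ 2, (v.1 1)⁻¹], v.2),
      (an_vec (a0.mul (a1.pow 2)) (a1.inv ha0)).prod analyticAt_snd, Prod.ext ?_ ht, ?_⟩
    · show (!₂[m.1 0 * m.1 1 ^ 2, (m.1 1)⁻¹] : C2) = m'.1
      rw [← vec_eq m'.1, h0, h0', zero_mul, inv_eq_of_mul_eq_one_right ha]
    · filter_upwards [e1, a1.continuousAt.eventually_ne ha0] with v hv1 hv2
      have := scale h hv1 (hv_add n v.2) (hv_add n' v.2) (hd v.2) hv2 (v.1 0) (dir_ne b (v.1 1))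
      rw [← dir_not b hv2] at this
      exact this

theorem not_ne {i : Option ((Fin 4 → ℤ) × Bool)} {m : C2 × Tk} (hn : ¬NE i m) :
    ∃ k, i = some k ∧ m.1 0 = 0 := by
  obtain ⟨h1, h2⟩ := not_or.1 hn
  obtain ⟨k, hk⟩ := Option.ne_none_iff_exists'.1 h1
  exact ⟨k, hk, not_not.1 h2⟩

theorem mixed (h : Mk mk) {i j : Option ((Fin 4 → ℤ) × Bool)} {m m' : C2 × Tk}
    (hm : m ∈ Okm i) (hm' : m' ∈ Okm j) (e : Psi mk i m = Psi mk j m') (hn : NE j m') :
    NE i m := by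
  by_contra hc
  obtain ⟨k, rfl, h0⟩ := not_ne hc
  obtain ⟨X, -, hX, hev⟩ := lift h hm' hn
  rw [exc h (okm_li hm) h0, hev.self_of_nhds] at e
  obtain ⟨ht, hx, -⟩ := (h.eq _ _ _ _ _ _ (okm_li hm) (okm_li hm')).1 e
  exact hX (ht ▸ (tors hx).1 (hv_add _ _))

end KAt2

theorem Mk.trans (h : Mk mk) (i j : Option ((Fin 4 → ℤ) × Bool)) {m m' : C2 × Tk}
    (hm : m ∈ Okm i) (hm' : m' ∈ Okm j) (e : Psi mk i m = Psi mk j m') :
    ∃ τ : C2 × Tk → C2 × Tk, AnalyticAt ℂ τ m ∧ τ m = m' ∧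
      ∀ᶠ n in 𝓝 m, Psi mk j (τ n) = Psi mk i n := by
  by_cases hn : KAt2.NE i m
  · have hn' := KAt2.mixed h hm' hm e.symm hn
    obtain ⟨X, hX, -, hev⟩ := KAt2.lift h hm hn
    obtain ⟨x, -, σ, hσ, hσm, hσe⟩ := KAt2.desc h hm' hn'
    have e' := hσe.self_of_nhds
    rw [hσm, ← e, hev.self_of_nhds] at e'
    obtain ⟨ht, hx, -⟩ := (h.eq _ _ _ _ _ _ (okm_li hm) (okm_li hm')).1 e'
    obtain ⟨s, k, hk, hq⟩ := KAt2.move h hx
    have hG : AnalyticAt ℂ (fun n : C2 × Tk => (s • X n + ∑ j, k j • n.2 j, n.2)) m :=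
      ((hX.const_smul (c := s)).add (KAt2.an_sum analyticAt_snd k)).prod analyticAt_snd
    have hGm : (s • X m + ∑ j, k j • m.2 j, m.2) = (x, m'.2) := Prod.ext hk ht
    rw [← hGm] at hσ hσm hσe
    refine ⟨fun n => σ (s • X n + ∑ j, k j • n.2 j, n.2), hσ.comp_of_eq hG rfl, hσm, ?_⟩
    filter_upwards [hev, hG.continuousAt.eventually hσe,
      continuousAt_snd.eventually (isOpen_li.mem_nhds (okm_li hm))] with n h1 h2 h3
    rw [h1, h2]
    exact hq _ _ h3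
  · have hn' : ¬KAt2.NE j m' := fun hc => hn (KAt2.mixed h hm hm' e hc)
    obtain ⟨k, rfl, h0⟩ := KAt2.not_ne hn
    obtain ⟨k', rfl, h0'⟩ := KAt2.not_ne hn'
    exact KAt2.both h (okm_li hm) (okm_li hm') h0 h0' e

end Vale.Agent.P290
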