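import Vale.Agent.P290K.KAt1

/-! The atlas of the family: separation. -/

open Set Filter Metric
open scoped Manifold ContDiff Topology

noncomputable section

namespace Vale.Agent.P290

variable {Y : Type} {mk : ℂ × ℂ → P1 → Tk → Y}

namespace KAt3

theorem root (h₀ : ℂ) : ∃ ρ : ℂ → ℂ, (∀ z, ρ z ^ 2 = z) ∧ ContinuousAt ρ h₀ := by
  have sq : ∀ z : ℂ, (z ^ (2⁻¹ : ℂ)) ^ 2 = z := fun z => by
    simp
  have hre : 0 < (2⁻¹ : ℂ).re := by norm_num
  by_cases h : h₀ = 0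
  · exact ⟨_, sq, Complex.continuousAt_cpow_const_of_re_pos (Or.inl (by simp [h])) hre⟩
  · refine ⟨fun z => h₀ ^ (2⁻¹ : ℂ) * (z / h₀) ^ (2⁻¹ : ℂ), fun z => ?_, ?_⟩
    · rw [mul_pow, sq, sq, mul_div_cancel₀ _ h]
    · refine continuousAt_const.mul (ContinuousAt.comp (g := fun z : ℂ => z ^ (2⁻¹ : ℂ))
        (f := fun z => z / h₀) ?_ (by fun_prop))
      exact Complex.continuousAt_cpow_const_of_re_pos (Or.inl (by simp [div_self h])) hre

theorem cdir (b : Bool) : Continuous (dir b) := by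
  cases b
  · exact continuous_id.prodMk continuous_const
  · exact continuous_const.prodMk continuous_id

theorem chv (k : Fin 4 → ℤ) : Continuous (hv k) := by
  unfold hv
  fun_prop

theorem loc (h : Mk mk) (i : Option ((Fin 4 → ℤ) × Bool)) {m : C2 × Tk} (hm : m ∈ Okm i) :
    ∃ (y : C2 × Tk → ℂ × ℂ) (a : C2 × Tk → P1), ContinuousAt y m ∧
      (∀ n : C2 × Tk, LinearIndependent ℝ n.2 → Psi mk i n = mk (y n) (a n) n.2) ∧
      (y m + y m ∈ Lat m.2 → ∃ (k : Fin 4 → ℤ) (w : C2 × Tk → ℂ) (α : C2 × Tk → ℂ × ℂ),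
        ContinuousAt w m ∧ w m = 0 ∧ Continuous α ∧
          ∀ n, α n ≠ 0 ∧ y n = hv k n.2 + w n • α n ∧ a n = pt (α n)) := by
  have c0 : Continuous fun n : C2 × Tk => n.1 0 := by fun_prop
  have c1 : Continuous fun n : C2 × Tk => n.1 1 := by fun_prop
  rcases i with _ | ⟨k, b⟩
  · exact ⟨fun n => (n.1 0, n.1 1), fun _ => pt 0, (c0.prodMk c1).continuousAt,
      fun _ _ => rfl, fun h1 => (hm.2 h1).elim⟩
  · obtain ⟨ρ, h1, h2⟩ := root (m.1 0)
    have h3 : ContinuousAt (fun n : C2 × Tk => ρ (n.1 0)) m :=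
      ContinuousAt.comp (f := fun n : C2 × Tk => n.1 0) h2 c0.continuousAt
    have h4 : Continuous fun n : C2 × Tk => dir b (n.1 1) := (cdir b).comp c1
    refine ⟨fun n => hv k n.2 + ρ (n.1 0) • dir b (n.1 1), fun n => pt (dir b (n.1 1)),
      ((chv k).comp continuous_snd).continuousAt.add (h3.smul h4.continuousAt), fun n hn => ?_,
      fun h5 => ⟨k, _, _, h3, ?_, h4, fun n => ⟨dir_ne _ _, rfl, rfl⟩⟩⟩
    · rw [← h.ek_sq hn (hv_add k n.2), h1]
      rfl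
    · by_contra h6
      exact okm_nt hm (h1 _) h6 h5

theorem half {t : Tk} (ht : LinearIndependent ℝ t) {k k' : Fin 4 → ℤ}
    (h : hv k t - hv k' t ∈ Lat t) (s : Tk) : hv k s - hv k' s ∈ Lat s := by
  obtain ⟨l, hl⟩ := mem_lat.1 h
  have key : ∀ s : Tk, (hv k s - hv k' s) + (hv k s - hv k' s) = ∑ j, (k j - k' j) • s j := by
    intro s
    simp only [hv, sub_smul, Finset.sum_sub_distrib]
    module
  have h1 : ∑ j, ((k j - k' j - (l j + l j) : ℤ) : ℝ) • t j = 0 := by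
    simp only [Int.cast_smul_eq_zsmul]
    rw [Finset.sum_congr rfl fun j _ => sub_smul (k j - k' j) (l j + l j) (t j),
      Finset.sum_sub_distrib, ← key, ← hl]
    simp only [add_smul, Finset.sum_add_distrib, sub_self]
  have h2 : ∀ j, k j - k' j = l j + l j := fun j => by
    have h3 := Fintype.linearIndependent_iff.1 ht _ h1 j
    exact sub_eq_zero.1 (by exact_mod_cast h3)
  refine mem_lat.2 ⟨l, ?_⟩
  have h4 := key s
  simp only [h2, add_smul, Finset.sum_add_distrib] at h4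
  have h5 : (2 : ℂ) • (∑ j, l j • s j) = (2 : ℂ) • (hv k s - hv k' s) := by
    rw [two_smul, two_smul, h4]
  exact smul_right_injective _ two_ne_zero h5

theorem cross {s : Tk} {δ : ℝ} (h3 : ∀ l ∈ Lat s, ‖l‖ < δ → l = 0) {k k' : Fin 4 → ℤ}
    (g4 : hv k s - hv k' s ∈ Lat s) {w w' : ℂ} {α α' : ℂ × ℂ} (h4 : ‖w • α - w' • α'‖ < δ)
    (h5 : ‖w • α + w' • α'‖ < δ)
    (h7 : hv k s + w • α - (hv k' s + w' • α') ∈ Lat s ∨
      hv k s + w • α + (hv k' s + w' • α') ∈ Lat s) :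
    w * (α.1 * α'.2 - α.2 * α'.1) = 0 := by
  rcases h7 with h7 | h7
  · have g := sub_mem h7 g4
    rw [show hv k s + w • α - (hv k' s + w' • α') - (hv k s - hv k' s) = w • α - w' • α' by
      abel] at g
    have g' := h3 _ g h4
    have q1 := congrArg Prod.fst g'
    have q2 := congrArg Prod.snd g'
    simp only [Prod.fst_sub, Prod.snd_sub, Prod.smul_fst, Prod.smul_snd, smul_eq_mul,
      Prod.fst_zero, Prod.snd_zero] at q1 q2
    linear_combination α'.2 * q1 - α'.1 * q2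
  · have g := sub_mem h7 (add_mem g4 (hv_add k' s))
    rw [show hv k s + w • α + (hv k' s + w' • α') - (hv k s - hv k' s + (hv k' s + hv k' s)) =
      w • α + w' • α' by abel] at g
    have g' := h3 _ g h5
    have q1 := congrArg Prod.fst g'
    have q2 := congrArg Prod.snd g'
    simp only [Prod.fst_add, Prod.snd_add, Prod.smul_fst, Prod.smul_snd, smul_eq_mul,
      Prod.fst_zero, Prod.snd_zero] at q1 q2
    linear_combination α'.2 * q1 - α'.1 * q2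

theorem exc {V : Type} [TopologicalSpace V] {v₀ : V} {s : V → Tk} (cs : ContinuousAt s v₀)
    (l1 : LinearIndependent ℝ (s v₀)) {k k' : Fin 4 → ℤ} {w w' : V → ℂ} {α α' : V → ℂ × ℂ}
    (cw : ContinuousAt w v₀) (cw' : ContinuousAt w' v₀) (w0 : w v₀ = 0) (w0' : w' v₀ = 0)
    (cα : Continuous α) (cα' : Continuous α')
    (hl : hv k (s v₀) - hv k' (s v₀) ∈ Lat (s v₀) ∨ hv k (s v₀) + hv k' (s v₀) ∈ Lat (s v₀))
    (g2 : (α v₀).1 * (α' v₀).2 ≠ (α v₀).2 * (α' v₀).1) :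
    ∀ᶠ v in 𝓝 v₀, (α v).1 * (α' v).2 ≠ (α v).2 * (α' v).1 ∧
      (hv k (s v) + w v • α v - (hv k' (s v) + w' v • α' v) ∈ Lat (s v) ∨
        hv k (s v) + w v • α v + (hv k' (s v) + w' v • α' v) ∈ Lat (s v) → w v = 0) := by
  have g4 : ∀ s, hv k s - hv k' s ∈ Lat s := by
    refine half l1 ?_
    rcases hl with hl | hl
    · exact hl
    · have g := sub_mem hl (hv_add k' (s v₀))
      rwa [add_sub_add_right_eq_sub] at g
  have f1 : ∀ᶠ v in 𝓝 v₀, (α v).1 * (α' v).2 ≠ (α v).2 * (α' v).1 :=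
    (isOpen_ne_fun (cα.fst.mul cα'.snd) (cα.snd.mul cα'.fst)).mem_nhds g2
  obtain ⟨δ, hδ, f2⟩ := lat_small l1
  have f3 := cs.eventually f2
  have b1 := cw.smul (cα.continuousAt (x := v₀))
  have b2 := cw'.smul (cα'.continuousAt (x := v₀))
  have f4 := (b1.sub b2).norm.eventually_lt continuousAt_const (g := fun _ => δ)
    (by simpa [w0, w0'] using hδ)
  have f5 := (b1.add b2).norm.eventually_lt continuousAt_const (g := fun _ => δ)
    (by simpa [w0, w0'] using hδ)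
  filter_upwards [f1, f3, f4, f5] with v h1 h3 h4 h5
  exact ⟨h1, fun h7 =>
    (mul_eq_zero.1 (cross h3 (g4 _) h4 h5 h7)).resolve_right (sub_ne_zero.2 h1)⟩

theorem tors {Λ : Submodule ℤ (ℂ × ℂ)} {x x' : ℂ × ℂ} (g1 : x + x ∈ Λ)
    (hl : x - x' ∈ Λ ∨ x + x' ∈ Λ) : x' + x' ∈ Λ := by
  rcases hl with hl | hl
  · have g := sub_mem g1 (add_mem hl hl)
    rwa [show x + x - (x - x' + (x - x')) = x' + x' by abel] at g
  · have g := sub_mem (add_mem hl hl) g1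
    rwa [show x + x' + (x + x') - (x + x) = x' + x' by abel] at g

theorem gen {V : Type} [TopologicalSpace V] {v₀ : V} {s s' : V → Tk} (c1 : Continuous s)
    (c2 : Continuous s') (l1 : LinearIndependent ℝ (s v₀)) {y y' : V → ℂ × ℂ}
    (d1 : ContinuousAt y v₀) (d2 : ContinuousAt y' v₀) {a a' : V → P1}
    (ty : y v₀ + y v₀ ∈ Lat (s v₀) → ∃ (k : Fin 4 → ℤ) (w : V → ℂ) (α : V → ℂ × ℂ),
      ContinuousAt w v₀ ∧ w v₀ = 0 ∧ Continuous α ∧
        ∀ n, α n ≠ 0 ∧ y n = hv k (s n) + w n • α n ∧ a n = pt (α n))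
    (ty' : y' v₀ + y' v₀ ∈ Lat (s' v₀) → ∃ (k : Fin 4 → ℤ) (w : V → ℂ) (α : V → ℂ × ℂ),
      ContinuousAt w v₀ ∧ w v₀ = 0 ∧ Continuous α ∧
        ∀ n, α n ≠ 0 ∧ y' n = hv k (s' n) + w n • α n ∧ a' n = pt (α n))
    (e : ¬(s v₀ = s' v₀ ∧ (y v₀ - y' v₀ ∈ Lat (s v₀) ∨ y v₀ + y' v₀ ∈ Lat (s v₀)) ∧
      (y v₀ + y v₀ ∈ Lat (s v₀) → a v₀ = a' v₀))) :
    ∀ᶠ v in 𝓝 v₀, ¬(s v = s' v ∧ (y v - y' v ∈ Lat (s v) ∨ y v + y' v ∈ Lat (s v)) ∧
      (y v + y v ∈ Lat (s v) → a v = a' v)) := by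
  by_cases ht : s v₀ = s' v₀
  swap
  · filter_upwards [(isOpen_ne_fun c1 c2).mem_nhds ht] with v h1 h2
    exact h1 h2.1
  by_cases hl : y v₀ - y' v₀ ∈ Lat (s v₀) ∨ y v₀ + y' v₀ ∈ Lat (s v₀)
  swap
  · rw [not_or] at hl
    have f1 := ((d1.sub d2).prodMk c1.continuousAt).eventually (lat_not l1 hl.1)
    have f2 := ((d1.add d2).prodMk c1.continuousAt).eventually (lat_not l1 hl.2)
    filter_upwards [f1, f2] with v h1 h2 h3
    exact h3.2.1.elim h1 h2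
  have g1 : y v₀ + y v₀ ∈ Lat (s v₀) := by
    by_contra g1
    exact e ⟨ht, hl, fun g => (g1 g).elim⟩
  have g2 : a v₀ ≠ a' v₀ := fun g => e ⟨ht, hl, fun _ => g⟩
  obtain ⟨k, w, α, cw, w0, cα, hα⟩ := ty g1
  obtain ⟨k', w', α', cw', w0', cα', hα'⟩ := ty' (ht ▸ tors g1 hl)
  have par : ∀ n, a n = a' n ↔ (α n).1 * (α' n).2 = (α n).2 * (α' n).1 := fun n => by
    rw [(hα n).2.2, (hα' n).2.2]
    exact (rep_pt (hα n).1).eq_iff (rep_pt (hα' n).1)
  rw [(hα v₀).2.1, (hα' v₀).2.1, w0, w0', zero_smul, zero_smul, add_zero, add_zero, ← ht] at hl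
  filter_upwards [exc c1.continuousAt l1 cw cw' w0 w0' cα cα' hl fun g => g2 ((par v₀).2 g)]
    with v h1 h2
  obtain ⟨h6, h7, h8⟩ := h2
  rw [(hα v).2.1, (hα' v).2.1, ← h6] at h7
  refine h1.1 ((par _).1 (h8 ?_))
  rw [(hα v).2.1, h1.2 h7, zero_smul, add_zero]
  exact hv_add k _

end KAt3

theorem Mk.sep (h : Mk mk) (i j : Option ((Fin 4 → ℤ) × Bool)) {m m' : C2 × Tk}
    (hm : m ∈ Okm i) (hm' : m' ∈ Okm j) (e : Psi mk i m ≠ Psi mk j m') :
    ∀ᶠ v : (C2 × Tk) × C2 × Tk in 𝓝 (m, m'), Psi mk i v.1 ≠ Psi mk j v.2 := by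
  obtain ⟨y, a, cy, py, ty⟩ := KAt3.loc h i hm
  obtain ⟨y', a', cy', py', ty'⟩ := KAt3.loc h j hm'
  have l1 := okm_li hm
  have l2 := okm_li hm'
  have c1 : Continuous fun v : (C2 × Tk) × C2 × Tk => v.1.2 := continuous_fst.snd
  have c2 : Continuous fun v : (C2 × Tk) × C2 × Tk => v.2.2 := continuous_snd.snd
  have e1 : ∀ᶠ v : (C2 × Tk) × C2 × Tk in 𝓝 (m, m'), LinearIndependent ℝ v.1.2 :=
    (isOpen_li.preimage c1).mem_nhds l1
  have e2 : ∀ᶠ v : (C2 × Tk) × C2 × Tk in 𝓝 (m, m'), LinearIndependent ℝ v.2.2 :=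
    (isOpen_li.preimage c2).mem_nhds l2
  rw [py _ l1, py' _ l2, Ne, h.eq _ _ _ _ _ _ l1 l2] at e
  have H := KAt3.gen (v₀ := (m, m')) c1 c2 l1 (y := fun v => y v.1) (y' := fun v => y' v.2)
    (ContinuousAt.comp (f := Prod.fst) cy continuousAt_fst)
    (ContinuousAt.comp (f := Prod.snd) cy' continuousAt_snd)
    (a := fun v => a v.1) (a' := fun v => a' v.2)
    (fun g => by
      obtain ⟨k, w, α, cw, w0, cα, hα⟩ := ty g
      exact ⟨k, fun v => w v.1, fun v => α v.1,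
        ContinuousAt.comp (f := Prod.fst) cw continuousAt_fst, w0, cα.comp continuous_fst,
        fun v => hα v.1⟩)
    (fun g => by
      obtain ⟨k, w, α, cw, w0, cα, hα⟩ := ty' g
      exact ⟨k, fun v => w v.2, fun v => α v.2,
        ContinuousAt.comp (f := Prod.snd) cw continuousAt_snd, w0, cα.comp continuous_snd,
        fun v => hα v.2⟩) e
  filter_upwards [H, e1, e2] with v h1 h2 h3
  rw [py _ h2, py' _ h3]
  exact fun h4 => h1 ((h.eq _ _ _ _ _ _ h2 h3).1 h4)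

end Vale.Agent.P290
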