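import Vale.Agent.P290K.KLat

/-! Kummer surfaces are compact. -/

open Set Filter Metric
open scoped Manifold ContDiff Topology

noncomputable section

namespace Vale.Agent.P290

variable {X : Type} [MetricSpace X] [ChartedSpace C2 X] [IsManifold 𝓘(ℂ, C2) ω X]
  {Λ : Submodule ℤ (ℂ × ℂ)} {q : ℂ × ℂ → X} {e : ℂ × ℂ → ℂ × ℂ × ℂ → X}

theorem Kum.compact (h : Kum Λ q e) (hd : IsDisc Λ) (hR : ∃ R : ℝ, ∀ x, ∃ l ∈ Λ, ‖x - l‖ ≤ R) :
    CompactSpace X := by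
  obtain ⟨R, hR⟩ := hR
  obtain ⟨δ, hδ, hd'⟩ := hd
  have rep : ∀ y : X, ∃ z : (ℂ × ℂ) × (ℂ × ℂ), z.1 ∈ closedBall (0 : ℂ × ℂ) R ∧
      z.2 ∈ sphere (0 : ℂ × ℂ) 1 ∧ (z.1 + z.1 ∉ Λ → q z.1 = y) ∧
      (z.1 + z.1 ∈ Λ → e z.1 (0, z.2) = y) := by
    intro y
    have sh : ∀ x l : ℂ × ℂ, l ∈ Λ → (x - l + (x - l) ∈ Λ ↔ x + x ∈ Λ) := fun x l hl => by
      rw [show x - l + (x - l) = x + x - (l + l) by abel]
      exact Λ.sub_mem_iff_left (Λ.add_mem hl hl)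
    rcases h.cover y with ⟨x, hx, rfl⟩ | ⟨μ, α, hμ, hα, rfl⟩
    · obtain ⟨l, hl, hx'⟩ := hR x
      have h1 := mt (sh x l hl).1 hx
      refine ⟨(x - l, (1, 0)), mem_closedBall_zero_iff.2 hx', by simp, fun _ => ?_,
        fun h2 => absurd h2 h1⟩
      exact (h.qeq _ _ h1 hx).2 (Or.inl (by simpa using hl))
    · obtain ⟨l, hl, hx'⟩ := hR μ
      have h1 := (sh μ l hl).2 hμ
      have h0 : (‖α‖ : ℂ) ≠ 0 := by simpa using hα
      refine ⟨(μ - l, (‖α‖ : ℂ)⁻¹ • α), mem_closedBall_zero_iff.2 hx', ?_,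
        fun h2 => absurd h1 h2, fun _ => ?_⟩
      · simp [norm_smul, hα]
      · refine (h.eeq _ _ _ _ h1 hμ (smul_ne_zero (inv_ne_zero h0) hα) hα).2
          ⟨by simpa using hl, ?_⟩
        simp only [Prod.smul_fst, Prod.smul_snd, smul_eq_mul]
        ring
  choose g g1 g2 g3 g4 using rep
  have lim : ∀ (U : Ultrafilter X) {K : Set (ℂ × ℂ)}, IsCompact K → ∀ f : X → ℂ × ℂ,
      (∀ᶠ y in U, f y ∈ K) → ∃ x ∈ K, Tendsto f U (𝓝 x) := fun U K hK f hf =>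
    hK.ultrafilter_le_nhds (U.map f) (le_principal_iff.2 hf)
  have sep : ∀ x y : ℂ × ℂ, x + x ∈ Λ → y + y ∈ Λ → ‖x - y‖ < δ / 2 → x = y := by
    intro x y hx hy hxy
    have e1 : x + x - (y + y) = (2 : ℂ) • (x - y) := by module
    have h1 := hd' _ (Λ.sub_mem hx hy) (by
      rw [e1, norm_smul, Complex.norm_ofNat]
      linarith)
    rw [e1, smul_eq_zero] at h1
    exact sub_eq_zero.1 (h1.resolve_left two_ne_zero)
  have ne1 : ∀ {α : ℂ × ℂ}, α ∈ sphere (0 : ℂ × ℂ) 1 → α ≠ 0 := fun hα =>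
    ne_zero_of_mem_sphere one_ne_zero ⟨_, hα⟩
  refine ⟨isCompact_iff_ultrafilter_le_nhds.2 fun U _ => ?_⟩
  suffices ∃ y, Tendsto id (U : Filter X) (𝓝 y) from
    let ⟨y, hy⟩ := this
    ⟨y, mem_univ _, hy⟩
  obtain ⟨x, -, hx⟩ := lim U (isCompact_closedBall 0 R) (fun y => (g y).1) (.of_forall g1)
  have near : ∀ ε > (0 : ℝ), ∀ᶠ y in U, ‖(g y).1 - x‖ < ε := fun ε hε => by
    simpa only [dist_eq_norm] using Metric.tendsto_nhds.1 hx ε hε
  by_cases ht : x + x ∈ Λ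
  · rcases U.em fun y => (g y).1 = x with h1 | h1
    · obtain ⟨α, hα, ha⟩ := lim U (isCompact_sphere 0 1) (fun y => (g y).2) (.of_forall g2)
      refine ⟨_, (((h.ehol x α ht (ne1 hα)).1.continuousAt.tendsto.comp
        (tendsto_const_nhds.prodMk_nhds ha)).congr' ?_)⟩
      filter_upwards [h1] with y hy
      have := g4 y (by rwa [hy])
      rwa [hy] at this
    · have w0 : ∀ᶠ y in U, (‖(g y).1 - x‖ : ℂ) ≠ 0 := h1.mono fun y hy => by
        simpa [sub_eq_zero] using hy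
      obtain ⟨α, hα, ha⟩ := lim U (isCompact_sphere 0 1)
        (fun y => (‖(g y).1 - x‖ : ℂ)⁻¹ • ((g y).1 - x)) (h1.mono fun y hy => by
          simp [norm_smul, sub_eq_zero, hy])
      have hw : Tendsto (fun y => (‖(g y).1 - x‖ : ℂ)) U (𝓝 0) := by
        have := Complex.continuous_ofReal.continuousAt.tendsto.comp
          (tendsto_iff_norm_sub_tendsto_zero.1 hx)
        rwa [Complex.ofReal_zero] at this
      obtain ⟨a1, -, a3⟩ := h.ehol x α ht (ne1 hα)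
      have hw2 : Tendsto (fun y => (‖(g y).1 - x‖ : ℂ) ^ 2) U (𝓝 0) := by
        simpa using hw.pow 2
      refine ⟨_, (a1.continuousAt.tendsto.comp (hw2.prodMk_nhds ha)).congr' ?_⟩
      filter_upwards [h1, w0, (hw.prodMk_nhds ha).eventually a3, near _ (half_pos hδ)]
        with y y1 y0 y2 y3
      have := y2 y0
      simp only [smul_inv_smul₀ y0, add_sub_cancel] at this
      exact this.trans (g3 y fun h2 => y1 (sep _ _ h2 ht y3))
  · refine ⟨_, ((h.qhol x ht).1.continuousAt.tendsto.comp hx).congr' ?_⟩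
    by_cases hn : ∃ μ, μ + μ ∈ Λ ∧ ‖μ - x‖ < δ / 4
    · obtain ⟨μ, hμ, hμ'⟩ := hn
      have h0 : 0 < ‖μ - x‖ := norm_pos_iff.2 (sub_ne_zero.2 fun e => ht (e ▸ hμ))
      filter_upwards [near _ h0] with y hy
      refine g3 y fun h2 => ?_
      have h3 := norm_sub_le_norm_sub_add_norm_sub (g y).1 x μ
      rw [norm_sub_rev x μ] at h3
      rw [sep _ _ h2 hμ (by linarith)] at hy
      exact lt_irrefl _ hy
    · filter_upwards [near (δ / 4) (by linarith)] with y hy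
      exact g3 y fun h2 => hn ⟨_, h2, hy⟩

end Vale.Agent.P290
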