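import Vale.Agent.P290K.KAt2
import Vale.Agent.P290K.KAt3
import Vale.Agent.P290K.GlueF
import Vale.Agent.P290K.KCpt

/-! The family of all Kummer surfaces. -/

open Set Filter Metric
open scoped Manifold ContDiff Topology

noncomputable section

namespace Vale.Agent.P290

namespace KFam

/-- Coordinates on the model space. -/
def c : (ℂ × ℂ) ≃L[ℂ] C2 :=
  (ContinuousLinearEquiv.finTwoArrow ℂ ℂ).symm.trans (EuclideanSpace.equiv (Fin 2) ℂ).symm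

theorem c0 (x : ℂ × ℂ) : c x 0 = x.1 := rfl

theorem c1 (x : ℂ × ℂ) : c x 1 = x.2 := rfl

theorem an_c (x : ℂ × ℂ) : AnalyticAt ℂ c x := (c : (ℂ × ℂ) →L[ℂ] C2).analyticAt x

theorem an_co (k : Fin 2) (u : C2) : AnalyticAt ℂ (fun v : C2 => v k) u :=
  (EuclideanSpace.proj k : C2 →L[ℂ] ℂ).analyticAt u

theorem an_dir (b : Bool) (a : ℂ) : AnalyticAt ℂ (dir b) a := by
  cases b
  · exact analyticAt_id.prod analyticAt_const
  · exact analyticAt_const.prod analyticAt_id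

theorem split {α : ℂ × ℂ} (h : α ≠ 0) : ∃ (b : Bool) (S A : ℂ × ℂ → ℂ), AnalyticAt ℂ S α ∧
    AnalyticAt ℂ A α ∧ ∀ᶠ β in 𝓝 α, S β ≠ 0 ∧ S β • dir b (A β) = β := by
  by_cases h1 : α.1 = 0
  · have h2 : α.2 ≠ 0 := fun h2 => h (Prod.ext h1 h2)
    refine ⟨false, Prod.snd, fun β => β.1 / β.2, analyticAt_snd,
      analyticAt_fst.div analyticAt_snd h2, ?_⟩
    filter_upwards [continuous_snd.continuousAt.eventually_ne h2] with β hβ
    exact ⟨hβ, Prod.ext (mul_div_cancel₀ _ hβ) (mul_one _)⟩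
  · refine ⟨true, Prod.fst, fun β => β.2 / β.1, analyticAt_fst,
      analyticAt_snd.div analyticAt_fst h1, ?_⟩
    filter_upwards [continuous_fst.continuousAt.eventually_ne h1] with β hβ
    exact ⟨hβ, Prod.ext (mul_one _) (mul_div_cancel₀ _ hβ)⟩

variable {Y : Type} {mk : ℂ × ℂ → P1 → Tk → Y} {t : Tk}

theorem ek_smul (h : Mk mk) (ht : LinearIndependent ℝ t) {μ d : ℂ × ℂ} (hμ : μ + μ ∈ Lat t)
    (hd : d ≠ 0) (z : ℂ) {s : ℂ} (hs : s ≠ 0) :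
    ek mk t μ (z, s • d) = ek mk t μ (z * s ^ 2, d) := by
  obtain ⟨w, rfl⟩ := IsAlgClosed.exists_pow_nat_eq z two_pos
  rw [← mul_pow, h.ek_sq ht hμ, h.ek_sq ht hμ, smul_smul,
    Rep.inj (rep_pt (smul_ne_zero hs hd)) ((rep_pt hd).smul hs)]

theorem ek_zero (h : Mk mk) (ht : LinearIndependent ℝ t) {μ : ℂ × ℂ} (hμ : μ + μ ∈ Lat t)
    (α : ℂ × ℂ) : ek mk t μ (0, α) = mk μ (pt α) t := by
  have h1 := h.ek_sq ht hμ 0 α
  rwa [zero_pow two_ne_zero, zero_smul, add_zero] at h1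

theorem kum {X : Type} [TopologicalSpace X] [ChartedSpace C2 X] [IsManifold 𝓘(ℂ, C2) ω X]
    (h : Mk mk) (ht : LinearIndependent ℝ t) {j : X → Y} (hj : Function.Injective j)
    (hr : ∀ x a, ∃ y, j y = mk x a t) (hs : ∀ y, ∃ x a, j y = mk x a t)
    (hg : ∀ i, ∃ g : C2 → X, (∀ u, j (g u) = Psi mk i (u, t)) ∧
      ∀ u, (u, t) ∈ Okm i → Hol g u ∧ Function.Bijective (dif g u)) :
    ∃ (q : ℂ × ℂ → X) (e : ℂ × ℂ → ℂ × ℂ × ℂ → X), Kum (Lat t) q e := by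
  choose R hR using hr
  obtain ⟨q, hq⟩ : ∃ q : ℂ × ℂ → X, ∀ x, j (q x) = mk x (pt 0) t := ⟨_, fun x => hR x _⟩
  obtain ⟨e, he⟩ : ∃ e : ℂ × ℂ → ℂ × ℂ × ℂ → X, ∀ μ v, j (e μ v) = ek mk t μ v :=
    ⟨_, fun μ v => hR _ _⟩
  refine ⟨q, e, fun x y hx _ => ?_, fun x hx => ?_, fun μ α hμ hα => ?_,
    fun μ μ' α α' hμ hμ' hα hα' => ?_, fun x μ α hx hμ _ h1 => ?_, fun y => ?_⟩
  · rw [← hj.eq_iff, hq, hq, h.eq _ _ _ _ _ _ ht ht]
    simp
  · obtain ⟨g, h1, h2⟩ := hg none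
    have h3 : q = fun x => g (c x) := funext fun x => hj ((hq x).trans (h1 (c x)).symm)
    obtain ⟨h4, h5⟩ := h2 (c x) ⟨ht, hx⟩
    rw [h3]
    refine ⟨h4.comp (an_c x), fun u v huv => ?_⟩
    rw [dif_comp h4 (an_c x), dif_comp h4 (an_c x), c.fderiv] at huv
    exact c.injective (h5.1 huv)
  · obtain ⟨n, rfl⟩ := exists_hv hμ
    obtain ⟨b, S, A, hS, hA, h1⟩ := split hα
    obtain ⟨g, h2, h3⟩ := hg (some (n, b))
    have h4 : ∀ u, j (g u) = ek mk t (hv n t) (u 0, dir b (u 1)) := h2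
    have h5 : Hol (e (hv n t)) (0, α) := by
      have a1 : AnalyticAt ℂ (fun v : ℂ × ℂ × ℂ => c (v.1 * S v.2 ^ 2, A v.2)) (0, α) :=
        (an_c _).comp ((analyticAt_fst.mul ((hS.comp_of_eq analyticAt_snd rfl).pow 2)).prod
          (hA.comp_of_eq analyticAt_snd rfl))
      refine (Hol.comp (h3 _ (okm_zero (n, b) ht (zero_mul _))).1 a1).congr ?_
      filter_upwards [(continuous_snd.tendsto ((0 : ℂ), α)).eventually h1] with v hv'
      refine hj ?_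
      rw [he, h4, c0, c1, ← ek_smul h ht hμ (dir_ne _ _) _ hv'.1, hv'.2]
    refine ⟨h5, fun z => ?_, ?_⟩
    · obtain ⟨h6, h7⟩ := h1.self_of_nhds
      have a2 : AnalyticAt ℂ (fun u : C2 => (u 0 / S α ^ 2, S α • dir b (u 1))) (c (0, A α)) :=
        ((an_co 0 _).div_const).prod
          (analyticAt_const.fun_smul ((an_dir b _).comp_of_eq (an_co 1 _) rfl))
      have h8 : (c (0, A α) 0 / S α ^ 2, S α • dir b (c (0, A α) 1)) = ((0 : ℂ), α) := by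
        rw [c0, c1, zero_div, h7]
      have h9 : g = fun u : C2 => e (hv n t) (u 0 / S α ^ 2, S α • dir b (u 1)) := by
        funext u
        refine hj ?_
        rw [he, h4, ek_smul h ht hμ (dir_ne _ _) _ h6, div_mul_cancel₀ _ (pow_ne_zero 2 h6)]
      obtain ⟨u, hu⟩ := (h3 (c (0, A α)) (okm_zero (n, b) ht rfl)).2.2 z
      rw [h9, dif_comp (h8 ▸ h5) a2, h8] at hu
      exact ⟨_, hu⟩
    · filter_upwards [(isDisc_lat ht).ev_tors hμ hα] with v h6 h7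
      refine hj ?_
      rw [he, hq, h.ek_sq ht hμ]
      exact h.nt ht (h6 h7) _ _
  · rw [← hj.eq_iff, he, he, ek_zero h ht hμ, ek_zero h ht hμ', h.eq _ _ _ _ _ _ ht ht,
      ← (rep_pt hα).eq_iff (rep_pt hα')]
    refine ⟨fun ⟨_, h1, h2⟩ => ⟨h1.elim id fun h3 => ?_, h2 hμ⟩,
      fun ⟨h1, h2⟩ => ⟨rfl, Or.inl h1, fun _ => h2⟩⟩
    rw [show μ - μ' = μ + μ' - (μ' + μ') by abel]
    exact sub_mem h3 hμ'
  · have h2 := congrArg j h1
    rw [hq, he, ek_zero h ht hμ, h.eq _ _ _ _ _ _ ht ht] at h2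
    refine hx (h2.2.1.elim (fun h3 => ?_) fun h3 => ?_)
    · rw [show x + x = x - μ + (x - μ) + (μ + μ) by abel]
      exact add_mem (add_mem h3 h3) hμ
    · rw [show x + x = x + μ + (x + μ) - (μ + μ) by abel]
      exact sub_mem (add_mem h3 h3) hμ
  · obtain ⟨x, a, h1⟩ := hs y
    by_cases hx : x + x ∈ Lat t
    · refine Or.inr ⟨x, a.rep, hx, (rep_rep a).ne, hj ?_⟩
      rw [he, ek_zero h ht hx, h1, Rep.inj (rep_pt (rep_rep a).ne) (rep_rep a)]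
    · exact Or.inl ⟨x, hx, hj (by rw [hq, h1]; exact h.nt ht hx _ _)⟩

end KFam

theorem exists_kfam : ∃ (Y : Type) (_ : MetricSpace Y) (_ : ChartedSpace (C2 × Tk) Y)
    (X : Tk → Type) (_ : ∀ t, MetricSpace (X t)) (_ : ∀ t, ChartedSpace C2 (X t)) (p : Y → Tk)
    (j : ∀ t, X t → Y), IsManifold 𝓘(ℂ, C2 × Tk) ω Y ∧ SecondCountableTopology Y ∧
      Family {t | LinearIndependent ℝ t} p X j ∧ ∀ t, LinearIndependent ℝ t →
        CompactSpace (X t) ∧ ∃ (q : ℂ × ℂ → X t) (e : ℂ × ℂ → ℂ × ℂ × ℂ → X t),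
          Kum (Lat t) q e := by
  obtain ⟨Y, mk, p, h, hp⟩ := exists_mk
  have hA : Atl Okm (Psi mk) := ⟨okm_op, h.cover, fun i _ hm => h.inj i hm,
    fun i j _ hm _ hm' e => h.trans i j hm hm' e, fun i j _ hm _ hm' e => h.sep i j hm hm' e⟩
  let L : PeriodPair := ⟨1, Complex.I, by simpa using Complex.basisOneI.linearIndependent⟩
  obtain ⟨i1, i2, X, i3, i4, j, h1, h2, h3, h4⟩ := hA.family (p := p) isOpen_li
    ⟨adp L L 0 0, adp_li⟩ (fun _ _ hm => okm_li hm) fun i u s hs => by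
      cases i <;> exact hp _ _ _ hs
  refine ⟨Y, i1, i2, X, i3, i4, p, j, h1, h2, h3, fun t ht => ?_⟩
  have := h3.mfd t ht
  obtain ⟨q, e, hK⟩ := KFam.kum h ht (h3.inj t ht)
    (fun x a => (h3.rng t ht).ge (hp x a t ht)) (fun y => by
      obtain ⟨x, a, s, hs, h5⟩ := h.surj (j t y)
      have h6 : p (j t y) = t := (h3.rng t ht).le (mem_range_self y)
      rw [← h5, hp x a s hs] at h6
      exact ⟨x, a, h6 ▸ h5.symm⟩) (h4 t ht)
  exact ⟨hK.compact (isDisc_lat ht) (lat_fund ht), q, e, hK⟩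

end Vale.Agent.P290
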