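import Vale.Agent.P290K.EvSq
import Vale.Agent.P290G.WP2

/-! Local behaviour of the Weierstrass function. -/

open Set Filter Metric
open scoped Manifold ContDiff Topology

noncomputable section

namespace Vale.Agent.P290

variable {L L₁ L₂ : PeriodPair} {a₁ a₂ : ℂ}

namespace WpD

theorem nc (L : PeriodPair) (c : ℂ) : ¬ EqOn L.weierstrassP (fun _ => c) L.latticeᶜ := fun h => by
  obtain ⟨a, ha, h'⟩ := WP1.surj L (c + 1)
  simp [h ha] at h'

theorem d2 {y₀ : ℂ} (h2 : 2 * y₀ ∈ L.lattice) (h : y₀ ∉ L.lattice) :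
    deriv L.derivWeierstrassP y₀ ≠ 0 := fun h0 => by
  refine nc L (L.weierstrassP y₀) (ode2_uniq (a := L.g₂ / 2) L.isClosed_lattice.isOpen_compl
    (WP2.conn (lattice_countable L)) L.analyticOnNhd_weierstrassP analyticOnNhd_const
    (fun z hz => ?_) (fun z _ => ?_) h rfl ?_)
  · rw [L.deriv_weierstrassP, wp_deriv2 L hz]
  · rw [← wp_deriv2 L h, h0]
    simp
  · rw [L.deriv_weierstrassP, (wp'_zero L h).2 h2, deriv_const]

theorem off {y₀ : ℂ} (h : y₀ ∉ L.lattice) : ∀ᶠ s in 𝓝 (0 : ℂ), y₀ + s ∉ L.lattice :=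
  (continuous_const_add y₀).continuousAt.eventually
    (L.isClosed_lattice.isOpen_compl.mem_nhds (by simpa using h))

theorem iso {y₀ : ℂ} (h : y₀ ∈ L.lattice) : ∀ᶠ s in 𝓝 (0 : ℂ), s ≠ 0 → y₀ + s ∉ L.lattice := by
  filter_upwards [L.compl_lattice_sdiff_singleton_mem_nhds 0] with s hs h0 h1
  exact hs ⟨(L.lattice.add_mem_iff_right h).1 h1, h0⟩

theorem shift {f : ℂ → ℂ} {y₀ : ℂ} (hf : AnalyticAt ℂ f y₀) :
    AnalyticAt ℂ (fun s => f (y₀ + s)) 0 :=
  AnalyticAt.comp (g := f) (f := fun s => y₀ + s) (by simpa using hf)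
    (analyticAt_const.add analyticAt_id)

theorem odd1 {f : ℂ → ℂ} (hf : AnalyticAt ℂ f 0) (he : ∀ s, f (-s) = -f s) :
    ∃ U : ℂ → ℂ, AnalyticAt ℂ U 0 ∧ U 0 = deriv f 0 ∧ ∀ᶠ s in 𝓝 (0 : ℂ), f s = s * U (s ^ 2) := by
  have h0 : f 0 = 0 := by
    have := he 0
    rw [neg_zero] at this
    linear_combination this / 2
  obtain ⟨p, hp⟩ := hf
  obtain ⟨U, hU, e⟩ := even_sq1 hp.has_fpower_series_dslope_fslope.analyticAt
    (Eventually.of_forall fun s => by
      by_cases hs : s = 0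
      · rw [hs, neg_zero]
      · rw [dslope_of_ne _ hs, dslope_of_ne _ (neg_ne_zero.2 hs), slope_def_field,
          slope_def_field, he, h0, sub_zero, sub_zero, sub_zero, sub_zero, neg_div_neg_eq])
  refine ⟨U, hU, ?_, e.mono fun s hs => ?_⟩
  · have := e.self_of_nhds
    rw [dslope_same, zero_pow two_ne_zero] at this
    exact this.symm
  · have := sub_smul_dslope f 0 s
    rw [h0, sub_zero, sub_zero, hs] at this
    exact this.symm

theorem sq2 {f G : ℂ → ℂ} (hG : AnalyticAt ℂ G 0) (e : ∀ᶠ s in 𝓝 (0 : ℂ), f s = G (s ^ 2)) :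
    deriv (deriv f) 0 = 2 * deriv G 0 := by
  have t : Tendsto (fun s : ℂ => s ^ 2) (𝓝 0) (𝓝 0) := by
    simpa using (continuous_pow 2).tendsto (0 : ℂ)
  have e1 : deriv f =ᶠ[𝓝 0] fun s => s * (2 * deriv G (s ^ 2)) := by
    filter_upwards [e.eventually_nhds, t.eventually hG.eventually_analyticAt] with s h1 h2
    have h4 : HasDerivAt (fun s => G (s ^ 2)) _ s :=
      h2.differentiableAt.hasDerivAt.comp s (hasDerivAt_pow 2 s)
    rw [EventuallyEq.deriv_eq h1, h4.deriv]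
    simp only [Nat.cast_ofNat, Nat.add_one_sub_one, pow_one]
    ring
  have h3 : AnalyticAt ℂ (fun s : ℂ => 2 * deriv G (s ^ 2)) 0 :=
    analyticAt_const.mul (AnalyticAt.comp (g := deriv G) (f := fun s : ℂ => s ^ 2)
      (by simpa using hG.deriv) (analyticAt_id.pow 2))
  rw [e1.deriv_eq, ((hasDerivAt_id' (0 : ℂ)).fun_mul h3.differentiableAt.hasDerivAt).deriv]
  simp

theorem refl {y₀ : ℂ} (s : ℂ) : y₀ + -s = -(y₀ + s) + 2 * y₀ := by ring

end WpD


theorem wpv_ne (y : ℂ) : wpv L y ≠ 0 := by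
  unfold wpv
  split_ifs <;> simp

theorem wpv_neg (y : ℂ) : wpv L (-y) = wpv L y := by
  classical
  exact if_congr neg_mem_iff rfl (by rw [L.weierstrassP_neg])

theorem wpv_add (y : ℂ) {l : ℂ} (hl : l ∈ L.lattice) : wpv L (y + l) = wpv L y := by
  classical
  exact if_congr (L.lattice.add_mem_iff_left hl) rfl (by rw [L.weierstrassP_add_coe y ⟨l, hl⟩])

theorem wpv_tors {y₀ : ℂ} (h : 2 * y₀ ∈ L.lattice) : ∃ P : ℂ → ℂ × ℂ, AnalyticAt ℂ P 0 ∧
    wr P ≠ 0 ∧ ∀ᶠ s in 𝓝 (0 : ℂ), ∃ c : ℂ, c ≠ 0 ∧ P (s ^ 2) = c • wpv L (y₀ + s) := by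
  by_cases hy : y₀ ∈ L.lattice
  · obtain ⟨G, hG, e⟩ := even_sq1 (L.analyticAt_weierstrassPExcept 0)
      (Eventually.of_forall fun s => by rw [L.weierstrassPExcept_neg, neg_zero])
    have h1 : AnalyticAt ℂ (fun h : ℂ => 1 + h * G h) 0 :=
      analyticAt_const.add (analyticAt_id.mul hG)
    refine ⟨fun h => (h, 1 + h * G h), analyticAt_id.prod h1, ?_, ?_⟩
    · rw [wr, ((hasDerivAt_id' (0 : ℂ)).prodMk h1.differentiableAt.hasDerivAt).deriv]
      simp
    · filter_upwards [e, WpD.iso hy] with s h2 h3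
      by_cases hs : s = 0
      · exact ⟨1, one_ne_zero, by simp [hs, wpv, hy]⟩
      · refine ⟨s ^ 2, pow_ne_zero _ hs, ?_⟩
        have h4 := L.weierstrassPExcept_add 0 s
        rw [wpv, if_neg (h3 hs), add_comm y₀, L.weierstrassP_add_coe s ⟨y₀, hy⟩, ← h4, ← h2]
        simp only [Submodule.coe_zero, Prod.smul_mk, smul_eq_mul, mul_one, Prod.mk.injEq, true_and]
        field_simp
        ring
  · obtain ⟨G, hG, e⟩ := even_sq1 (WpD.shift (L.analyticOnNhd_weierstrassP y₀ hy))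
      (Eventually.of_forall fun s => by
        rw [WpD.refl, L.weierstrassP_add_coe _ ⟨_, h⟩, L.weierstrassP_neg])
    refine ⟨fun h => (1, G h), analyticAt_const.prod hG, ?_, ?_⟩
    · rw [wr, ((hasDerivAt_const (0 : ℂ) (1 : ℂ)).prodMk hG.differentiableAt.hasDerivAt).deriv]
      have h1 := WpD.sq2 hG e
      have h2 : deriv (fun s => L.weierstrassP (y₀ + s)) = fun s => L.derivWeierstrassP (y₀ + s) :=
        funext fun s => by rw [deriv_comp_const_add, L.deriv_weierstrassP]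
      rw [h2, deriv_comp_const_add, add_zero] at h1
      intro h0
      refine WpD.d2 h hy ?_
      rw [h1]
      linear_combination 2 * h0
    · filter_upwards [e, WpD.off hy] with s h2 h3
      exact ⟨1, one_ne_zero, by rw [wpv, if_neg h3, h2, one_smul]⟩

theorem wpv_freq (y₀ : ℂ) : ∃ᶠ s in 𝓝 (0 : ℂ),
    (wpv L (y₀ + s)).1 * (wpv L y₀).2 ≠ (wpv L (y₀ + s)).2 * (wpv L y₀).1 := by
  by_cases hy : y₀ ∈ L.lattice
  · refine Frequently.filter_mono (f := 𝓝[≠] 0) (Eventually.frequently ?_) nhdsWithin_le_nhds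
    filter_upwards [mem_nhdsWithin_of_mem_nhds (WpD.iso hy), self_mem_nhdsWithin] with s h1 h2
    simp [wpv, hy, h1 h2]
  · intro h
    refine WpD.nc L (L.weierstrassP y₀)
      (L.analyticOnNhd_weierstrassP.eqOn_of_preconnected_of_eventuallyEq analyticOnNhd_const
        (WP2.conn (lattice_countable L)) hy ?_)
    have t : Tendsto (fun z => z - y₀) (𝓝 y₀) (𝓝 0) := by
      simpa using (continuous_sub_right y₀).tendsto y₀
    filter_upwards [t.eventually (h.and (WpD.off hy))] with z hz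
    have h1 := not_not.1 hz.1
    rw [wpv, wpv, if_neg hz.2, if_neg hy, add_sub_cancel] at h1
    simpa using h1.symm

theorem dpv_add (y : ℂ) {l : ℂ} (hl : l ∈ L.lattice) : dpv L (y + l) = dpv L y := by
  classical
  exact if_congr (L.lattice.add_mem_iff_left hl) rfl
    (by rw [L.derivWeierstrassP_add_coe y ⟨l, hl⟩])

theorem dpv_neg (y : ℂ) : ∃ c : ℂ, c ≠ 0 ∧ dpv L (-y) = c • (-(dpv L y).1, (dpv L y).2) := by
  by_cases hy : y ∈ L.lattice
  · exact ⟨1, one_ne_zero, by simp [dpv, hy]⟩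
  · exact ⟨-1, by simp, by simp [dpv, hy]⟩

theorem dpv_tors {y₀ : ℂ} (h2 : 2 * y₀ ∈ L.lattice) (h : y₀ ∉ L.lattice) :
    ∃ U : ℂ → ℂ, AnalyticAt ℂ U 0 ∧ U 0 ≠ 0 ∧
      ∀ᶠ s in 𝓝 (0 : ℂ), dpv L (y₀ + s) = (1, s * U (s ^ 2)) := by
  obtain ⟨U, hU, h0, e⟩ := WpD.odd1 (WpD.shift (L.analyticOnNhd_derivWeierstrassP y₀ h))
    fun s => by rw [WpD.refl, L.derivWeierstrassP_add_coe _ ⟨_, h2⟩, L.derivWeierstrassP_neg]
  refine ⟨U, hU, ?_, ?_⟩
  · rw [h0, deriv_comp_const_add, add_zero]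
    exact WpD.d2 h2 h
  · filter_upwards [e, WpD.off h] with s h3 h4
    rw [dpv, if_neg h4, h3]

theorem dpv_pole {y₀ : ℂ} (h : y₀ ∈ L.lattice) :
    ∃ U : ℂ → ℂ, AnalyticAt ℂ U 0 ∧ U 0 ≠ 0 ∧
      ∀ᶠ s in 𝓝 (0 : ℂ), ∃ c : ℂ, c ≠ 0 ∧ (s ^ 3, U (s ^ 2)) = c • dpv L (y₀ + s) := by
  obtain ⟨U, hU, e⟩ := even_sq1 (f := fun s => -2 + s ^ 3 * L.derivWeierstrassPExcept 0 s)
    (analyticAt_const.add ((analyticAt_id.pow 3).mul (L.analyticAt_derivWeierstrassPExcept 0)))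
    (Eventually.of_forall fun s => by
      rw [L.derivWeierstrassPExcept_neg, neg_zero]
      ring)
  have h0 : U 0 = -2 := by simpa using e.self_of_nhds.symm
  refine ⟨U, hU, by simp [h0], ?_⟩
  filter_upwards [e, WpD.iso h] with s h2 h3
  by_cases hs : s = 0
  · exact ⟨-2, by simp, by simp [hs, dpv, h, h0]⟩
  · refine ⟨s ^ 3, pow_ne_zero _ hs, ?_⟩
    have h4 := L.derivWeierstrassPExcept_sub 0 s
    rw [dpv, if_neg (h3 hs), add_comm y₀, L.derivWeierstrassP_add_coe s ⟨y₀, h⟩, ← h4, ← h2]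
    simp only [Submodule.coe_zero, Prod.smul_mk, smul_eq_mul, mul_one, Prod.mk.injEq, true_and,
      sub_zero]
    field_simp
    ring

end Vale.Agent.P290
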