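import Vale.Agent.P290K.KPcl
import Vale.Agent.P290K.WpD

/-! Elliptic fibrations on Kummer surfaces. -/

open Set Filter Metric
open scoped Manifold ContDiff Topology

noncomputable section

namespace Vale.Agent.P290

variable {X : Type} [TopologicalSpace X] [ChartedSpace C2 X] [IsManifold 𝓘(ℂ, C2) ω X]
  {Λ : Submodule ℤ (ℂ × ℂ)} {q : ℂ × ℂ → X} {e : ℂ × ℂ → ℂ × ℂ × ℂ → X}

namespace KFib

variable {L : PeriodPair} {ℓ : ℂ × ℂ →L[ℂ] ℂ}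

theorem an1 {x : ℂ × ℂ} (hx : ℓ x ∉ L.lattice) :
    AnalyticAt ℂ (fun y => ((1 : ℂ), L.weierstrassP (ℓ y))) x :=
  analyticAt_const.prod ((L.analyticOnNhd_weierstrassP _ hx).comp (ℓ.analyticAt x))

theorem ev1 {x : ℂ × ℂ} (hx : ℓ x ∉ L.lattice) :
    ∀ᶠ y in 𝓝 x, wpv L (ℓ y) = (1, L.weierstrassP (ℓ y)) := by
  filter_upwards [ℓ.continuous.continuousAt.eventually
    (L.isClosed_lattice.isOpen_compl.mem_nhds hx)] with y hy
  exact if_neg hy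

theorem der1 {x : ℂ × ℂ} (hx : ℓ x ∉ L.lattice) (ξ : ℂ × ℂ) :
    fderiv ℂ (fun y => ((1 : ℂ), L.weierstrassP (ℓ y))) x ξ =
      (0, ℓ ξ * L.derivWeierstrassP (ℓ x)) := by
  have h1 := (L.analyticOnNhd_weierstrassP _ hx).differentiableAt.hasDerivAt
  rw [PeriodPair.deriv_weierstrassP] at h1
  refine (DFunLike.congr_fun ((hasFDerivAt_const (1 : ℂ) x).prodMk
    (h1.comp_hasFDerivAt x ℓ.hasFDerivAt)).fderiv ξ).trans ?_
  simp [mul_comm]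

theorem an2 (α : ℂ × ℂ) : AnalyticAt ℂ (fun v : ℂ × ℂ × ℂ => v.1 * ℓ v.2 ^ 2) (0, α) :=
  analyticAt_fst.mul (((ℓ.analyticAt _).comp analyticAt_snd).pow 2)

theorem elift {μ : ℂ × ℂ} (α : ℂ × ℂ) {P : ℂ → ℂ × ℂ} (hP : AnalyticAt ℂ P 0) (hw : wr P ≠ 0)
    (he : ∀ᶠ s in 𝓝 (0 : ℂ), ∃ c : ℂ, c ≠ 0 ∧ P (s ^ 2) = c • wpv L (ℓ μ + s)) :
    ELift (fun x => wpv L (ℓ x)) μ α fun v => P (v.1 * ℓ v.2 ^ 2) := by
  refine ⟨hP.comp_of_eq (an2 α) (zero_mul _), fun h => hw ?_, ?_⟩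
  · simp only [zero_mul] at h
    simp [wr, h]
  · have h1 : Tendsto (fun v : ℂ × ℂ × ℂ => v.1 * ℓ v.2) (𝓝 (0, α)) (𝓝 0) :=
      Continuous.tendsto' (by fun_prop) _ _ (zero_mul _)
    filter_upwards [h1.eventually he] with v hv _
    rw [map_add, map_smul, smul_eq_mul, ← mul_pow]
    exact hv

theorem der2 (α : ℂ × ℂ) {P : ℂ → ℂ × ℂ} (hP : AnalyticAt ℂ P 0) :
    fderiv ℂ (fun v : ℂ × ℂ × ℂ => P (v.1 * ℓ v.2 ^ 2)) (0, α) (1, 0) = ℓ α ^ 2 • deriv P 0 := by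
  have h1 : HasDerivAt (fun s : ℂ => ((s, α) : ℂ × ℂ × ℂ)) (1, 0) 0 :=
    (hasDerivAt_id' 0).prodMk (hasDerivAt_const 0 α)
  have h2 := (hP.comp_of_eq (an2 (ℓ := ℓ) α)
    (zero_mul _)).differentiableAt.hasFDerivAt.comp_hasDerivAt 0 h1
  have h3 : HasDerivAt (fun s : ℂ => s * ℓ α ^ 2) (ℓ α ^ 2) 0 := hasDerivAt_mul_const _
  exact h2.unique (hP.differentiableAt.hasDerivAt.scomp_of_eq 0 h3 (zero_mul _).symm)

end KFib

theorem Kum.fib (h : Kum Λ q e) (hd : IsDisc Λ) {L : PeriodPair} {ℓ : ℂ × ℂ →L[ℂ] ℂ}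
    (hℓ : ∀ l ∈ Λ, ℓ l ∈ L.lattice) (h0 : ℓ ≠ 0) : ∃ π, IsFib Λ q e L ℓ π := by
  have ht : ∀ μ, μ + μ ∈ Λ → 2 * ℓ μ ∈ L.lattice := fun μ hμ => by
    rw [two_mul, ← map_add]
    exact hℓ _ hμ
  have h2 : ∀ y ∈ L.lattice, 2 * y ∈ L.lattice := fun y hy => by
    rw [two_mul]
    exact add_mem hy hy
  obtain ⟨π, hπ, hq, he⟩ := h.pencil hd (V := fun x => wpv L (ℓ x)) (fun x _ => wpv_ne _)
    (fun x y _ hxy => by
      have e : wpv L (ℓ x) = wpv L (ℓ y) := by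
        rcases hxy with h1 | h1
        · rw [← wpv_add (ℓ y) (hℓ _ h1), map_sub, add_sub_cancel]
        · rw [← wpv_neg (ℓ y), ← wpv_add (-ℓ y) (hℓ _ h1), map_add, neg_add_cancel_comm_assoc]
      rw [e, mul_comm])
    (fun x _ => by
      by_cases hx : ℓ x ∈ L.lattice
      · obtain ⟨P, hP, -, hev⟩ := wpv_tors (h2 _ hx)
        have h1 : Tendsto (fun y => ℓ y - ℓ x) (𝓝 x) (𝓝 0) :=
          Continuous.tendsto' (by fun_prop) _ _ (sub_self _)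
        refine ⟨fun y => P ((ℓ y - ℓ x) ^ 2), hP.comp_of_eq
          (((ℓ.analyticAt x).sub analyticAt_const).pow 2) (by simp), ?_⟩
        filter_upwards [h1.eventually hev] with y hy
        rwa [add_sub_cancel] at hy
      · exact ⟨_, KFib.an1 hx, (KFib.ev1 hx).mono fun y hy => ⟨1, one_ne_zero, by
          rw [hy, one_smul]⟩⟩)
    fun μ α hμ _ => by
      obtain ⟨P, hP, hw, hev⟩ := wpv_tors (ht μ hμ)
      exact ⟨_, KFib.elift α hP hw hev⟩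
  refine ⟨π, hπ, hq, fun μ α hμ hα => ?_, fun x hx hx2 => ?_, fun μ α hμ hα => ?_⟩
  · obtain ⟨P, hP, hw, hev⟩ := wpv_tors (ht μ hμ)
    obtain ⟨c, hc, h1⟩ := hev.self_of_nhds
    have h3 := ((he μ α _ hμ hα (KFib.elift α hP hw hev)).self_of_nhds).smul (inv_ne_zero hc)
    rw [zero_pow two_ne_zero, add_zero] at h1
    rwa [zero_mul, h1, inv_smul_smul₀ hc] at h3
  · have hx1 : ℓ x ∉ L.lattice := fun h1 => hx2 (h2 _ h1)
    obtain ⟨ξ, hξ⟩ : ∃ ξ, ℓ ξ ≠ 0 := by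
      by_contra! h1
      exact h0 (ContinuousLinearMap.ext h1)
    refine reg_of_lift hπ (h.qhol x hx).1 (KFib.an1 hx1) ?_ (ξ := ξ) ?_
    · filter_upwards [hd.ev_nt hx, KFib.ev1 hx1] with y hy hy'
      exact hy' ▸ hq y hy
    · rw [KFib.der1 hx1, one_mul, mul_zero]
      exact mul_ne_zero hξ fun h1 => hx2 ((wp'_zero L hx1).1 h1)
  · have hα0 : α ≠ 0 := fun h1 => hα (by rw [h1, map_zero])
    obtain ⟨P, hP, hw, hev⟩ := wpv_tors (ht μ hμ)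
    have h1 := KFib.elift α hP hw hev
    refine reg_of_lift hπ (h.ehol μ α hμ hα0).1 h1.1 (he μ α _ hμ hα0 h1) (ξ := (1, 0)) ?_
    rw [KFib.der2 α hP]
    simp only [zero_mul, Prod.smul_fst, Prod.smul_snd, smul_eq_mul]
    intro h3
    refine hw (mul_left_cancel₀ (pow_ne_zero 2 hα) ?_)
    rw [wr]
    linear_combination h3

end Vale.Agent.P290
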