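import Vale.Agent.P290K.KMap
import Vale.Agent.P290K.WpD

/-! Shears. -/

open Set Filter Metric
open scoped Manifold ContDiff Topology

noncomputable section

namespace Vale.Agent.P290

variable {X : Type} [TopologicalSpace X] [ChartedSpace C2 X] [IsManifold 𝓘(ℂ, C2) ω X]
  {q : ℂ × ℂ → X} {e : ℂ × ℂ → ℂ × ℂ × ℂ → X}
  {X' : Type} [TopologicalSpace X'] [ChartedSpace C2 X'] [IsManifold 𝓘(ℂ, C2) ω X']
  {q' : ℂ × ℂ → X'} {e' : ℂ × ℂ → ℂ × ℂ × ℂ → X'} {L₁ L₂ : PeriodPair} {a₁ a₂ : ℂ}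

namespace KIso

variable {D : Set ℂ} {u : ℂ → ℂ} {b₁ b₂ c₁ c₂ : ℂ}

theorem der {x : ℂ × ℂ} (hu : AnalyticAt ℂ u x.2) (s : ℂ) (v : ℂ × ℂ) :
    fderiv ℂ (fun y : ℂ × ℂ => (y.1 + s * u y.2, y.2)) x v =
      (v.1 + s * (deriv u x.2 * v.2), v.2) := by
  have h1 : HasFDerivAt (fun y : ℂ × ℂ => u y.2)
      ((ContinuousLinearMap.toSpanSingleton ℂ (deriv u x.2)).comp (ContinuousLinearMap.snd ℂ ℂ ℂ)) x :=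
    hu.differentiableAt.hasDerivAt.hasFDerivAt.comp x hasFDerivAt_snd
  rw [((hasFDerivAt_fst.fun_add (h1.const_mul s)).prodMk hasFDerivAt_snd).fderiv]
  simp [mul_comm]

theorem equi (hu : Shear L₂ a₁ a₂ D u) (hD : IsOpen D) (hn : ∀ y ∈ D, -y ∈ D)
    (ha : ∀ y ∈ D, ∀ m n : ℤ, y + (m * L₂.ω₁ + n * L₂.ω₂) ∈ D) (s : ℂ) (h1 : c₁ = b₁ + s * a₁)
    (h2 : c₂ = b₂ + s * a₂) : Equi (Adp L₁ L₂ b₁ b₂) (Adp L₁ L₂ c₁ c₂) {x | x.2 ∈ D}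
      fun y => (y.1 + s * u y.2, y.2) where
  op := hD.preimage continuous_snd
  an x hx := (analyticAt_fst.add (analyticAt_const.mul
    ((hu.an _ hx).comp analyticAt_snd))).prod analyticAt_snd
  add x hx l hl := by
    obtain ⟨m, n, e1, e2⟩ := mem_adp.1 hl
    refine ⟨by simpa [e1] using ha _ hx m n, (l.1 + s * (m * a₁ + n * a₂), l.2),
      mem_adp.2 ⟨m, n, e1, ?_⟩, ?_⟩
    · convert e2 using 1
      rw [h1, h2]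
      ring
    · filter_upwards [(hD.preimage continuous_snd).mem_nhds hx] with y hy
      refine Prod.ext ?_ rfl
      simp only [Prod.fst_add, Prod.snd_add, e1, hu.per _ hy]
      ring
  neg x hx := ⟨hn _ hx, Prod.ext (by simp [hu.odd _ hx]; ring) rfl⟩
  tor x hx h := by
    obtain ⟨m, n, e1, e2⟩ := mem_adp.1 h
    refine mem_adp.2 ⟨m, n, e1, ?_⟩
    have k := hu.per _ (hn _ hx) m n
    simp only [Prod.snd_add] at e1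
    rw [← e1, neg_add_cancel_left, hu.odd _ hx] at k
    convert e2 using 1
    simp only [Prod.fst_add, h1, h2]
    linear_combination (-s) * k
  inj x hx := by
    rw [injective_iff_map_eq_zero]
    intro v hv
    rw [der (hu.an _ hx)] at hv
    obtain ⟨k1, k2⟩ := Prod.mk.inj hv
    exact Prod.ext (by simpa [k2] using k1) k2

theorem half (h : Kum (Adp L₁ L₂ b₁ b₂) q e) (h' : Kum (Adp L₁ L₂ c₁ c₂) q' e') {π : X → P1}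
    {π' : X' → P1} (hπ : IsFib (Adp L₁ L₂ b₁ b₂) q e L₂ (ContinuousLinearMap.snd ℂ ℂ ℂ) π)
    (hπ' : IsFib (Adp L₁ L₂ c₁ c₂) q' e' L₂ (ContinuousLinearMap.snd ℂ ℂ ℂ) π')
    (hu : Shear L₂ a₁ a₂ D u) {a : P1} (ha : ∀ y, y ∈ D ↔ ¬ Rep (wpv L₂ y) a) {s : ℂ}
    {φ : X → X'} {ψ : X' → X}
    (hφ : (∀ x ∈ {x : ℂ × ℂ | x.2 ∈ D}, x + x ∉ Adp L₁ L₂ b₁ b₂ →
        (x.1 + s * u x.2, x.2) + (x.1 + s * u x.2, x.2) ∉ Adp L₁ L₂ c₁ c₂ ∧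
        φ (q x) = q' (x.1 + s * u x.2, x.2) ∧ ContMDiffAt 𝓘(ℂ, C2) 𝓘(ℂ, C2) ω φ (q x)) ∧
      ∀ μ ∈ {x : ℂ × ℂ | x.2 ∈ D}, μ + μ ∈ Adp L₁ L₂ b₁ b₂ → ∀ α, α ≠ 0 →
        (μ.1 + s * u μ.2, μ.2) + (μ.1 + s * u μ.2, μ.2) ∈ Adp L₁ L₂ c₁ c₂ ∧
        φ (e μ (0, α)) = e' (μ.1 + s * u μ.2, μ.2)
          (0, fderiv ℂ (fun y : ℂ × ℂ => (y.1 + s * u y.2, y.2)) μ α) ∧
        ContMDiffAt 𝓘(ℂ, C2) 𝓘(ℂ, C2) ω φ (e μ (0, α)))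
    (hψ : (∀ x ∈ {x : ℂ × ℂ | x.2 ∈ D}, x + x ∉ Adp L₁ L₂ c₁ c₂ →
        (x.1 + -s * u x.2, x.2) + (x.1 + -s * u x.2, x.2) ∉ Adp L₁ L₂ b₁ b₂ ∧
        ψ (q' x) = q (x.1 + -s * u x.2, x.2) ∧ ContMDiffAt 𝓘(ℂ, C2) 𝓘(ℂ, C2) ω ψ (q' x)) ∧
      ∀ μ ∈ {x : ℂ × ℂ | x.2 ∈ D}, μ + μ ∈ Adp L₁ L₂ c₁ c₂ → ∀ α, α ≠ 0 →
        (μ.1 + -s * u μ.2, μ.2) + (μ.1 + -s * u μ.2, μ.2) ∈ Adp L₁ L₂ b₁ b₂ ∧
        ψ (e' μ (0, α)) = e (μ.1 + -s * u μ.2, μ.2)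
          (0, fderiv ℂ (fun y : ℂ × ℂ => (y.1 + -s * u y.2, y.2)) μ α) ∧
        ContMDiffAt 𝓘(ℂ, C2) 𝓘(ℂ, C2) ω ψ (e' μ (0, α))) {x : X} (hx : π x ≠ a) :
    ContMDiffAt 𝓘(ℂ, C2) 𝓘(ℂ, C2) ω φ x ∧ π' (φ x) = π x ∧ ψ (φ x) = x := by
  rcases h.cover x with ⟨z, hz, rfl⟩ | ⟨μ, α, hμ, hα, rfl⟩
  · have r := hπ.rq z hz
    have hD : z.2 ∈ D := (ha _).2 fun k => hx (r.inj k)
    obtain ⟨k1, k2, k3⟩ := hφ.1 z hD hz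
    refine ⟨k3, by rw [k2]; exact (hπ'.rq _ k1).inj r, ?_⟩
    rw [k2, (hψ.1 (z.1 + s * u z.2, z.2) hD k1).2.1]
    congr 1
    exact Prod.ext (by simp) rfl
  · have r := hπ.re μ α hμ hα
    have hD : μ.2 ∈ D := (ha _).2 fun k => hx (r.inj k)
    obtain ⟨k1, k2, k3⟩ := hφ.2 μ hD hμ α hα
    rw [der (hu.an _ hD)] at k2
    have n1 : (α.1 + s * (deriv u μ.2 * α.2), α.2) ≠ 0 := fun k => by
      obtain ⟨k4, k5⟩ := Prod.mk.inj k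
      exact hα (Prod.ext (by simpa [k5] using k4) k5)
    refine ⟨k3, by rw [k2]; exact (hπ'.re _ _ k1 n1).inj r, ?_⟩
    rw [k2, (hψ.2 (μ.1 + s * u μ.2, μ.2) hD k1 _ n1).2.1,
      der (x := (μ.1 + s * u μ.2, μ.2)) (hu.an _ hD)]
    simp

end KIso

theorem Kum.isoOff (h : Kum (Adp L₁ L₂ a₁ a₂) q e) (h' : Kum (Adp L₁ L₂ 0 0) q' e') {π : X → P1}
    {π' : X' → P1} (hπ : IsFib (Adp L₁ L₂ a₁ a₂) q e L₂ (ContinuousLinearMap.snd ℂ ℂ ℂ) π)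
    (hπ' : IsFib (Adp L₁ L₂ 0 0) q' e' L₂ (ContinuousLinearMap.snd ℂ ℂ ℂ) π') {D : Set ℂ}
    {u : ℂ → ℂ} (hu : Shear L₂ a₁ a₂ D u) (hD : IsOpen D) {a : P1}
    (ha : ∀ y, y ∈ D ↔ ¬ Rep (wpv L₂ y) a) : ∃ (φ : X → X') (ψ : X' → X), IsoOff π π' a φ ψ ∧
      ∀ x : ℂ × ℂ, x.2 ∈ D → x + x ∉ Adp L₁ L₂ a₁ a₂ → φ (q x) = q' (x.1 - u x.2, x.2) := by
  have hn : ∀ y ∈ D, -y ∈ D := fun y hy => (ha _).2 (by rw [wpv_neg]; exact (ha _).1 hy)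
  have hp : ∀ y ∈ D, ∀ m n : ℤ, y + (m * L₂.ω₁ + n * L₂.ω₂) ∈ D := fun y hy m n =>
    (ha _).2 (by rw [wpv_add _ (PeriodPair.mem_lattice.2 ⟨m, n, rfl⟩)]; exact (ha _).1 hy)
  obtain ⟨φ, hφ⟩ := h.map h' isDisc_adp isDisc_adp
    (KIso.equi hu hD hn hp (-1) (by ring) (by ring))
  obtain ⟨ψ, hψ⟩ := h'.map h isDisc_adp isDisc_adp
    (KIso.equi hu hD hn hp (- -1) (by ring) (by ring))
  have k := fun x hx => KIso.half h h' hπ hπ' hu ha hφ hψ (x := x) hx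
  have k' := fun x hx => KIso.half h' h hπ' hπ hu ha (s := - -1) hψ
    (by simpa only [neg_neg] using hφ) (x := x) hx
  refine ⟨φ, ψ, ⟨fun x hx => (k x hx).1, fun x hx => (k' x hx).1, fun x hx => (k x hx).2.1,
    fun x hx => (k' x hx).2.1, fun x hx => (k x hx).2.2, fun x hx => (k' x hx).2.2⟩,
    fun x hx hx' => ?_⟩
  rw [(hφ.1 x hx hx').2.1]
  congr 1
  exact Prod.ext (by simp; ring) rfl

end Vale.Agent.P290
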