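import Vale.Agent.P290K.Defs

/-! Lattices in the plane. -/

open Set Filter Metric
open scoped Manifold ContDiff Topology

noncomputable section

namespace Vale.Agent.P290

variable {L L₁ L₂ : PeriodPair} {a₁ a₂ : ℂ}

variable {Λ : Submodule ℤ (ℂ × ℂ)} {t t₀ : Tk}

theorem mem_lat {x : ℂ × ℂ} : x ∈ Lat t ↔ ∃ n : Fin 4 → ℤ, ∑ j, n j • t j = x := Submodule.mem_span_range_iff_exists_fun ℤ

theorem isOpen_li : IsOpen {t : Tk | LinearIndependent ℝ t} := isOpen_setOfPred_linearIndependent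

theorem lat_unif (h : LinearIndependent ℝ t₀) : ∃ c > (0 : ℝ), ∀ᶠ t : Tk in 𝓝 t₀,
    ∀ n : Fin 4 → ℤ, c * ‖n‖ ≤ ‖∑ j, n j • t j‖ := by
  obtain ⟨K, K0, hK⟩ := (Fintype.linearCombination ℝ t₀).exists_antilipschitzWith
    (LinearMap.ker_eq_bot.2 (linearIndependent_iff_injective_fintypeLinearCombination.1 h))
  have K1 : (0 : ℝ) < K := K0
  refine ⟨1 / (2 * K), by positivity, ?_⟩
  filter_upwards [ball_mem_nhds t₀ (by positivity : (0 : ℝ) < 1 / (8 * K))] with t ht n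
  have h1 : ‖n‖ ≤ K * ‖∑ j, n j • t₀ j‖ := by
    have h2 := hK.le_mul_dist (fun j => (n j : ℝ)) 0
    rw [map_zero, dist_zero_right, dist_zero_right, Fintype.linearCombination_apply] at h2
    simp only [Int.cast_smul_eq_zsmul] at h2
    refine le_trans ((pi_norm_le_iff_of_nonneg (norm_nonneg _)).2 fun j => ?_) h2
    rw [← Int.norm_cast_real]
    exact norm_le_pi_norm (fun j => (n j : ℝ)) j
  have h3 : ‖∑ j, n j • t₀ j - ∑ j, n j • t j‖ ≤ 4 * (‖n‖ * (1 / (8 * K))) := by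
    rw [← Finset.sum_sub_distrib]
    refine (norm_sum_le_of_le _ (n := fun _ => ‖n‖ * (1 / (8 * K))) fun j _ => ?_).trans (by simp)
    rw [← smul_sub]
    refine (norm_zsmul_le _ _).trans (mul_le_mul (norm_le_pi_norm n j) ?_ (norm_nonneg _)
      (norm_nonneg _))
    rw [← dist_eq_norm, dist_comm]
    exact (dist_le_pi_dist t t₀ j).trans (le_of_lt ht)
  have h4 := norm_sub_norm_le (∑ j, n j • t₀ j) (∑ j, n j • t j)
  rw [← div_le_iff₀' K1] at h1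
  have e1 : 4 * (‖n‖ * (1 / (8 * K))) = ‖n‖ / K / 2 := by field_simp; ring
  have e2 : 1 / (2 * K) * ‖n‖ = ‖n‖ / K / 2 := by field_simp
  linarith

theorem lat_small (h : LinearIndependent ℝ t₀) : ∃ δ > (0 : ℝ), ∀ᶠ t : Tk in 𝓝 t₀,
    ∀ l ∈ Lat t, ‖l‖ < δ → l = 0 := by
  obtain ⟨c, c0, hc⟩ := lat_unif h
  refine ⟨c, c0, hc.mono fun t ht l hl hs => ?_⟩
  obtain ⟨n, rfl⟩ := mem_lat.1 hl
  have h1 : ‖n‖ < 1 := by nlinarith [ht n]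
  have h2 : n = 0 := funext fun j => by
    have h3 := (norm_le_pi_norm n j).trans_lt h1
    rw [Int.norm_eq_abs] at h3
    exact Int.abs_lt_one_iff.1 (by exact_mod_cast h3)
  simp [h2]

theorem isDisc_lat (h : LinearIndependent ℝ t) : IsDisc (Lat t) := by
  obtain ⟨δ, d0, hδ⟩ := lat_small h
  exact ⟨δ, d0, hδ.self_of_nhds⟩

theorem lat_not (h : LinearIndependent ℝ t₀) {x₀ : ℂ × ℂ} (hx : x₀ ∉ Lat t₀) :
    ∀ᶠ v : (ℂ × ℂ) × Tk in 𝓝 (x₀, t₀), v.1 ∉ Lat v.2 := by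
  obtain ⟨c, c0, hc⟩ := lat_unif h
  have hf : (closedBall (0 : Fin 4 → ℤ) ((‖x₀‖ + 1) / c)).Finite :=
    (isCompact_closedBall _ _).finite_of_discrete
  have h1 : ∀ n ∈ closedBall (0 : Fin 4 → ℤ) ((‖x₀‖ + 1) / c),
      ∀ᶠ v : (ℂ × ℂ) × Tk in 𝓝 (x₀, t₀), ∑ j, n j • v.2 j ≠ v.1 := fun n _ => by
    have h2 : Continuous fun v : (ℂ × ℂ) × Tk => ∑ j, n j • v.2 j - v.1 := by fun_prop
    have h3 : ∑ j, n j • t₀ j - x₀ ≠ 0 := fun e => hx (mem_lat.2 ⟨n, sub_eq_zero.1 e⟩)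
    exact ((h2.tendsto (x₀, t₀)).eventually_ne h3).mono fun v hv => sub_ne_zero.1 hv
  have h4 : ∀ᶠ v : (ℂ × ℂ) × Tk in 𝓝 (x₀, t₀), ‖v.1‖ < ‖x₀‖ + 1 :=
    (continuous_fst.norm.tendsto (x₀, t₀)).eventually_lt_const (lt_add_one _)
  have h6 : ∀ᶠ v : (ℂ × ℂ) × Tk in 𝓝 (x₀, t₀), ∀ n : Fin 4 → ℤ, c * ‖n‖ ≤ ‖∑ j, n j • v.2 j‖ :=
    (continuous_snd.tendsto (x₀, t₀)).eventually hc
  filter_upwards [(eventually_all_finite hf).2 h1, h4, h6] with v a1 a2 a3 hv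
  obtain ⟨n, hn⟩ := mem_lat.1 hv
  refine a1 n ?_ hn
  have h5 := a3 n
  rw [hn] at h5
  rw [mem_closedBall_zero_iff, le_div_iff₀' c0]
  linarith

theorem lat_fund (h : LinearIndependent ℝ t) : ∃ R : ℝ, ∀ x, ∃ l ∈ Lat t, ‖x - l‖ ≤ R := by
  have h1 : Submodule.span ℝ (range t) = ⊤ :=
    h.span_eq_top_of_card_eq_finrank (by simp)
  refine ⟨∑ j, ‖t j‖, fun x => ?_⟩
  obtain ⟨r, rfl⟩ := (Submodule.mem_span_range_iff_exists_fun ℝ).1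
    (h1 ▸ Submodule.mem_top : x ∈ Submodule.span ℝ (range t))
  refine ⟨_, mem_lat.2 ⟨fun j => ⌊r j⌋, rfl⟩, ?_⟩
  rw [← Finset.sum_sub_distrib]
  refine norm_sum_le_of_le _ fun j _ => ?_
  rw [← Int.cast_smul_eq_zsmul ℝ, ← sub_smul, norm_smul, Int.self_sub_floor,
    Real.norm_of_nonneg (Int.fract_nonneg _)]
  exact mul_le_of_le_one_left (norm_nonneg _) (Int.fract_lt_one _).le

theorem IsDisc.ev_not (h : IsDisc Λ) {x : ℂ × ℂ} (hx : x ∉ Λ) : ∀ᶠ y in 𝓝 x, y ∉ Λ := by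
  obtain ⟨δ, d0, hδ⟩ := h
  have hb := ball_mem_nhds x (half_pos d0)
  by_cases h1 : ∃ l ∈ Λ, l ∈ ball x (δ / 2)
  · obtain ⟨l, hl, h2⟩ := h1
    filter_upwards [hb, eventually_ne_nhds (ne_of_mem_of_not_mem hl hx).symm] with y a1 a2 hy
    refine a2 (sub_eq_zero.1 (hδ _ (Λ.sub_mem hy hl) ?_))
    rw [← dist_eq_norm]
    linarith [dist_triangle_right y l x, mem_ball.1 a1, mem_ball.1 h2]
  · filter_upwards [hb] with y a1 hy using h1 ⟨y, hy, a1⟩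

theorem IsDisc.ev_nt (h : IsDisc Λ) {x : ℂ × ℂ} (hx : x + x ∉ Λ) : ∀ᶠ y in 𝓝 x, y + y ∉ Λ := 
  ((continuous_id.add continuous_id).tendsto x).eventually (h.ev_not hx)

theorem IsDisc.ev_tors (h : IsDisc Λ) {μ α : ℂ × ℂ} (hμ : μ + μ ∈ Λ) (hα : α ≠ 0) :
    ∀ᶠ v : ℂ × ℂ × ℂ in 𝓝 (0, α), v.1 ≠ 0 → (μ + v.1 • v.2) + (μ + v.1 • v.2) ∉ Λ := by
  obtain ⟨δ, d0, hδ⟩ := h
  have h1 : Continuous fun v : ℂ × ℂ × ℂ => ‖(2 * v.1) • v.2‖ := by fun_prop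
  have h2 : ∀ᶠ v : ℂ × ℂ × ℂ in 𝓝 (0, α), ‖(2 * v.1) • v.2‖ < δ :=
    (h1.tendsto _).eventually_lt_const (by simpa using d0)
  filter_upwards [h2, continuous_snd.continuousAt.eventually_ne hα] with v a1 a2 a3 hv
  have h3 := Λ.sub_mem hv hμ
  rw [show μ + v.1 • v.2 + (μ + v.1 • v.2) - (μ + μ) = (2 * v.1) • v.2 by module] at h3
  exact smul_ne_zero (mul_ne_zero two_ne_zero a3) a2 (hδ _ h3 a1)

theorem mem_adp {x : ℂ × ℂ} : x ∈ Adp L₁ L₂ a₁ a₂ ↔ ∃ m n : ℤ,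
    x.2 = m * L₂.ω₁ + n * L₂.ω₂ ∧ x.1 - (m * a₁ + n * a₂) ∈ L₁.lattice := by
  simp only [Adp, mem_lat, Fin.sum_univ_four, adp, PeriodPair.mem_lattice, Prod.ext_iff,
    Matrix.cons_val_zero, Matrix.cons_val_one, Matrix.cons_val, Prod.fst_add, Prod.snd_add,
    Prod.smul_fst, Prod.smul_snd, smul_zero, zero_add]
  simp only [zsmul_eq_mul]
  constructor
  · rintro ⟨n, h1, h2⟩
    exact ⟨n 2, n 3, h2.symm, n 0, n 1, by linear_combination h1⟩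
  · rintro ⟨m, n, h1, k, l, h2⟩
    exact ⟨![k, l, m, n], by simpa using (by linear_combination h2), by simpa using h1.symm⟩

theorem mem_adp0 {x : ℂ × ℂ} : x ∈ Adp L₁ L₂ 0 0 ↔ x.1 ∈ L₁.lattice ∧ x.2 ∈ L₂.lattice := by
  simp only [mem_adp, mul_zero, add_zero, sub_zero]
  constructor
  · rintro ⟨m, n, h1, h2⟩
    exact ⟨h2, L₂.mem_lattice.2 ⟨m, n, h1.symm⟩⟩
  · rintro ⟨h1, h2⟩
    obtain ⟨m, n, h3⟩ := L₂.mem_lattice.1 h2
    exact ⟨m, n, h3.symm, h1⟩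

theorem adp_li : LinearIndependent ℝ (adp L₁ L₂ a₁ a₂) := by
  refine Fintype.linearIndependent_iff.2 fun g hg => ?_
  simp only [Fin.sum_univ_four, adp, Prod.ext_iff, Matrix.cons_val_zero, Matrix.cons_val_one,
    Matrix.cons_val, Prod.fst_add, Prod.snd_add, Prod.smul_fst, Prod.smul_snd, smul_zero,
    zero_add, Prod.fst_zero, Prod.snd_zero] at hg
  obtain ⟨h2, h3⟩ := LinearIndependent.pair_iff.1 L₂.indep _ _ hg.2
  have h4 := hg.1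
  rw [h2, h3, zero_smul, zero_smul, add_zero, add_zero] at h4
  obtain ⟨h0, h1⟩ := LinearIndependent.pair_iff.1 L₁.indep _ _ h4
  intro i
  fin_cases i
  exacts [h0, h1, h2, h3]

theorem isDisc_adp : IsDisc (Adp L₁ L₂ a₁ a₂) := isDisc_lat adp_li

end Vale.Agent.P290
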