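import Vale.Agent.P290K.KLat
import Vale.Agent.P290K.EvSq

/-! Local structure of Kummer surfaces. -/

open Set Filter Metric
open scoped Manifold ContDiff Topology

noncomputable section

namespace Vale.Agent.P290

variable {X : Type} [TopologicalSpace X] [ChartedSpace C2 X] [IsManifold 𝓘(ℂ, C2) ω X]
  {Λ : Submodule ℤ (ℂ × ℂ)} {q : ℂ × ℂ → X} {e : ℂ × ℂ → ℂ × ℂ × ℂ → X}
  {X' : Type} [TopologicalSpace X'] [ChartedSpace C2 X'] [IsManifold 𝓘(ℂ, C2) ω X']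
  {Λ' : Submodule ℤ (ℂ × ℂ)} {q' : ℂ × ℂ → X'} {e' : ℂ × ℂ → ℂ × ℂ × ℂ → X'}

variable {E : Type} [NormedAddCommGroup E] [NormedSpace ℂ E] [FiniteDimensional ℂ E]

theorem Hol.sec {f : E → X} {z : E} (hf : Hol f z) (hs : Function.Surjective (dif f z)) :
    ∃ s : X → E, HolF s (f z) ∧ s (f z) = z ∧ ∀ᶠ y in 𝓝 (f z), f (s y) = y := by
  have hm := mem_chart_source C2 (f z)
  have h1 : AnalyticAt ℂ (fun w => chartAt C2 (f z) (f w)) z := (holF_chart _ hm).comp hf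
  have hsu : (fderiv ℂ (fun w => chartAt C2 (f z) (f w)) z).toLinearMap.range = ⊤ := by
    refine LinearMap.range_eq_top.2 fun w => ?_
    obtain ⟨u, hu⟩ := hs (dif (chartAt C2 (f z)).symm (chartAt C2 (f z) (f z)) w)
    rw [dif_chart (f z) hf hm] at hu
    exact ⟨u, (dif_symm_bij (f z) (mem_chart_target C2 (f z))).1 hu⟩
  obtain ⟨L₀, hL⟩ := LinearMap.exists_rightInverse_of_surjective _ hsu
  obtain ⟨L, hL'⟩ : ∃ L : C2 →L[ℂ] E,
      ∀ u, fderiv ℂ (fun w => chartAt C2 (f z) (f w)) z (L u) = u :=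
    ⟨LinearMap.toContinuousLinearMap L₀, fun u => LinearMap.congr_fun hL u⟩
  have e0 : z + L 0 = z := by rw [map_zero, add_zero]
  have a0 : AnalyticAt ℂ (fun u : C2 => z + L u) 0 := analyticAt_const.add (L.analyticAt 0)
  have hc : ContDiffAt ℂ ω (fun u : C2 => chartAt C2 (f z) (f (z + L u))) 0 :=
    (h1.comp_of_eq a0 e0).contDiffAt
  have hd : HasFDerivAt (fun u : C2 => chartAt C2 (f z) (f (z + L u)))
      (ContinuousLinearEquiv.refl ℂ C2 : C2 →L[ℂ] C2) 0 := by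
    have d1 : HasFDerivAt (fun w => chartAt C2 (f z) (f w))
        (fderiv ℂ (fun w => chartAt C2 (f z) (f w)) z) (z + L 0) := by
      rw [e0]
      exact h1.differentiableAt.hasFDerivAt
    have d2 := d1.comp (f := fun u : C2 => z + L u) 0 (L.hasFDerivAt.const_add z)
    refine d2.congr_fderiv (ContinuousLinearMap.ext fun u => ?_)
    exact hL' u
  have hst := hc.hasStrictFDerivAt' hd Mfd.ne0
  have ha := (hc.to_localInverse hd Mfd.ne0).analyticAt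
  have hl := hst.eventually_left_inverse.self_of_nhds
  have hr := hst.eventually_right_inverse
  obtain ⟨H, hH⟩ : ∃ H, H = hc.localInverse hd Mfd.ne0 := ⟨_, rfl⟩
  change hc.localInverse hd Mfd.ne0 _ = _ at hl
  change ∀ᶠ y in _, chartAt C2 (f z) (f (z + L (hc.localInverse hd Mfd.ne0 y))) = y at hr
  rw [← hH] at ha hl hr
  simp only [e0] at ha hl hr
  have ht : Tendsto (chartAt C2 (f z)) (𝓝 (f z)) (𝓝 (chartAt C2 (f z) (f z))) :=
    (chartAt C2 (f z)).continuousAt hm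
  have k1 : HolF (fun y => z + L (H (chartAt C2 (f z) y))) (f z) :=
    (holF_chart _ hm).post (g := fun v => z + L (H v))
      (analyticAt_const.add ((L.analyticAt _).comp ha))
  have k2 : z + L (H (chartAt C2 (f z) (f z))) = z := by rw [hl, e0]
  refine ⟨_, k1, k2, ?_⟩
  have ho := (chartAt C2 (f z)).open_source.mem_nhds hm
  have k3 := k1.continuousAt.tendsto
  simp only [k2] at k3
  filter_upwards [ht.eventually hr, ho, (hf.cont.tendsto.comp k3).eventually ho] with y m1 m2 m3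
  exact (chartAt C2 (f z)).injOn m3 m2 m1

theorem Kum.qsurj (h : Kum Λ q e) {x : ℂ × ℂ} (hx : x + x ∉ Λ) :
    Function.Surjective (dif q x) :=
  (LinearMap.injective_iff_surjective_of_finrank_eq_finrank (f := (dif q x).toLinearMap)
    (by simp)).1 (h.qhol x hx).2

theorem hol_of_comp {f : E → X} {z : E} (hf : Hol f z) (hs : Function.Surjective (dif f z))
    {φ : X → X'} (hφ : Hol (fun w => φ (f w)) z) :
    ContMDiffAt 𝓘(ℂ, C2) 𝓘(ℂ, C2) ω φ (f z) := by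
  obtain ⟨s, h1, h2, h3⟩ := hf.sec hs
  have h4 : Hol (fun w => φ (f w)) (s (f z)) := by rwa [h2]
  refine (ContMDiffAt.comp (f z) h4 h1).congr_of_eventuallyEq ?_
  filter_upwards [h3] with y hy
  exact (congrArg φ hy).symm

theorem lift_of_comp {f : E → X} {z : E} (hf : Hol f z) (hs : Function.Surjective (dif f z))
    {π : X → P1} (hπ : LocL (fun w => π (f w)) z) : ∃ p, LiftAt π p (f z) := by
  obtain ⟨s, h1, h2, h3⟩ := hf.sec hs
  obtain ⟨P, k1, k2⟩ := hπ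
  have ht := h1.continuousAt.tendsto
  rw [h2] at ht
  refine ⟨fun y => P (s y), h1.post (by rwa [h2]), ?_⟩
  filter_upwards [h3, ht.eventually k2] with y m1 m2
  rwa [m1] at m2

theorem reg_of_lift {π : X → P1} (hπ : HolP π) {f : E → X} {z : E} (hf : Hol f z)
    {P : E → ℂ × ℂ} (hP : AnalyticAt ℂ P z) (hr : ∀ᶠ w in 𝓝 z, Rep (P w) (π (f w))) {ξ : E}
    (hξ : (P z).1 * (fderiv ℂ P z ξ).2 ≠ (P z).2 * (fderiv ℂ P z ξ).1) : Reg π (f z) := by
  obtain ⟨p, h1, h2⟩ := hπ (f z)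
  have l1 : Lifts (fun w => π (f w)) P {z} :=
    ⟨fun w hw => by rwa [mem_singleton_iff.1 hw], by rwa [nhdsSet_singleton]⟩
  have l2 : Lifts (fun w => π (f w)) (fun w => p (f w)) {z} :=
    ⟨fun w hw => by rw [mem_singleton_iff.1 hw]; exact HolF.comp h1 hf, by
      rw [nhdsSet_singleton]; exact hf.cont.eventually h2⟩
  obtain ⟨ν, k1, k2⟩ := l1.ratio l2
  rw [nhdsSet_singleton] at k2
  have e1 : (fun w => p (f w)) =ᶠ[𝓝 z] fun w => ν w • P w := k2.mono fun w hw => hw.2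
  have d1 : HasFDerivAt (fun w => ν w • P w)
      (ν z • fderiv ℂ P z + (fderiv ℂ ν z).smulRight (P z)) z :=
    (k1 z rfl).differentiableAt.hasFDerivAt.smul hP.differentiableAt.hasFDerivAt
  have e2 : dfn p (f z) (dif f z ξ) = ν z • fderiv ℂ P z ξ + fderiv ℂ ν z ξ • P z := by
    rw [← dfn_comp h1 hf, e1.fderiv_eq, d1.fderiv]
    rfl
  refine ⟨p, dif f z ξ, ⟨h1, h2⟩, moves_iff.2 fun h0 => hξ ?_⟩
  obtain ⟨n0, n1⟩ := k2.self_of_nhds
  rw [e2, n1] at h0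
  simp only [Prod.smul_fst, Prod.smul_snd, Prod.fst_add, Prod.snd_add, smul_eq_mul] at h0
  refine mul_left_cancel₀ (pow_ne_zero 2 n0) ?_
  linear_combination h0

theorem Kum.dense (h : Kum Λ q e) (hd : IsDisc Λ) {R : Set (ℂ × ℂ)} (hR : Dense R) :
    Dense (q '' {x | x ∈ R ∧ x + x ∉ Λ}) := by
  have h1 : ∀ x, x + x ∉ Λ → q x ∈ closure (q '' {x | x ∈ R ∧ x + x ∉ Λ}) := fun x hx =>
    mem_closure_image (h.qhol x hx).1.cont (mem_closure_iff_frequently.2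
      ((mem_closure_iff_frequently.1 (hR x)).and_eventually (hd.ev_nt hx)))
  intro y
  rcases h.cover y with ⟨x, hx, rfl⟩ | ⟨μ, α, hμ, hα, rfl⟩
  · exact h1 x hx
  · obtain ⟨k1, -, k2⟩ := h.ehol μ α hμ hα
    have t1 : Tendsto (fun w : ℂ => ((w, α) : ℂ × ℂ × ℂ)) (𝓝[≠] 0) (𝓝 (0, α)) :=
      ((Continuous.prodMk_left α).tendsto 0).mono_left nhdsWithin_le_nhds
    have t2 : Tendsto (fun w : ℂ => ((w ^ 2, α) : ℂ × ℂ × ℂ)) (𝓝[≠] 0) (𝓝 (0, α)) :=
      (((continuous_pow 2).prodMk continuous_const).tendsto' 0 _ (by simp)).mono_left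
        nhdsWithin_le_nhds
    refine isClosed_closure.mem_of_tendsto (k1.cont.tendsto.comp t2) ?_
    filter_upwards [t1.eventually k2, t1.eventually (hd.ev_tors hμ hα), self_mem_nhdsWithin]
      with w m1 m2 m3
    rw [Function.comp_apply, m1 m3]
    exact h1 _ (m2 m3)

theorem Kum.desc (h : Kum Λ q e) {Z : Type} (F : ℂ × ℂ → Z) (F' : ℂ × ℂ → ℂ × ℂ → Z)
    (h1 : ∀ x y, x + x ∉ Λ → y + y ∉ Λ → x - y ∈ Λ ∨ x + y ∈ Λ → F x = F y)
    (h2 : ∀ μ μ' α α', μ + μ ∈ Λ → μ' + μ' ∈ Λ → α ≠ 0 → α' ≠ 0 → μ - μ' ∈ Λ →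
      α.1 * α'.2 = α.2 * α'.1 → F' μ α = F' μ' α') :
    ∃ φ : X → Z, (∀ x, x + x ∉ Λ → φ (q x) = F x) ∧
      ∀ μ α, μ + μ ∈ Λ → α ≠ 0 → φ (e μ (0, α)) = F' μ α := by
  have key : ∀ y : X, ∃ c : Z, (∀ x, x + x ∉ Λ → y = q x → c = F x) ∧
      ∀ μ α, μ + μ ∈ Λ → α ≠ 0 → y = e μ (0, α) → c = F' μ α := by
    intro y
    rcases h.cover y with ⟨x, hx, rfl⟩ | ⟨μ, α, hμ, hα, rfl⟩
    · exact ⟨F x, fun x' hx' k => h1 x x' hx hx' ((h.qeq x x' hx hx').1 k),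
        fun μ α hμ hα k => absurd k (h.ene x μ α hx hμ hα)⟩
    · refine ⟨F' μ α, fun x hx k => absurd k.symm (h.ene x μ α hx hμ hα), fun μ' α' hμ' hα' k => ?_⟩
      obtain ⟨k1, k2⟩ := (h.eeq μ μ' α α' hμ hμ' hα hα').1 k
      exact h2 μ μ' α α' hμ hμ' hα hα' k1 k2
  choose φ k1 k2 using key
  exact ⟨φ, fun x hx => k1 _ x hx rfl, fun μ α hμ hα => k2 _ μ α hμ hα rfl⟩

end Vale.Agent.P290
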