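import Vale.Agent.P290K.KLoc

/-! The two-form of a Kummer surface. -/

open Set Filter Metric
open scoped Manifold ContDiff Topology

noncomputable section

namespace Vale.Agent.P290

variable {X : Type} [TopologicalSpace X] [ChartedSpace C2 X] [IsManifold 𝓘(ℂ, C2) ω X]
  {Λ : Submodule ℤ (ℂ × ℂ)} {q : ℂ × ℂ → X} {e : ℂ × ℂ → ℂ × ℂ × ℂ → X}

namespace KSym

/-- the determinant -/
def dt : (ℂ × ℂ) →ₗ[ℂ] (ℂ × ℂ) →ₗ[ℂ] ℂ :=
  LinearMap.mk₂ ℂ (fun a b => a.1 * b.2 - a.2 * b.1) (fun _ _ _ => by simp; ring)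
    (fun _ _ _ => by simp; ring) (fun _ _ _ => by simp; ring) (fun _ _ _ => by simp; ring)

/-- the form near an exceptional curve -/
def th (v : ℂ × ℂ × ℂ) : (ℂ × ℂ × ℂ) →ₗ[ℂ] (ℂ × ℂ × ℂ) →ₗ[ℂ] ℂ :=
  LinearMap.mk₂ ℂ (fun ξ η => 2⁻¹ * (ξ.1 * (v.2.1 * η.2.2 - v.2.2 * η.2.1) -
      η.1 * (v.2.1 * ξ.2.2 - v.2.2 * ξ.2.1)) + v.1 * (ξ.2.1 * η.2.2 - ξ.2.2 * η.2.1))
    (fun _ _ _ => by simp; ring) (fun _ _ _ => by simp; ring) (fun _ _ _ => by simp; ring)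
    (fun _ _ _ => by simp; ring)

theorem dt_apply (a b : ℂ × ℂ) : dt a b = a.1 * b.2 - a.2 * b.1 := rfl

theorem th_apply (v ξ η : ℂ × ℂ × ℂ) : th v ξ η = 2⁻¹ * (ξ.1 * (v.2.1 * η.2.2 - v.2.2 * η.2.1) -
    η.1 * (v.2.1 * ξ.2.2 - v.2.2 * ξ.2.1)) + v.1 * (ξ.2.1 * η.2.2 - ξ.2.2 * η.2.1) := rfl

/-- the canonical value -/
def Can (Λ : Submodule ℤ (ℂ × ℂ)) (q : ℂ × ℂ → X) (y : X) (B : C2 →ₗ[ℂ] C2 →ₗ[ℂ] ℂ) : Prop :=
  ∀ x, x + x ∉ Λ → q x = y → ∀ a b : ℂ × ℂ, B (dif q x a) (dif q x b) = a.1 * b.2 - a.2 * b.1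

/-- good local forms -/
structure Gd (Λ : Submodule ℤ (ℂ × ℂ)) (q : ℂ × ℂ → X) (Ω : X → C2 →ₗ[ℂ] C2 →ₗ[ℂ] ℂ) (z : X) :
    Prop where
  an : ∀ (f : C2 → X) (p : C2), Hol f p → f p = z → ∀ u v,
    AnalyticAt ℂ (fun w => Ω (f w) (dif f w u) (dif f w v)) p
  can : ∀ᶠ y in 𝓝 z, Can Λ q y (Ω y)

theorem agree (h : Kum Λ q e) (hd : IsDisc Λ) {Ω Ω' : X → C2 →ₗ[ℂ] C2 →ₗ[ℂ] ℂ} {z : X}
    (h1 : Gd Λ q Ω z) (h2 : Gd Λ q Ω' z) : Ω z = Ω' z := by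
  have hs := mem_chart_source C2 z
  have ht := (chartAt C2 z).map_source hs
  have hl := (chartAt C2 z).left_inv hs
  have hf : ∃ᶠ y in 𝓝 z, Ω y = Ω' y := by
    have h3 := mem_closure_iff_frequently.1 (h.dense hd dense_univ z)
    refine (h3.and_eventually (h1.can.and h2.can)).mono ?_
    rintro y ⟨⟨x, hx, rfl⟩, c1, c2⟩
    refine LinearMap.ext fun u => LinearMap.ext fun v => ?_
    obtain ⟨a, rfl⟩ := h.qsurj hx.2 u
    obtain ⟨b, rfl⟩ := h.qsurj hx.2 v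
    rw [c1 x hx.2 rfl, c2 x hx.2 rfl]
  rw [← (chartAt C2 z).symm_map_nhds_eq hs, frequently_map] at hf
  refine LinearMap.ext fun u => LinearMap.ext fun v => ?_
  obtain ⟨u, rfl⟩ := (dif_symm_bij z ht).2 u
  obtain ⟨v, rfl⟩ := (dif_symm_bij z ht).2 v
  have h4 := tendsto_nhds_unique_of_frequently_eq
    (h1.an _ _ (hol_symm z ht) hl u v).continuousAt (h2.an _ _ (hol_symm z ht) hl u v).continuousAt
    (hf.mono fun w hw => by rw [hw])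
  simp only [hl] at h4
  exact h4

theorem dif_sec {E : Type} [NormedAddCommGroup E] [NormedSpace ℂ E] [FiniteDimensional ℂ E]
    {F : E → X} {s : X → E} {y : X} (hs : HolF s y) (hF : Hol F (s y))
    (he : ∀ᶠ z in 𝓝 y, F (s z) = z) (u : C2) : dif F (s y) (dfn s y u) = u := by
  have h1 := mfderiv_comp_apply y hF.mdiff (hs.mdifferentiableAt Mfd.ne0) u
  have h2 : F ∘ s =ᶠ[𝓝 y] id := he
  rw [h2.mfderiv_eq, mfderiv_id] at h1
  exact h1.symm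

theorem loc {E : Type} [NormedAddCommGroup E] [NormedSpace ℂ E] [FiniteDimensional ℂ E]
    {F : E → X} {z₀ : E} (hF : Hol F z₀) (hs : Function.Surjective (dif F z₀))
    (Θ : E → E →ₗ[ℂ] E →ₗ[ℂ] ℂ)
    (hΘ : ∀ (a b c : C2 → E) (p : C2), AnalyticAt ℂ a p → AnalyticAt ℂ b p → AnalyticAt ℂ c p →
      AnalyticAt ℂ (fun w => Θ (a w) (b w) (c w)) p)
    (hK : ∀ᶠ v in 𝓝 z₀, ∀ x, x + x ∉ Λ → q x = F v → ∀ a b ξ η, dif F v ξ = dif q x a →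
      dif F v η = dif q x b → Θ v ξ η = a.1 * b.2 - a.2 * b.1) :
    ∃ Ω : X → C2 →ₗ[ℂ] C2 →ₗ[ℂ] ℂ, (∀ᶠ z in 𝓝 (F z₀), Gd Λ q Ω z) ∧
      ∃ L : C2 →L[ℂ] E, (∀ u, dif F z₀ (L u) = u) ∧ ∀ u v, Ω (F z₀) u v = Θ z₀ (L u) (L v) := by
  have := FiniteDimensional.complete ℂ E
  obtain ⟨s, s1, s2, s3⟩ := hF.sec hs
  have ht : Tendsto s (𝓝 (F z₀)) (𝓝 z₀) := by
    have := s1.continuousAt.tendsto
    rwa [s2] at this
  refine ⟨fun z => (Θ (s z)).compl₁₂ (dfn s z : C2 →ₗ[ℂ] E) (dfn s z : C2 →ₗ[ℂ] E), ?_,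
    dfn s (F z₀), fun u => ?_, fun u v => ?_⟩
  · have hc : ∀ᶠ y in 𝓝 (F z₀), Can Λ q y
        ((Θ (s y)).compl₁₂ (dfn s y : C2 →ₗ[ℂ] E) (dfn s y : C2 →ₗ[ℂ] E)) := by
      filter_upwards [s1.ev, ht.eventually hF.ev, ht.eventually hK, s3.eventually_nhds]
        with y k1 k2 k3 k4 x hx hy a b
      exact k3 x hx (hy.trans k4.self_of_nhds.symm) a b _ _ (dif_sec k1 k2 k4 _)
        (dif_sec k1 k2 k4 _)
    filter_upwards [s1.ev, hc.eventually_nhds] with z k1 k2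
    refine ⟨fun f p hf hp u v => ?_, k2⟩
    subst hp
    have a1 := k1.comp hf
    refine (hΘ _ _ _ p a1 (Sg.an_fderiv a1 u) (Sg.an_fderiv a1 v)).congr ?_
    filter_upwards [hf.ev, hf.cont.eventually k1.ev] with w j1 j2
    rw [dfn_comp j2 j1, dfn_comp j2 j1]
    rfl
  · have := dif_sec s1 (s2.symm ▸ hF) s3 u
    rwa [s2] at this
  · simp only [s2]
    rfl

theorem rel (h : Kum Λ q e) (hd : IsDisc Λ) {v x : ℂ × ℂ} (hv : v + v ∉ Λ) (hx : x + x ∉ Λ)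
    (hq : q x = q v) {a b ξ η : ℂ × ℂ} (h1 : dif q v ξ = dif q x a) (h2 : dif q v η = dif q x b) :
    ξ.1 * η.2 - ξ.2 * η.1 = a.1 * b.2 - a.2 * b.1 := by
  have key : ∀ (g : ℂ × ℂ → ℂ × ℂ) (c : ℂ), AnalyticAt ℂ g v → g v = x →
      (∀ u, fderiv ℂ g v u = c • u) → c * c = 1 → (∀ w, g w - w ∈ Λ ∨ g w + w ∈ Λ) →
      ξ.1 * η.2 - ξ.2 * η.1 = a.1 * b.2 - a.2 * b.1 := by
    intro g c g1 g2 g3 g4 g5
    subst g2
    have e1 : (fun w => q (g w)) =ᶠ[𝓝 v] q := by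
      filter_upwards [hd.ev_nt hv, g1.continuousAt.eventually (hd.ev_nt hx)] with w k1 k2
      exact (h.qeq _ _ k2 k1).2 (g5 w)
    have e2 : ∀ u, dif q v u = dif q (g v) (c • u) := fun u => by
      rw [← dif_congr e1, dif_comp (h.qhol _ hx).1 g1, g3]
    rw [e2] at h1 h2
    rw [← (h.qhol _ hx).2 h1, ← (h.qhol _ hx).2 h2]
    simp only [Prod.smul_fst, Prod.smul_snd, smul_eq_mul]
    linear_combination (ξ.2 * η.1 - ξ.1 * η.2) * g4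
  rcases (h.qeq x v hx hv).1 hq with k | k
  · refine key (fun w => w + (x - v)) 1 (analyticAt_id.add analyticAt_const) (by simp)
      (fun u => ?_) (by simp) fun w => Or.inl (by simpa using k)
    have d : HasFDerivAt (fun w => w + (x - v)) _ v := (hasFDerivAt_id (𝕜 := ℂ) v).add_const (x - v)
    rw [d.fderiv]
    simp
  · refine key (fun w => (x + v) - w) (-1) (analyticAt_const.sub analyticAt_id) (by simp)
      (fun u => ?_) (by simp) fun w => Or.inr (by simpa using k)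
    have d : HasFDerivAt (fun w => (x + v) - w) _ v := (hasFDerivAt_id (𝕜 := ℂ) v).const_sub (x + v)
    rw [d.fderiv]
    simp

theorem keyE (h : Kum Λ q e) (hd : IsDisc Λ) {μ α : ℂ × ℂ} (hμ : μ + μ ∈ Λ) (hα : α ≠ 0) :
    ∀ᶠ v in 𝓝 (((0 : ℂ), α)), ∀ x, x + x ∉ Λ → q x = e μ v → ∀ a b ξ η,
      dif (e μ) v ξ = dif q x a → dif (e μ) v η = dif q x b →
      th v ξ η = a.1 * b.2 - a.2 * b.1 := by
  obtain ⟨e1, -, e3⟩ := h.ehol μ α hμ hα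
  refine ev_sq ?_ ?_
  · filter_upwards [eventually_ne_nhds hα] with β hβ x hx hq
    exact absurd hq (h.ene x μ β hx hμ hβ)
  · have hm : ∀ v : ℂ × ℂ × ℂ, AnalyticAt ℂ (fun v : ℂ × ℂ × ℂ => (v.1 ^ 2, v.2)) v := fun v =>
      (analyticAt_fst.pow 2).prod analyticAt_snd
    have hn : ∀ v : ℂ × ℂ × ℂ, AnalyticAt ℂ (fun v : ℂ × ℂ × ℂ => μ + v.1 • v.2) v := fun v =>
      analyticAt_const.add (analyticAt_fst.smul analyticAt_snd)
    have ht : Tendsto (fun v : ℂ × ℂ × ℂ => (v.1 ^ 2, v.2)) (𝓝 (0, α)) (𝓝 (0, α)) := by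
      simpa using (hm (0, α)).continuousAt.tendsto
    filter_upwards [e3.eventually_nhds, ht.eventually e1.ev, hd.ev_tors hμ hα]
      with v k1 k2 k3 hv x hx hq a b ξ η j1 j2
    have k4 := k3 hv
    have e4 : (fun v : ℂ × ℂ × ℂ => e μ (v.1 ^ 2, v.2)) =ᶠ[𝓝 v] fun v => q (μ + v.1 • v.2) := by
      filter_upwards [k1, continuous_fst.continuousAt.eventually_ne hv] with w i1 i2
      exact i1 i2
    have d1 : HasFDerivAt (fun v : ℂ × ℂ × ℂ => (v.1 ^ 2, v.2)) _ v :=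
      ((hasFDerivAt_fst (𝕜 := ℂ)).pow 2).prodMk hasFDerivAt_snd
    have d2 : HasFDerivAt (fun v : ℂ × ℂ × ℂ => μ + v.1 • v.2) _ v :=
      ((hasFDerivAt_fst (𝕜 := ℂ)).fun_smul hasFDerivAt_snd).const_add μ
    have e5 : ∀ ζ : ℂ × ℂ × ℂ, dif (e μ) (v.1 ^ 2, v.2) ζ =
        dif q (μ + v.1 • v.2) (v.1 • ζ.2 + (ζ.1 / (2 * v.1)) • v.2) := fun ζ => by
      have i1 := dif_comp (f := e μ) (g := fun v : ℂ × ℂ × ℂ => (v.1 ^ 2, v.2)) (z := v) k2 (hm v)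
        (ζ.1 / (2 * v.1), ζ.2)
      have i2 := dif_comp (f := q) (g := fun v : ℂ × ℂ × ℂ => μ + v.1 • v.2) (z := v)
        (h.qhol _ k4).1 (hn v) (ζ.1 / (2 * v.1), ζ.2)
      rw [dif_congr e4, i2, d1.fderiv, d2.fderiv] at i1
      have i3 : 2 * v.1 * (ζ.1 / (2 * v.1)) = ζ.1 := by field_simp
      simpa [i3] using i1.symm
    rw [e5] at j1 j2
    rw [← rel h hd k4 hx (hq.trans e4.self_of_nhds) j1 j2, th_apply]
    simp only [Prod.fst_add, Prod.snd_add, Prod.smul_fst, Prod.smul_snd, smul_eq_mul]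
    field_simp
    ring

theorem neE (h : Kum Λ q e) {μ α : ℂ × ℂ} (hμ : μ + μ ∈ Λ) (hα : α ≠ 0)
    {L : C2 →L[ℂ] ℂ × ℂ × ℂ} (hL : ∀ u, dif (e μ) (0, α) (L u) = u) :
    ∃ u v, th (0, α) (L u) (L v) ≠ 0 := by
  have e1 := (h.ehol μ α hμ hα).1
  have h0 : dif (e μ) (0, α) (0, α) = 0 := by
    have a1 : AnalyticAt ℂ (fun c : ℂ => (((0 : ℂ), c • α) : ℂ × ℂ × ℂ)) 1 :=
      analyticAt_const.prod (analyticAt_id.smul analyticAt_const)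
    have d1 : HasDerivAt (fun c : ℂ => (((0 : ℂ), c • α) : ℂ × ℂ × ℂ)) (0, α) 1 := by
      have := (hasDerivAt_const (1 : ℂ) (0 : ℂ)).prodMk ((hasDerivAt_id (1 : ℂ)).smul_const α)
      rwa [one_smul] at this
    have i1 := dif_comp (f := e μ) (g := fun c : ℂ => (((0 : ℂ), c • α) : ℂ × ℂ × ℂ)) (z := 1)
      (by simpa using e1) a1 1
    have e2 : (fun c : ℂ => e μ (0, c • α)) =ᶠ[𝓝 1] fun _ => e μ (0, α) := by
      filter_upwards [eventually_ne_nhds (one_ne_zero (α := ℂ))] with c hc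
      refine (h.eeq μ μ _ _ hμ hμ (smul_ne_zero hc hα) hα).2 ⟨by simp, ?_⟩
      simp only [Prod.smul_fst, Prod.smul_snd, smul_eq_mul]
      ring
    rw [dif_congr e2, fderiv_apply_one_eq_deriv, d1.deriv, one_smul] at i1
    rw [← i1, dif, mfderiv_const]
    rfl
  let T : (ℂ × C2) →ₗ[ℂ] ℂ × ℂ × ℂ :=
    LinearMap.coprod (LinearMap.toSpanSingleton ℂ _ ((0 : ℂ), α)) (L : C2 →ₗ[ℂ] ℂ × ℂ × ℂ)
  have hT : ∀ c u, T (c, u) = c • ((0 : ℂ), α) + L u := fun _ _ => rfl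
  have hi : Function.Injective T := by
    rw [injective_iff_map_eq_zero]
    rintro ⟨c, u⟩ hc
    rw [hT] at hc
    have i1 := congrArg (dif (e μ) (0, α)) hc
    rw [map_add, map_smul, h0, hL, smul_zero, zero_add, map_zero] at i1
    rw [i1, map_zero, add_zero] at hc
    have i2 : c • α = 0 := congrArg Prod.snd hc
    rw [i1, (smul_eq_zero.1 i2).resolve_right hα]
    rfl
  have hs := (LinearMap.injective_iff_surjective_of_finrank_eq_finrank (by simp)).1 hi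
  by_contra hn
  push Not at hn
  have hz : ∀ ξ η, th (0, α) ξ η = 0 := by
    intro ξ η
    obtain ⟨⟨c, u⟩, rfl⟩ := hs ξ
    obtain ⟨⟨c', u'⟩, rfl⟩ := hs η
    have := hn u u'
    rw [th_apply] at this
    rw [hT, hT, th_apply]
    simp only [Prod.fst_add, Prod.snd_add, Prod.smul_fst, Prod.smul_snd, smul_eq_mul] at this ⊢
    linear_combination this
  have z1 := hz (1, 0) (0, 0, 1)
  have z2 := hz (1, 0) (0, 1, 0)
  simp [th_apply] at z1 z2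
  exact hα (Prod.ext z1 z2)

theorem f1 {V : Type} [NormedAddCommGroup V] [NormedSpace ℂ V] {a : C2 → ℂ × V} {p : C2}
    (ha : AnalyticAt ℂ a p) : AnalyticAt ℂ (fun w => (a w).1) p := analyticAt_fst.comp ha

theorem f2 {V : Type} [NormedAddCommGroup V] [NormedSpace ℂ V] {a : C2 → ℂ × V} {p : C2}
    (ha : AnalyticAt ℂ a p) : AnalyticAt ℂ (fun w => (a w).2) p := analyticAt_snd.comp ha

theorem ex (h : Kum Λ q e) (hd : IsDisc Λ) (y : X) : ∃ Ω : X → C2 →ₗ[ℂ] C2 →ₗ[ℂ] ℂ,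
    (∀ᶠ z in 𝓝 y, Gd Λ q Ω z) ∧ (∀ u, Ω y u u = 0) ∧ Ω y ≠ 0 := by
  rcases h.cover y with ⟨x, hx, rfl⟩ | ⟨μ, α, hμ, hα, rfl⟩
  · obtain ⟨Ω, o1, L, -, o2⟩ := loc (Λ := Λ) (q := q) (h.qhol x hx).1 (h.qsurj hx) (fun _ => dt)
      (fun a b c p _ hb hc => ((f1 hb).mul (f2 hc)).sub ((f2 hb).mul (f1 hc)))
      ((hd.ev_nt hx).mono fun v hv x' hx' hq a b ξ η j1 j2 => rel h hd hv hx' hq j1 j2)
    refine ⟨Ω, o1, fun u => by rw [o2, dt_apply]; ring, fun h0 => ?_⟩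
    have := o1.self_of_nhds.can.self_of_nhds x hx rfl (1, 0) (0, 1)
    simp [h0] at this
  · obtain ⟨e1, e2, -⟩ := h.ehol μ α hμ hα
    obtain ⟨Ω, o1, L, o3, o2⟩ := loc (Λ := Λ) (q := q) e1 e2 th
      (fun a b c p ha hb hc => (analyticAt_const.mul
        (((f1 hb).mul (((f1 (f2 ha)).mul (f2 (f2 hc))).sub ((f2 (f2 ha)).mul (f1 (f2 hc))))).sub
        ((f1 hc).mul (((f1 (f2 ha)).mul (f2 (f2 hb))).sub ((f2 (f2 ha)).mul (f1 (f2 hb))))))).add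
        ((f1 ha).mul (((f1 (f2 hb)).mul (f2 (f2 hc))).sub ((f2 (f2 hb)).mul (f1 (f2 hc))))))
      (keyE h hd hμ hα)
    refine ⟨Ω, o1, fun u => by rw [o2, th_apply]; ring, fun h0 => ?_⟩
    obtain ⟨u, v, huv⟩ := neE h hμ hα o3
    rw [← o2, h0] at huv
    exact huv rfl

end KSym

theorem Kum.sympl (h : Kum Λ q e) (hd : IsDisc Λ) : ∃ σ : Form2 X, IsSympl σ ∧
    ∀ x, x + x ∉ Λ → ∀ u v : ℂ × ℂ,
      sg σ (q x) (dif q x u) (dif q x v) = u.1 * v.2 - u.2 * v.1 := by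
  choose Ω o1 o2 o3 using KSym.ex h hd
  refine ⟨fun y => Ω y y, ⟨o2, o3, fun x₀ u v q₀ hq => ?_⟩, fun x hx u v =>
    (o1 (q x)).self_of_nhds.can.self_of_nhds x hx rfl u v⟩
  have s0 := hol_symm x₀ hq
  refine ((o1 _).self_of_nhds.an _ _ s0 rfl u v).congr ?_
  filter_upwards [s0.cont.eventually (o1 _)] with w hw
  rw [KSym.agree h hd hw (o1 _).self_of_nhds]
  rfl

end Vale.Agent.P290
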