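import Vale.Agent.P290K.Defs
import Vale.Agent.P290G.WP2

/-! The periods of the zeta function. -/

open Set Filter Metric
open scoped Manifold ContDiff Topology

noncomputable section

namespace Vale.Agent.P290

namespace Zeta2

variable {L : PeriodPair} {ζ : ℂ → ℂ}

theorem nm {y l : ℂ} (hy : y ∉ L.lattice) (hl : l ∈ L.lattice) : y + l ∉ L.lattice :=
  fun h => hy ((L.lattice.add_mem_iff_left hl).1 h)

theorem shift (h : IsZeta L ζ) {l : ℂ} (hl : l ∈ L.lattice) :
    ∃ η, ∀ y ∉ L.lattice, ζ (y + l) = ζ y + η := by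
  have hd : ∀ y ∉ L.lattice, HasDerivAt (fun y => ζ (y + l) - ζ y) 0 y := fun y hy => by
    have h1 := ((h.der _ (nm hy hl)).comp_add_const y l).fun_sub (h.der y hy)
    rwa [L.weierstrassP_add_coe y ⟨l, hl⟩, sub_self] at h1
  obtain ⟨η, hη⟩ := L.isClosed_lattice.isOpen_compl.exists_is_const_of_deriv_eq_zero
    (WP2.conn (lattice_countable L)) (f := fun y => ζ (y + l) - ζ y)
    (fun y hy => (hd y hy).differentiableAt.differentiableWithinAt) fun y hy => (hd y hy).deriv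
  exact ⟨η, fun y hy => by rw [← hη y hy]; ring⟩

theorem mult {l η : ℂ} (hl : l ∈ L.lattice) (h : ∀ y ∉ L.lattice, ζ (y + l) = ζ y + η) (m : ℤ) :
    ∀ y ∉ L.lattice, ζ (y + m * l) = ζ y + m * η := by
  have hm : ∀ m : ℤ, (m : ℂ) * l ∈ L.lattice := fun m => by
    rw [← zsmul_eq_mul]
    exact L.lattice.smul_mem m hl
  induction m using Int.induction_on with
  | zero => simp
  | succ n ih =>
    intro y hy
    have h1 := h _ (nm hy (hm n))
    rw [ih y hy] at h1
    push_cast at h1 ⊢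
    rw [add_mul, one_mul, ← add_assoc, h1]
    ring
  | pred n ih =>
    intro y hy
    have h1 := h _ (nm hy (hm (-n - 1)))
    have h2 := ih y hy
    push_cast at h1 h2 ⊢
    rw [show y + (-n - 1) * l + l = y + -n * l by ring, h2] at h1
    linear_combination -h1

theorem near (L : PeriodPair) : ∀ᶠ y in 𝓝 (0 : ℂ), y ≠ 0 → y ∉ L.lattice := by
  filter_upwards [L.compl_lattice_sdiff_singleton_mem_nhds 0] with y hy h0 h1
  exact hy ⟨h1, h0⟩

theorem pole (h : IsZeta L ζ) :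
    ∃ g : ℂ → ℂ, AnalyticAt ℂ g 0 ∧ ∀ᶠ y in 𝓝 (0 : ℂ), y ≠ 0 → ζ y = y⁻¹ + y * g y := by
  obtain ⟨g, hg, h1⟩ := h.pole
  rw [eventually_nhdsWithin_iff] at h1
  have hn : Tendsto (fun y : ℂ => -y) (𝓝 0) (𝓝 0) := by
    simpa using (continuous_neg (G := ℂ)).tendsto 0
  have h2 : ∀ᶠ y in 𝓝[≠] (0 : ℂ), g (-y) = -g y := by
    rw [eventually_nhdsWithin_iff]
    filter_upwards [h1, hn.eventually h1, near L] with y a1 a2 a3 a4
    have a5 := h.odd y (a3 a4)
    rw [a1 a4, a2 (neg_ne_zero.2 a4), inv_neg] at a5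
    linear_combination a5
  have h3 : g 0 = 0 := by
    have t1 : Tendsto (fun y => g (-y)) (𝓝[≠] 0) (𝓝 (g 0)) :=
      (hg.continuousAt.tendsto.comp hn).mono_left nhdsWithin_le_nhds
    have t2 : Tendsto (fun y => -g y) (𝓝[≠] 0) (𝓝 (-g 0)) :=
      hg.continuousAt.tendsto.neg.mono_left nhdsWithin_le_nhds
    exact CharZero.eq_neg_self_iff.1 (tendsto_nhds_unique (t1.congr' h2) t2)
  obtain ⟨F, hF, h4⟩ := hg.exists_eq_sum_add_pow_mul 1
  refine ⟨F, hF, ?_⟩
  filter_upwards [h1] with y a1 a2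
  rw [a1 a2, h4 y]
  simp [h3]

theorem const (h : IsZeta L ζ) {c : ℂ}
    (hp : ∀ y ∉ L.lattice, ∀ l ∈ L.lattice, ζ (y + l) = ζ y + c * l) :
    ∃ k, ∀ y ∉ L.lattice, (ζ y - c * y) ^ 2 - L.weierstrassP y = k := by
  classical
  obtain ⟨g, hg, h1⟩ := pole h
  let S : ℂ → ℂ := fun y => 2 * (g y - c) + (y * (g y - c)) ^ 2 - L.weierstrassPExcept 0 y
  have hS : AnalyticAt ℂ S 0 := by
    have := L.analyticAt_weierstrassPExcept 0
    fun_prop
  let R : ℂ → ℂ := fun y => if y ∈ L.lattice then S 0 else (ζ y - c * y) ^ 2 - L.weierstrassP y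
  have hR : ∀ z w, w ∈ L.lattice → R (z + w) = R z := fun z w hw => by
    by_cases hz : z ∈ L.lattice
    · simp only [R, if_pos hz, if_pos (L.lattice.add_mem hz hw)]
    · simp only [R, if_neg hz, if_neg (nm hz hw)]
      rw [hp z hz w hw, L.weierstrassP_add_coe z ⟨w, hw⟩]
      ring
  have h0 : AnalyticAt ℂ R 0 := by
    refine hS.congr ?_
    filter_upwards [h1, near L] with y a1 a2
    by_cases hy : y = 0
    · simp only [R, hy, if_pos L.lattice.zero_mem]
    · simp only [R, S, if_neg (a2 hy)]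
      have a3 := L.weierstrassPExcept_add 0 y
      simp only [ZeroMemClass.coe_zero, sub_zero] at a3
      rw [a1 hy, ← a3]
      field_simp
      ring
  have hd : Differentiable ℂ R := fun x => by
    by_cases hx : x ∈ L.lattice
    · have e : R = fun z => R (z + -x) := funext fun z => (hR z _ (L.lattice.neg_mem hx)).symm
      rw [e]
      exact (h0.fun_comp_of_eq (f := fun z => z + -x) (x := x) (by fun_prop)
        (by simp)).differentiableAt
    · have a1 := (h.der x hx).differentiableAt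
      have a2 := (L.analyticOnNhd_weierstrassP x hx).differentiableAt
      have a3 : DifferentiableAt ℂ (fun y => (ζ y - c * y) ^ 2 - L.weierstrassP y) x := by
        fun_prop
      refine a3.congr_of_eventuallyEq ?_
      filter_upwards [L.isClosed_lattice.isOpen_compl.mem_nhds hx] with y hy
      exact if_neg hy
  refine ⟨R 0, fun y hy => ?_⟩
  rw [← hd.apply_eq_apply_of_bounded
    (IsZLattice.isCompact_range_of_periodic L.lattice _ hd.continuous hR).isBounded y 0]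
  exact (if_neg hy).symm

theorem half (L : PeriodPair) : L.weierstrassP (L.ω₁ / 2) ≠ L.weierstrassP (L.ω₂ / 2) := by
  intro h
  have n1 := L.ω₁_div_two_notMem_lattice
  have n2 := L.ω₂_div_two_notMem_lattice
  have z1 : L.derivWeierstrassP (L.ω₁ / 2) = 0 :=
    (wp'_zero L n1).2 (by rw [mul_div_cancel₀ _ two_ne_zero]; exact L.ω₁_mem_lattice)
  have z2 : L.derivWeierstrassP (L.ω₂ / 2) = 0 :=
    (wp'_zero L n2).2 (by rw [mul_div_cancel₀ _ two_ne_zero]; exact L.ω₂_mem_lattice)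
  have n3 : -(L.ω₂ / 2) + L.ω₁ / 2 ∉ L.lattice := by
    have := (L.mul_ω₁_add_mul_ω₂_mem_lattice (α := 1 / 2) (β := -1 / 2)).not.mpr (by norm_num)
    convert this using 2
    push_cast
    ring
  have e1 : (deriv fun u => L.weierstrassP (u + L.ω₁ / 2)) =
      fun u => L.derivWeierstrassP (u + L.ω₁ / 2) :=
    funext fun u => by rw [deriv_comp_add_const, L.deriv_weierstrassP]
  refine (WP2.uniq L (D := (fun u => u + L.ω₁ / 2) ⁻¹' L.lattice)
    (Y := fun u => L.weierstrassP (u + L.ω₁ / 2))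
    (L.isClosed_lattice.preimage (by fun_prop))
    ((lattice_countable L).preimage (add_left_injective _))
    (fun u hu => (L.analyticOnNhd_weierstrassP (u + L.ω₁ / 2) hu).fun_comp_of_eq
      (analyticAt_id.add analyticAt_const) rfl)
    (fun u hu => ?_) (u₀ := 0) (a := L.ω₂ / 2) (by simpa using n1) (by simpa using n2)
    (by simpa using h) (by simp [e1, z1, z2]) (-(L.ω₂ / 2)) n3).1 (by simp)
  rw [e1, deriv_comp_add_const, wp_deriv2 L hu]

end Zeta2

theorem IsZeta.per {L : PeriodPair} {ζ : ℂ → ℂ} (h : IsZeta L ζ) :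
    ∃ η₁ η₂ : ℂ, (∀ y ∉ L.lattice, ∀ m n : ℤ,
      ζ (y + (m * L.ω₁ + n * L.ω₂)) = ζ y + (m * η₁ + n * η₂)) ∧ η₁ * L.ω₂ ≠ η₂ * L.ω₁ := by
  obtain ⟨η₁, h1⟩ := Zeta2.shift h L.ω₁_mem_lattice
  obtain ⟨η₂, h2⟩ := Zeta2.shift h L.ω₂_mem_lattice
  have h3 : ∀ y ∉ L.lattice, ∀ m n : ℤ,
      ζ (y + (m * L.ω₁ + n * L.ω₂)) = ζ y + (m * η₁ + n * η₂) := fun y hy m n => by
    have hm : (m : ℂ) * L.ω₁ ∈ L.lattice := by
      rw [← zsmul_eq_mul]
      exact L.lattice.smul_mem m L.ω₁_mem_lattice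
    rw [← add_assoc, Zeta2.mult L.ω₂_mem_lattice h2 n _ (Zeta2.nm hy hm),
      Zeta2.mult L.ω₁_mem_lattice h1 m y hy, add_assoc]
  refine ⟨η₁, η₂, h3, fun he => Zeta2.half L ?_⟩
  have n1 := L.ω₁_div_two_notMem_lattice
  have n2 := L.ω₂_div_two_notMem_lattice
  have w0 : L.ω₁ ≠ 0 := fun h0 => n1 (by simp [h0])
  have hp : ∀ y ∉ L.lattice, ∀ l ∈ L.lattice, ζ (y + l) = ζ y + η₁ / L.ω₁ * l := by
    intro y hy l hl
    obtain ⟨m, n, rfl⟩ := PeriodPair.mem_lattice.1 hl
    rw [h3 y hy]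
    field_simp
    linear_combination (-n) * he
  obtain ⟨k, hk⟩ := Zeta2.const h hp
  have hz : ∀ w ∈ L.lattice, w / 2 ∉ L.lattice → L.weierstrassP (w / 2) = -k := by
    intro w hw hn
    have a1 := hp (-(w / 2)) (fun h0 => hn (L.lattice.neg_mem_iff.1 h0)) w hw
    rw [h.odd _ hn, show -(w / 2) + w = w / 2 by ring] at a1
    have a2 : ζ (w / 2) - η₁ / L.ω₁ * (w / 2) = 0 := by linear_combination a1 / 2
    have a3 := hk _ hn
    rw [a2] at a3
    linear_combination -a3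
  rw [hz _ L.ω₁_mem_lattice n1, hz _ L.ω₂_mem_lattice n2]

end Vale.Agent.P290
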