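import Vale.Agent.P290K.Zeta1
import Vale.Agent.P290K.Zeta2

/-! Odd functions with given additive periods. -/

open Set Filter Metric
open scoped Manifold ContDiff Topology

noncomputable section

namespace Vale.Agent.P290

namespace Zeta3

theorem add (L : PeriodPair) (a₁ a₂ : ℂ) : ∃ A : ℂ →ₗ[ℝ] ℂ, ∀ m n : ℤ,
    A (m * L.ω₁ + n * L.ω₂) = m * a₁ + n * a₂ := by
  refine ⟨L.basis.constr ℝ ![a₁, a₂], fun m n => ?_⟩
  have h1 := L.basis.constr_basis ℝ ![a₁, a₂] 0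
  have h2 := L.basis.constr_basis ℝ ![a₁, a₂] 1
  rw [L.basis_zero] at h1
  rw [L.basis_one] at h2
  rw [← zsmul_eq_mul, ← zsmul_eq_mul, map_add, map_zsmul, map_zsmul, h1, h2, zsmul_eq_mul,
    zsmul_eq_mul]
  rfl

theorem pole {L : PeriodPair} {ζ : ℂ → ℂ} (h : IsZeta L ζ) (α : ℂ) :
    ∃ G : ℂ → ℂ, AnalyticAt ℂ G 0 ∧ G 0 = 0 ∧ ∀ᶠ y in 𝓝[≠] (0 : ℂ), y ∉ L.lattice ∧
      α * ζ y + α / 2 * (L.derivWeierstrassP y / L.weierstrassP y) = G y := by
  obtain ⟨g, hg, e⟩ := h.pole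
  have nl : ∀ᶠ y in 𝓝[≠] (0 : ℂ), y ∉ L.lattice := by
    filter_upwards [mem_nhdsWithin_of_mem_nhds (L.compl_lattice_sdiff_singleton_mem_nhds 0),
      self_mem_nhdsWithin] with y h1 h2 h3
    exact h1 ⟨h3, h2⟩
  have tn : Tendsto (fun y : ℂ => -y) (𝓝[≠] 0) (𝓝[≠] 0) :=
    tendsto_nhdsWithin_iff.2 ⟨(continuous_neg.tendsto' 0 0 neg_zero).mono_left nhdsWithin_le_nhds,
      Filter.mem_of_superset self_mem_nhdsWithin fun y hy => neg_ne_zero.2 hy⟩
  have g0 : g 0 = 0 := by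
    have t1 : Tendsto g (𝓝[≠] 0) (𝓝 (g 0)) := hg.continuousAt.tendsto.mono_left nhdsWithin_le_nhds
    have t2 := (t1.comp tn).add t1
    have t3 : Tendsto (fun y => (g ∘ fun y : ℂ => -y) y + g y) (𝓝[≠] 0) (𝓝 0) := by
      refine tendsto_const_nhds.congr' ?_
      filter_upwards [e, tn.eventually e, nl] with y h1 h2 h3
      rw [h.odd y h3, h1, inv_neg] at h2
      simp only [Function.comp]
      linear_combination h2
    exact add_self_eq_zero.1 (tendsto_nhds_unique t2 t3)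
  have aP := L.analyticAt_weierstrassPExcept 0
  have aQ := L.analyticAt_derivWeierstrassPExcept 0
  have aD : AnalyticAt ℂ (fun y => y ^ 2 * L.weierstrassPExcept 0 y + 1) 0 := by fun_prop
  have aN : AnalyticAt ℂ (fun y => 2 * y * L.weierstrassPExcept 0 y +
      y ^ 2 * L.derivWeierstrassPExcept 0 y) 0 := by fun_prop
  refine ⟨fun y => α * g y + α / 2 * ((2 * y * L.weierstrassPExcept 0 y +
    y ^ 2 * L.derivWeierstrassPExcept 0 y) / (y ^ 2 * L.weierstrassPExcept 0 y + 1)),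
    (analyticAt_const.mul hg).add (analyticAt_const.mul (aN.div aD (by simp))), by simp [g0], ?_⟩
  filter_upwards [e, nl, self_mem_nhdsWithin, mem_nhdsWithin_of_mem_nhds
    (aD.continuousAt.eventually_ne (y := 0) (by simp))] with y h1 h2 h3 h4
  refine ⟨h2, ?_⟩
  have k1 := L.weierstrassPExcept_add 0 y
  have k2 := L.derivWeierstrassPExcept_sub 0 y
  simp only [ZeroMemClass.coe_zero, sub_zero, ne_eq, OfNat.ofNat_ne_zero, not_false_eq_true,
    zero_pow, div_zero] at k1 k2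
  have h5 : y ≠ 0 := h3
  have k3 : L.weierstrassP y = (y ^ 2 * L.weierstrassPExcept 0 y + 1) / y ^ 2 := by
    rw [← k1]
    field_simp
  have h6 : y ^ 2 * L.weierstrassPExcept 0 y + 1 ≠ 0 := h4
  rw [h1, k3, ← k2]
  field_simp
  ring

end Zeta3

theorem exists_shear (L : PeriodPair) (a₁ a₂ : ℂ) : ∃ (u₀ u₁ : ℂ → ℂ) (t : ℂ),
    Shear L a₁ a₂ {y | y ∉ L.lattice} u₀ ∧
    Shear L a₁ a₂ {y | y ∈ L.lattice ∨ L.weierstrassP y ≠ 0} u₁ ∧
    ∀ y ∉ L.lattice, L.weierstrassP y ≠ 0 →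
      u₀ y - u₁ y = t / L.weierstrassP y * L.derivWeierstrassP y := by

  classical
  obtain ⟨ζ, hζ⟩ := exists_zeta L
  obtain ⟨η₁, η₂, hper, hne⟩ := hζ.per
  obtain ⟨α, β, e1, e2⟩ : ∃ α β : ℂ, α * η₁ + β * L.ω₁ = a₁ ∧ α * η₂ + β * L.ω₂ = a₂ := by
    have h := sub_ne_zero.2 hne
    refine ⟨(a₁ * L.ω₂ - a₂ * L.ω₁) / (η₁ * L.ω₂ - η₂ * L.ω₁),
      (η₁ * a₂ - η₂ * a₁) / (η₁ * L.ω₂ - η₂ * L.ω₁), ?_, ?_⟩ <;>
    · rw [div_mul_eq_mul_div, div_mul_eq_mul_div, ← add_div, div_eq_iff h]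
      ring
  obtain ⟨A, hA⟩ := Zeta3.add L a₁ a₂
  have op : IsOpen (L.lattice : Set ℂ)ᶜ := L.isClosed_lattice.isOpen_compl
  have aζ : AnalyticOnNhd ℂ ζ (L.lattice : Set ℂ)ᶜ :=
    DifferentiableOn.analyticOnNhd
      (fun y hy => (hζ.der y hy).differentiableAt.differentiableWithinAt) op
  have s0 : Shear L a₁ a₂ {y | y ∉ L.lattice} fun y => α * ζ y + β * y :=
    ⟨fun y hy => (analyticAt_const.mul (aζ y hy)).add (analyticAt_const.mul analyticAt_id),
      fun y hy => by rw [hζ.odd y hy]; ring,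
      fun y hy m n => by rw [hper y hy, ← e1, ← e2]; ring⟩
  set u : ℂ → ℂ := fun y => if y ∈ L.lattice then A y else
    α * ζ y + β * y + α / 2 * (L.derivWeierstrassP y / L.weierstrassP y) with hu
  have u1 : ∀ y ∈ L.lattice, u y = A y := fun y hy => if_pos hy
  have u2 : ∀ y ∉ L.lattice, u y =
      α * ζ y + β * y + α / 2 * (L.derivWeierstrassP y / L.weierstrassP y) := fun y hy => if_neg hy
  have per : ∀ y, ∀ m n : ℤ, u (y + (m * L.ω₁ + n * L.ω₂)) = u y + (m * a₁ + n * a₂) :=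
    fun y m n => by
      have hl : (m * L.ω₁ + n * L.ω₂ : ℂ) ∈ L.lattice := PeriodPair.mem_lattice.2 ⟨m, n, rfl⟩
      by_cases hy : y ∈ L.lattice
      · rw [u1 _ (add_mem hy hl), u1 _ hy, map_add, hA]
      · have h1 := L.weierstrassP_add_coe y ⟨_, hl⟩
        have h2 := L.derivWeierstrassP_add_coe y ⟨_, hl⟩
        have h3 := s0.per y hy m n
        simp only at h1 h2 h3
        rw [u2 _ fun h => hy ((add_mem_cancel_right hl).1 h), u2 _ hy, h1, h2, h3]
        ring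
  have a0 : AnalyticAt ℂ u 0 := by
    obtain ⟨G, hG, h0, h1⟩ := Zeta3.pole hζ α
    have hb : AnalyticAt ℂ (fun y => G y + β * y) 0 := by fun_prop
    refine hb.congr ?_
    rw [eventually_nhdsWithin_iff] at h1
    filter_upwards [h1] with y hy
    by_cases h : y = 0
    · rw [h, u1 _ (zero_mem _), map_zero, h0, mul_zero, add_zero]
    · rw [u2 _ (hy h).1, ← (hy h).2]
      ring
  refine ⟨_, u, -α / 2, s0, ⟨fun y hy => ?_, fun y _ => ?_, fun y _ => per y⟩, fun y hy _ => ?_⟩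
  · by_cases h : y ∈ L.lattice
    · obtain ⟨m, n, rfl⟩ := PeriodPair.mem_lattice.1 h
      have h1 : AnalyticAt ℂ (fun z => u (z - (m * L.ω₁ + n * L.ω₂))) (m * L.ω₁ + n * L.ω₂) :=
        a0.comp_of_eq (analyticAt_id.sub analyticAt_const) (sub_self _)
      refine (h1.add (analyticAt_const (v := m * a₁ + n * a₂))).congr
        (Eventually.of_forall fun z => ?_)
      rw [Pi.add_apply, ← per, sub_add_cancel]
    · have h1 : AnalyticAt ℂ (fun y => α * ζ y + β * y +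
          α / 2 * (L.derivWeierstrassP y / L.weierstrassP y)) y :=
        (s0.an y h).add (analyticAt_const.mul ((L.analyticOnNhd_derivWeierstrassP y h).div
          (L.analyticOnNhd_weierstrassP y h) (hy.resolve_left h)))
      exact h1.congr (Filter.mem_of_superset (op.mem_nhds h) fun z hz => (u2 z hz).symm)
  · by_cases h : y ∈ L.lattice
    · rw [u1 _ (neg_mem h), u1 _ h, map_neg]
    · rw [u2 _ fun h' => h (neg_mem_iff.1 h'), u2 _ h, hζ.odd y h, L.weierstrassP_neg,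
        L.derivWeierstrassP_neg]
      ring
  · rw [u2 y hy]
    ring

end Vale.Agent.P290
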