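import Vale.Agent.P290K.KIso
import Vale.Agent.P290K.KFib
import Vale.Agent.P290K.KSym
import Vale.Agent.P290K.Zeta3
import Vale.Agent.P290G.EInv

/-! The Kummer surface of an extension is a twist. -/

open Set Filter Metric
open scoped Manifold ContDiff Topology

noncomputable section

namespace Vale.Agent.P290

variable {X : Type} [TopologicalSpace X] [ChartedSpace C2 X] [IsManifold 𝓘(ℂ, C2) ω X]
  {q : ℂ × ℂ → X} {e : ℂ × ℂ → ℂ × ℂ × ℂ → X}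
  {X' : Type} [TopologicalSpace X'] [ChartedSpace C2 X'] [IsManifold 𝓘(ℂ, C2) ω X']
  {q' : ℂ × ℂ → X'} {e' : ℂ × ℂ → ℂ × ℂ × ℂ → X'} {L₁ L₂ : PeriodPair} {a₁ a₂ : ℂ}

namespace KTw

theorem wpv_in {L : PeriodPair} {y : ℂ} (h : y ∈ L.lattice) : wpv L y = (0, 1) := if_pos h

theorem wpv_out {L : PeriodPair} {y : ℂ} (h : y ∉ L.lattice) :
    wpv L y = (1, L.weierstrassP y) := if_neg h

theorem half {L : PeriodPair} {y : ℂ} (h : 2 * y ∉ L.lattice) : y ∉ L.lattice := fun h1 =>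
  h (by rw [two_mul]; exact add_mem h1 h1)

theorem snd_mem {x : ℂ × ℂ} (h : x ∈ Adp L₁ L₂ a₁ a₂) :
    ContinuousLinearMap.snd ℂ ℂ ℂ x ∈ L₂.lattice := by
  obtain ⟨m, n, e, -⟩ := mem_adp.1 h
  exact PeriodPair.mem_lattice.2 ⟨m, n, e.symm⟩

theorem nt {x : ℂ × ℂ} (h : 2 * x.2 ∉ L₂.lattice) : x + x ∉ Adp L₁ L₂ a₁ a₂ := fun h1 =>
  h (by rw [two_mul]; exact snd_mem h1)

theorem snd_ne : ContinuousLinearMap.snd ℂ ℂ ℂ ≠ 0 := fun h => by
  simpa using congrArg (fun f : ℂ × ℂ →L[ℂ] ℂ => f (0, 1)) h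

theorem isOpen1 (L : PeriodPair) : IsOpen {y | y ∈ L.lattice ∨ L.weierstrassP y ≠ 0} := by
  refine isOpen_iff_mem_nhds.2 fun y hy => ?_
  by_cases h : y ∈ L.lattice
  · have h1 := eventually_nhdsWithin_iff.1 ((wp_tendsto L h).eventually_gt_atTop 0)
    filter_upwards [h1] with z hz
    by_cases e : z = y
    · exact Or.inl (e ▸ h)
    · exact Or.inr (norm_pos_iff.1 (hz e))
  · filter_upwards [(L.analyticOnNhd_weierstrassP y h).continuousAt.eventually_ne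
      (hy.resolve_left h)] with z hz using Or.inr hz

theorem dense (L : PeriodPair) : Dense {x : ℂ × ℂ | 2 * x.2 ∉ L.lattice} := by
  have h : {y : ℂ | 2 * y ∈ L.lattice}.Countable :=
    (lattice_countable L).preimage_of_injOn (mul_right_injective₀ two_ne_zero).injOn
  have h1 := (dense_univ (X := ℂ)).prod (h.dense_compl ℂ)
  exact h1.mono fun x hx => hx.2

omit [IsManifold 𝓘(ℂ, C2) ω X] in
theorem rep {π : X → P1} (hπ : IsFib (Adp L₁ L₂ a₁ a₂) q e L₂ (ContinuousLinearMap.snd ℂ ℂ ℂ) π)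
    {x : ℂ × ℂ} (h : 2 * x.2 ∉ L₂.lattice) : Rep (1, L₂.weierstrassP x.2) (π (q x)) := by
  rw [← wpv_out (half h)]
  exact hπ.rq x (nt h)

theorem ham (h : Kum (Adp L₁ L₂ a₁ a₂) q e) {π : X → P1}
    (hπ : IsFib (Adp L₁ L₂ a₁ a₂) q e L₂ (ContinuousLinearMap.snd ℂ ℂ ℂ) π) {σ : Form2 X}
    (hσ : ∀ x, x + x ∉ Adp L₁ L₂ a₁ a₂ → ∀ u v : ℂ × ℂ,
      sg σ (q x) (dif q x u) (dif q x v) = u.1 * v.2 - u.2 * v.1) (c : ℂ) {y : ℂ}
    (hy : 2 * y ∉ L₂.lattice) :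
    HamCurve σ (fun y => aff (π y)) fun s => q (c + s * L₂.derivWeierstrassP y, y) := by
  have ha : ∀ s : ℂ, AnalyticAt ℂ (fun s : ℂ => ((c + s * L₂.derivWeierstrassP y, y) : ℂ × ℂ)) s :=
    fun s => by fun_prop
  have hn : ∀ x : ℂ, ((x, y) : ℂ × ℂ) + (x, y) ∉ Adp L₁ L₂ a₁ a₂ := fun x => nt hy
  refine ⟨fun s => (Hol.comp (f := q) (g := fun s : ℂ => (c + s * L₂.derivWeierstrassP y, y))
    (h.qhol _ (hn _)).1 (ha s)).mdiff, fun s v => ?_⟩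
  obtain ⟨x, hx⟩ : ∃ x, x = c + s * L₂.derivWeierstrassP y := ⟨_, rfl⟩
  have hq := (h.qhol _ (hn x)).1
  have d1 : HasDerivAt (fun s : ℂ => ((c + s * L₂.derivWeierstrassP y, y) : ℂ × ℂ))
      (L₂.derivWeierstrassP y, 0) s := by
    simpa using (((hasDerivAt_id s).mul_const (L₂.derivWeierstrassP y)).const_add c).prodMk
      (hasDerivAt_const s y)
  have e1 : dif (fun s : ℂ => q (c + s * L₂.derivWeierstrassP y, y)) s 1 =
      dif q (x, y) (L₂.derivWeierstrassP y, 0) := by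
    rw [dif_comp (f := q) (g := fun s : ℂ => (c + s * L₂.derivWeierstrassP y, y))
      (h.qhol _ (hn _)).1 (ha s), fderiv_apply_one_eq_deriv, d1.deriv, hx]
  have h2 := (Spr.ne_iff (ContinuousLinearMap.fst ℂ ℂ ℂ) (rep hπ (x := (x, y)) hy)).2 one_ne_zero
  have h3 : HolF (fun y => aff (π y)) (q (x, y)) :=
    Spr.holF_y hπ.hol (ContinuousLinearMap.fst ℂ ℂ ℂ) (ContinuousLinearMap.snd ℂ ℂ ℂ) h2
  have h4 : (fun w : ℂ × ℂ => aff (π (q w))) =ᶠ[𝓝 (x, y)] fun w => L₂.weierstrassP w.2 := by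
    have c1 : ContinuousAt (fun w : ℂ × ℂ => 2 * w.2) (x, y) := by fun_prop
    filter_upwards [c1.eventually_mem (L₂.isClosed_lattice.isOpen_compl.mem_nhds hy)] with w hw
    rw [(rep hπ hw).aff_eq, div_one]
  have d2 : HasDerivAt L₂.weierstrassP (L₂.derivWeierstrassP y) y := by
    rw [← L₂.deriv_weierstrassP]
    exact (L₂.analyticOnNhd_weierstrassP y (half hy)).differentiableAt.hasDerivAt
  have d3 : HasFDerivAt (fun w : ℂ × ℂ => L₂.weierstrassP w.2)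
      (L₂.derivWeierstrassP y • ContinuousLinearMap.snd ℂ ℂ ℂ) (x, y) :=
    HasDerivAt.comp_hasFDerivAt (f := (Prod.snd : ℂ × ℂ → ℂ)) (x, y) d2 hasFDerivAt_snd
  obtain ⟨w, hw⟩ := h.qsurj (hn x) v
  have e2 := dfn_comp h3 hq w
  rw [h4.fderiv_eq, d3.fderiv, hw] at e2
  have e3 := hσ _ (hn x) (L₂.derivWeierstrassP y, 0) w
  rw [hw, ← e1] at e3
  subst hx
  refine Eq.trans e3 (Eq.trans ?_ e2)
  simp

end KTw

theorem Kum.twist [T2Space X'] [CompactSpace X'] (h : Kum (Adp L₁ L₂ a₁ a₂) q e)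
    (h' : Kum (Adp L₁ L₂ 0 0) q' e') : Twist X X' := by
  obtain ⟨u₀, u₁, t, s0, s1, hu⟩ := exists_shear L₂ a₁ a₂
  obtain ⟨π, hπ⟩ := h.fib isDisc_adp (fun l hl => KTw.snd_mem hl) KTw.snd_ne
  obtain ⟨π', hπ'⟩ := h'.fib isDisc_adp (fun l hl => KTw.snd_mem hl) KTw.snd_ne
  obtain ⟨σ', hσ, hs⟩ := h'.sympl isDisc_adp
  obtain ⟨S', hS⟩ := exists_spray hσ hπ'.hol
  obtain ⟨b₀, a0⟩ := exists_pt (p := (0, 1)) (by simp)
  obtain ⟨b₁, a1⟩ := exists_pt (p := (1, 0)) (by simp)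
  obtain ⟨φ₀, ψ₀, i0, e0⟩ := h.isoOff h' hπ hπ' s0 L₂.isClosed_lattice.isOpen_compl (a := b₀)
    fun y => ⟨fun hy hr => by
      rw [KTw.wpv_out hy] at hr
      simpa using (hr.eq_iff a0).1 rfl, fun hr hy => hr (by rwa [KTw.wpv_in hy])⟩
  obtain ⟨φ₁, ψ₁, i1, e1⟩ := h.isoOff h' hπ hπ' s1 (KTw.isOpen1 L₂) (a := b₁) fun y => by
    by_cases hy : y ∈ L₂.lattice
    · rw [KTw.wpv_in hy]
      exact ⟨fun _ hr => by simpa using (hr.eq_iff a1).1 rfl, fun _ => Or.inl hy⟩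
    · rw [KTw.wpv_out hy]
      exact ⟨fun h1 hr => h1.resolve_left hy (by simpa using ((hr.eq_iff a1).1 rfl).symm),
        fun hr => Or.inr fun h0 => hr (by rwa [h0])⟩
  refine ⟨σ', π, π', b₀, b₁, φ₀, φ₁, ψ₀, ψ₁, t, hσ, hπ.hol, hπ'.hol, a0, a1, i0, i1,
    fun x x0 x1 => ?_⟩
  have p0 : Coord fun z => (1, z) := Or.inl rfl
  have hz : Rep (1, aff (π x)) (π x) :=
    (rep_rep _).one_aff fun h1 => x0 (((rep_rep _).eq_iff a0).2 (by simp [h1]))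
  obtain ⟨b, hb⟩ := p0.exists_fun hπ.hol
  obtain ⟨b1, b2, b3⟩ := hb x _ hz
  have hz0 : b x ≠ 0 := fun e => x1 (hz.inj (by rw [← b1, e]; exact a1))
  have r : ∀ y, Rep (1, b y) (π y) → Rep (1, b y) (π' (φ₀ y)) := fun y hy => by
    rw [i0.ov y fun e => by simpa using (hy.eq_iff a0).1 e]
    exact hy
  have rx := r x b3.self_of_nhds
  refine ⟨fun τ => S' (φ₀ x, (1, b x), τ), spray_hamCurve hπ'.hol hS rx, hS.zero _ _ rx, ?_⟩
  rw [← b1]
  have cb : ContinuousAt b x := b2.continuousAt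
  have c1 : ContinuousAt (fun y => (φ₀ y, ((1 : ℂ), b y), t / b y)) x :=
    (i0.hol x x0).continuousAt.prodMk ((continuousAt_const.prodMk cb).prodMk
      (continuousAt_const.div cb hz0))
  have c2 : ContinuousAt (fun y => S' (φ₀ y, ((1 : ℂ), b y), t / b y)) x :=
    (hS.hol.cont _ rx).tendsto.comp
      (tendsto_nhdsWithin_iff.2 ⟨c1.tendsto, b3.mono fun y hy => r y hy⟩)
  refine tendsto_nhds_unique_of_frequently_eq c2.tendsto (i1.hol x x1).continuousAt.tendsto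
    (((mem_closure_iff_frequently.1 (h.dense isDisc_adp (KTw.dense L₂) x)).and_eventually
      (cb.eventually_ne hz0)).mono ?_)
  rintro _ ⟨⟨z, ⟨z1, z2⟩, rfl⟩, y2⟩
  have z3 := KTw.half z1
  have k1 : b (q z) = L₂.weierstrassP z.2 := (hb _ _ (KTw.rep hπ z1)).1
  rw [k1] at y2 ⊢
  have k2 := KTw.rep hπ' (x := (z.1 - u₀ z.2 + 0 * L₂.derivWeierstrassP z.2, z.2)) z1
  have k3 := hS.uniq _ (KTw.ham h' hπ' hs (z.1 - u₀ z.2) z1)
  simp only [k2.aff_eq, div_one] at k3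
  have k4 := k3 k2 (t / L₂.weierstrassP z.2)
  rw [zero_mul, add_zero, ← hu z.2 z3 y2] at k4
  rw [e0 z z3 z2, e1 z (Or.inr y2) z2, ← k4]
  congr 2
  ring

end Vale.Agent.P290
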