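import Vale.Agent.P290K.KMap
import Vale.Agent.P290D.Lim

/-! Uniqueness of the Kummer surface. -/

open Set Filter Metric
open scoped Manifold ContDiff Topology

noncomputable section

namespace Vale.Agent.P290

variable {X : Type} [MetricSpace X] [ChartedSpace C2 X] [IsManifold 𝓘(ℂ, C2) ω X]
  {Λ : Submodule ℤ (ℂ × ℂ)} {q : ℂ × ℂ → X} {e : ℂ × ℂ → ℂ × ℂ × ℂ → X}
  {X' : Type} [MetricSpace X'] [ChartedSpace C2 X'] [IsManifold 𝓘(ℂ, C2) ω X']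
  {Λ' : Submodule ℤ (ℂ × ℂ)} {q' : ℂ × ℂ → X'} {e' : ℂ × ℂ → ℂ × ℂ × ℂ → X'}

theorem oka_of_iso [CompactSpace X'] {φ : X → X'} {ψ : X' → X}
    (hφ : ∀ x, ContMDiffAt 𝓘(ℂ, C2) 𝓘(ℂ, C2) ω φ x)
    (hψ : ∀ y, ContMDiffAt 𝓘(ℂ, C2) 𝓘(ℂ, C2) ω ψ y) (hl : ∀ x, ψ (φ x) = x) (h : IsOka X') :
    IsOka X := by
  intro m K U f ε hne hK hc hU hKU hf hε
  have hψc : Continuous ψ := continuous_iff_continuousAt.2 fun y => (hψ y).continuousAt
  obtain ⟨δ, hδ, hd⟩ := Metric.uniformContinuous_iff.1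
    (CompactSpace.uniformContinuous_of_continuous hψc) ε hε
  obtain ⟨F, h1, h2⟩ := h m K U (fun z => φ (f z)) δ hne hK hc hU hKU
    (fun z hz => ((hφ (f z)).mdifferentiableAt Mfd.ne0).comp_mdifferentiableWithinAt z (hf z hz))
    hδ
  refine ⟨fun z => ψ (F z), fun z => ((hψ (F z)).mdifferentiableAt Mfd.ne0).comp z (h1 z),
    fun z hz => ?_⟩
  have h3 := hd (h2 z hz)
  rwa [hl] at h3

theorem KUni.equi {Λ Λ' : Submodule ℤ (ℂ × ℂ)} (g : (ℂ × ℂ) ≃L[ℂ] ℂ × ℂ)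
    (hg : ∀ x, g x ∈ Λ' ↔ x ∈ Λ) : Equi Λ Λ' univ g where
  op := isOpen_univ
  an := fun x _ => g.toContinuousLinearMap.analyticAt x
  add := fun _ _ l hl => ⟨trivial, g l, (hg l).2 hl, Eventually.of_forall fun y => map_add g y l⟩
  neg := fun x _ => ⟨trivial, map_neg g x⟩
  tor := fun x _ hx => (hg _).1 (by rwa [map_add])
  inj := fun x _ => by
    rw [g.fderiv]
    exact g.injective

theorem Kum.oka_of_lin [CompactSpace X'] (h : Kum Λ q e) (h' : Kum Λ' q' e') (hd : IsDisc Λ)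
    (hd' : IsDisc Λ') (g : (ℂ × ℂ) ≃L[ℂ] ℂ × ℂ) (hg : ∀ x, g x ∈ Λ' ↔ x ∈ Λ) (ho : IsOka X') :
    IsOka X := by
  have hg' : ∀ y, g.symm y ∈ Λ ↔ y ∈ Λ' := fun y => by rw [← hg, g.apply_symm_apply]
  obtain ⟨φ, a1, a2⟩ := h.map h' hd hd' (KUni.equi g hg)
  obtain ⟨ψ, b1, b2⟩ := h'.map h hd' hd (KUni.equi g.symm hg')
  refine oka_of_iso (φ := φ) (ψ := ψ) (fun x => ?_) (fun y => ?_) (fun x => ?_) ho
  · rcases h.cover x with ⟨y, hy, rfl⟩ | ⟨μ, α, hμ, hα, rfl⟩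
    · exact (a1 y trivial hy).2.2
    · exact (a2 μ trivial hμ α hα).2.2
  · rcases h'.cover y with ⟨x, hx, rfl⟩ | ⟨μ, α, hμ, hα, rfl⟩
    · exact (b1 x trivial hx).2.2
    · exact (b2 μ trivial hμ α hα).2.2
  · rcases h.cover x with ⟨y, hy, rfl⟩ | ⟨μ, α, hμ, hα, rfl⟩
    · obtain ⟨c1, c2, -⟩ := a1 y trivial hy
      rw [c2, (b1 _ trivial c1).2.1, g.symm_apply_apply]
    · obtain ⟨c1, c2, -⟩ := a2 μ trivial hμ α hα
      have e1 : fderiv ℂ g μ α = g α := by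
        rw [g.fderiv]
        rfl
      have e2 : fderiv ℂ g.symm (g μ) (g α) = α := by
        rw [g.symm.fderiv]
        exact g.symm_apply_apply α
      have e3 : g α ≠ 0 := fun h0 => hα (g.injective (h0.trans (map_zero g).symm))
      rw [c2, e1, (b2 _ trivial c1 _ e3).2.1, e2, g.symm_apply_apply]

end Vale.Agent.P290
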