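import Vale.Agent.P290K.KPen
import Vale.Agent.P290K.KTw
import Vale.Agent.P290K.KUni
import Vale.Agent.P290K.KFam
import Vale.Agent.P290K.Adapt
import Vale.Agent.P290K.Dens
import Vale.Agent.P290D.Baire

/-! Kummer surfaces: main results. -/

open Set Filter Metric
open scoped Manifold ContDiff Topology

noncomputable section

namespace Vale.Agent.P290

theorem exists_kum {t : Tk} (ht : LinearIndependent ℝ t) :
    ∃ (X : Type) (_ : MetricSpace X) (_ : CompactSpace X) (_ : ChartedSpace C2 X),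
      IsManifold 𝓘(ℂ, C2) ω X ∧ ∃ (q : ℂ × ℂ → X) (e : ℂ × ℂ → ℂ × ℂ × ℂ → X),
        Kum (Lat t) q e := by
  obtain ⟨Y, _, _, X, i1, i2, p, j, _, _, hF, h⟩ := exists_kfam
  exact ⟨X t, i1 t, (h t ht).1, i2 t, hF.mfd t ht, (h t ht).2⟩

theorem Kum.oka_ell {X : Type} [MetricSpace X] [ChartedSpace C2 X] [IsManifold 𝓘(ℂ, C2) ω X]
    {t : Tk} {q : ℂ × ℂ → X} {e : ℂ × ℂ → ℂ × ℂ × ℂ → X} (ht : LinearIndependent ℝ t)
    (he : HasEll (Lat t)) (h : Kum (Lat t) q e) : IsOka X := by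
  obtain ⟨L₁, L₂, a₁, a₂, g, hg⟩ := adapt ht he
  obtain ⟨X₁, _, _, _, _, q₁, e₁, h₁⟩ := exists_kum (adp_li (L₁ := L₁) (L₂ := L₂) (a₁ := a₁) (a₂ := a₂))
  obtain ⟨X₀, _, _, _, _, q₀, e₀, h₀⟩ := exists_kum (adp_li (L₁ := L₁) (L₂ := L₂) (a₁ := 0) (a₂ := 0))
  obtain ⟨σ, hσ, -⟩ := Kum.sympl h₀ isDisc_adp
  have o₀ : IsOka X₀ := oka_of_pencils hσ (Kum.pencils h₀)
  have o₁ : IsOka X₁ := (main.2.1 X₁ X₀ (Kum.twist h₁ h₀)).2 o₀
  exact h.oka_of_lin h₁ (isDisc_lat ht) isDisc_adp g hg o₁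

theorem kum_residual : ∀ᶠ t in residual Tk, LinearIndependent ℝ t →
    ∀ (X : Type) [MetricSpace X] [ChartedSpace C2 X] [IsManifold 𝓘(ℂ, C2) ω X]
      (q : ℂ × ℂ → X) (e : ℂ × ℂ → ℂ × ℂ × ℂ → X), Kum (Lat t) q e → IsOka X := by
  obtain ⟨Y, _, _, X, _, _, p, j, _, _, hF, h⟩ := exists_kfam
  have key := residual_oka hF isOpen_li (fun t ht => (h t ht).1)
    (dens_ell.trans (closure_mono fun t ht => by
      have := hF.mfd t ht.1
      obtain ⟨q, e, hk⟩ := (h t ht.1).2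
      exact ⟨ht.1, hk.oka_ell ht.1 ht.2⟩))
  filter_upwards [key] with t h1 ht X' _ _ _ q e hk
  have := hF.mfd t ht
  have := (h t ht).1
  obtain ⟨q', e', hk'⟩ := (h t ht).2
  exact hk.oka_of_lin hk' (isDisc_lat ht) (isDisc_lat ht) (ContinuousLinearEquiv.refl ℂ _)
    (fun _ => Iff.rfl) (h1 ht)

end Vale.Agent.P290
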