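import Vale.Agent.P290K.KLoc

/-! Maps between Kummer surfaces. -/

open Set Filter Metric
open scoped Manifold ContDiff Topology

noncomputable section

namespace Vale.Agent.P290

variable {X : Type} [TopologicalSpace X] [ChartedSpace C2 X] [IsManifold 𝓘(ℂ, C2) ω X]
  {Λ : Submodule ℤ (ℂ × ℂ)} {q : ℂ × ℂ → X} {e : ℂ × ℂ → ℂ × ℂ × ℂ → X}
  {X' : Type} [TopologicalSpace X'] [ChartedSpace C2 X'] [IsManifold 𝓘(ℂ, C2) ω X']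
  {Λ' : Submodule ℤ (ℂ × ℂ)} {q' : ℂ × ℂ → X'} {e' : ℂ × ℂ → ℂ × ℂ × ℂ → X'}

namespace KMap

variable {O : Set (ℂ × ℂ)} {Φ : ℂ × ℂ → ℂ × ℂ}

theorem sub (hΦ : Equi Λ Λ' O Φ) {x y : ℂ × ℂ} (hx : x ∈ O) (h : x - y ∈ Λ) :
    y ∈ O ∧ Φ x - Φ y ∈ Λ' ∧ fderiv ℂ Φ y = fderiv ℂ Φ x := by
  obtain ⟨h1, l, hl, h2⟩ := hΦ.add x hx _ (Λ.neg_mem h)
  have e : x + -(x - y) = y := by abel
  have h3 := h2.self_of_nhds
  rw [e] at h1 h3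
  refine ⟨h1, ?_, ?_⟩
  · rw [h3, sub_add_cancel_left]
    exact Λ'.neg_mem hl
  · have h4 := Filter.EventuallyEq.fderiv_eq (𝕜 := ℂ) h2
    rwa [fderiv_comp_add_right, fderiv_add_const, e] at h4

theorem rel (hΦ : Equi Λ Λ' O Φ) {x y : ℂ × ℂ} (hx : x ∈ O) (h : x - y ∈ Λ ∨ x + y ∈ Λ) :
    y ∈ O ∧ (Φ x - Φ y ∈ Λ' ∨ Φ x + Φ y ∈ Λ') := by
  rcases h with h | h
  · exact ⟨(sub hΦ hx h).1, Or.inl (sub hΦ hx h).2.1⟩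
  · obtain ⟨h1, h2⟩ := hΦ.neg x hx
    have h3 := sub hΦ h1 (y := y) (by
      rw [← neg_add']
      exact Λ.neg_mem h)
    refine ⟨h3.1, Or.inr ?_⟩
    have h4 := Λ'.neg_mem h3.2.1
    rwa [h2, ← neg_add', neg_neg] at h4

theorem tors (hΦ : Equi Λ Λ' O Φ) {μ : ℂ × ℂ} (hμ : μ ∈ O) (h : μ + μ ∈ Λ) :
    Φ μ + Φ μ ∈ Λ' ∧ ∀ᶠ v in 𝓝 (0 : ℂ × ℂ), Φ (μ + -v) - Φ μ = -(Φ (μ + v) - Φ μ) := by
  obtain ⟨-, l, hl, h2⟩ := hΦ.add _ (hΦ.neg μ hμ).1 _ h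
  have c1 : Tendsto (fun v : ℂ × ℂ => -μ + v) (𝓝 0) (𝓝 (-μ)) :=
    Continuous.tendsto' (by fun_prop) _ _ (add_zero _)
  have c2 : Tendsto (fun v : ℂ × ℂ => μ + -v) (𝓝 0) (𝓝 μ) :=
    Continuous.tendsto' (by fun_prop) _ _ (by simp)
  have h3 : ∀ᶠ v in 𝓝 (0 : ℂ × ℂ), Φ (μ + v) + Φ (μ + -v) = l := by
    filter_upwards [c1.eventually h2, c2.eventually (hΦ.op.mem_nhds hμ)] with v a1 a2
    have e1 : -μ + v + (μ + μ) = μ + v := by abel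
    have e2 : -μ + v = -(μ + -v) := by abel
    rw [e1, e2, (hΦ.neg _ a2).2] at a1
    rw [a1]
    abel
  have h4 := h3.self_of_nhds
  rw [neg_zero, add_zero] at h4
  refine ⟨h4 ▸ hl, h3.mono fun v hv => ?_⟩
  rw [eq_sub_of_add_eq' hv, ← h4]
  abel

theorem par {α β : ℂ × ℂ} (hα : α ≠ 0) (h : α.1 * β.2 = α.2 * β.1) : ∃ c : ℂ, β = c • α := by
  by_cases h1 : α.1 = 0
  · have h2 : α.2 ≠ 0 := fun h2 => hα (Prod.ext h1 h2)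
    rw [h1, zero_mul] at h
    refine ⟨β.2 / α.2, Prod.ext ?_ ?_⟩
    · rw [Prod.smul_fst, h1, smul_zero]
      exact (mul_eq_zero.1 h.symm).resolve_left h2
    · rw [Prod.smul_snd, smul_eq_mul, div_mul_cancel₀ _ h2]
  · refine ⟨β.1 / α.1, Prod.ext ?_ ?_⟩
    · rw [Prod.smul_fst, smul_eq_mul, div_mul_cancel₀ _ h1]
    · rw [Prod.smul_snd, smul_eq_mul]
      field_simp
      linear_combination h

theorem ne (hΦ : Equi Λ Λ' O Φ) {μ α : ℂ × ℂ} (hμ : μ ∈ O) (hα : α ≠ 0) :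
    fderiv ℂ Φ μ α ≠ 0 := fun h => hα (hΦ.inj μ hμ (h.trans (map_zero _).symm))

theorem lift (hΦ : Equi Λ Λ' O Φ) {μ : ℂ × ℂ} (hμ : μ ∈ O) (h : μ + μ ∈ Λ) (α : ℂ × ℂ) :
    ∃ G : ℂ × ℂ × ℂ → ℂ × ℂ, AnalyticAt ℂ G (0, α) ∧
      (∀ᶠ v : ℂ × ℂ × ℂ in 𝓝 (0, α), Φ (μ + v.1 • v.2) = Φ μ + v.1 • G (v.1 ^ 2, v.2)) ∧
      ∀ᶠ y in 𝓝 α, G (0, y) = fderiv ℂ Φ μ y := by
  have a1 : ∀ v : ℂ × ℂ × ℂ, AnalyticAt ℂ (fun v : ℂ × ℂ × ℂ => μ + v.1 • v.2) v := fun v =>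
    analyticAt_const.add (analyticAt_fst.smul analyticAt_snd)
  have a2 : AnalyticAt ℂ (fun v : ℂ × ℂ × ℂ => Φ (μ + v.1 • v.2) - Φ μ) (0, α) :=
    (AnalyticAt.comp_of_eq (hΦ.an μ hμ) (a1 _) (by simp)).sub analyticAt_const
  have c1 : Tendsto (fun v : ℂ × ℂ × ℂ => v.1 • v.2) (𝓝 (0, α)) (𝓝 0) :=
    Continuous.tendsto' (by fun_prop) _ _ (by simp)
  obtain ⟨G, h1, h2, h3⟩ := odd_sq a2 (by
    filter_upwards [c1.eventually (tors hΦ hμ h).2] with v hv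
    rwa [neg_smul])
  refine ⟨G, h1, h2.mono fun v hv => by rw [← hv, add_sub_cancel], h3.mono fun y hy => ?_⟩
  have d1 := ((hasFDerivAt_fst (𝕜 := ℂ) (p := ((0 : ℂ), y))).fun_smul
    (hasFDerivAt_snd (𝕜 := ℂ) (p := ((0 : ℂ), y)))).const_add μ
  have d2 : HasFDerivAt Φ (fderiv ℂ Φ μ) (μ + (0 : ℂ) • y) := by
    rw [zero_smul, add_zero]
    exact (hΦ.an μ hμ).differentiableAt.hasFDerivAt
  have d3 := (HasFDerivAt.comp (f := fun v : ℂ × ℂ × ℂ => μ + v.1 • v.2) ((0 : ℂ), y) d2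
    d1).sub_const (Φ μ)
  rw [hy]
  refine (DFunLike.congr_fun d3.fderiv _).trans ?_
  simp

end KMap

theorem Kum.map (h : Kum Λ q e) (h' : Kum Λ' q' e') (hd : IsDisc Λ) (hd' : IsDisc Λ')
    {O : Set (ℂ × ℂ)} {Φ : ℂ × ℂ → ℂ × ℂ} (hΦ : Equi Λ Λ' O Φ) : ∃ φ : X → X',
      (∀ x ∈ O, x + x ∉ Λ → Φ x + Φ x ∉ Λ' ∧ φ (q x) = q' (Φ x) ∧
        ContMDiffAt 𝓘(ℂ, C2) 𝓘(ℂ, C2) ω φ (q x)) ∧
      ∀ μ ∈ O, μ + μ ∈ Λ → ∀ α, α ≠ 0 → Φ μ + Φ μ ∈ Λ' ∧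
        φ (e μ (0, α)) = e' (Φ μ) (0, fderiv ℂ Φ μ α) ∧
        ContMDiffAt 𝓘(ℂ, C2) 𝓘(ℂ, C2) ω φ (e μ (0, α)) := by
  classical
  obtain ⟨φ, p1, p2⟩ := h.desc (fun x => if x ∈ O then q' (Φ x) else q' 0)
    (fun μ α => if μ ∈ O then e' (Φ μ) (0, fderiv ℂ Φ μ α) else q' 0)
    (fun x y hx hy hr => by
      by_cases h1 : x ∈ O
      · obtain ⟨h2, h3⟩ := KMap.rel hΦ h1 hr
        rw [if_pos h1, if_pos h2]
        exact (h'.qeq _ _ (mt (hΦ.tor x h1) hx) (mt (hΦ.tor y h2) hy)).2 h3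
      · have h2 : y ∉ O := fun h2 => h1 (KMap.rel hΦ h2 (hr.imp
          (fun a => by simpa using Λ.neg_mem a) fun a => by rwa [add_comm])).1
        rw [if_neg h1, if_neg h2])
    (fun μ μ' α α' hμ hμ' hα hα' hr hp => by
      by_cases h1 : μ ∈ O
      · obtain ⟨h2, h3, h4⟩ := KMap.sub hΦ h1 hr
        obtain ⟨c, rfl⟩ := KMap.par hα hp
        rw [if_pos h1, if_pos h2]
        refine (h'.eeq _ _ _ _ (KMap.tors hΦ h1 hμ).1 (KMap.tors hΦ h2 hμ').1 (KMap.ne hΦ h1 hα)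
          (KMap.ne hΦ h2 hα')).2 ⟨h3, ?_⟩
        rw [h4, map_smul, Prod.smul_fst, Prod.smul_snd, smul_eq_mul, smul_eq_mul]
        ring
      · have h2 : μ' ∉ O := fun h2 => h1 (KMap.sub hΦ h2 (by simpa using Λ.neg_mem hr)).1
        rw [if_neg h1, if_neg h2])
  have p3 : ∀ x ∈ O, x + x ∉ Λ → φ (q x) = q' (Φ x) := fun x hx h1 => by
    rw [p1 x h1, if_pos hx]
  have p4 : ∀ μ ∈ O, μ + μ ∈ Λ → ∀ α, α ≠ 0 →
      φ (e μ (0, α)) = e' (Φ μ) (0, fderiv ℂ Φ μ α) := fun μ hμ h1 α hα => by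
    rw [p2 μ α h1 hα, if_pos hμ]
  refine ⟨φ, fun x hx h1 => ?_, fun μ hμ h1 α hα => ?_⟩
  · have h2 := mt (hΦ.tor x hx) h1
    refine ⟨h2, p3 x hx h1, hol_of_comp (h.qhol x h1).1 (h.qsurj h1)
      (((h'.qhol _ h2).1.comp (hΦ.an x hx)).congr ?_)⟩
    filter_upwards [hΦ.op.mem_nhds hx, hd.ev_nt h1] with w a1 a2
    exact p3 w a1 a2
  · have h2 := (KMap.tors hΦ hμ h1).1
    obtain ⟨G, g1, g2, g3⟩ := KMap.lift hΦ hμ h1 α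
    obtain ⟨b1, b2, b3⟩ := h.ehol μ α h1 hα
    obtain ⟨b4, -, b5⟩ := h'.ehol _ _ h2 (KMap.ne hΦ hμ hα)
    rw [← g3.self_of_nhds] at b4 b5
    refine ⟨h2, p4 μ hμ h1 α hα, hol_of_comp b1 b2
      ((Hol.comp (g := fun v : ℂ × ℂ × ℂ => (v.1, G v)) b4 (analyticAt_fst.prod g1)).congr ?_)⟩
    refine ev_sq (R := fun v => φ (e μ v) = e' (Φ μ) (v.1, G v)) ?_ ?_
    · filter_upwards [g3, isOpen_ne.mem_nhds hα] with y a1 a2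
      rw [p4 μ hμ h1 y a2, a1]
    · have c1 : Tendsto (fun v : ℂ × ℂ × ℂ => μ + v.1 • v.2) (𝓝 (0, α)) (𝓝 μ) :=
        Continuous.tendsto' (by fun_prop) _ _ (by simp)
      have c2 : Tendsto (fun v : ℂ × ℂ × ℂ => (v.1 ^ 2, v.2)) (𝓝 (0, α)) (𝓝 (0, α)) :=
        Continuous.tendsto' (by fun_prop) _ _ (by simp)
      have c3 : Tendsto (fun v : ℂ × ℂ × ℂ => (v.1, G (v.1 ^ 2, v.2))) (𝓝 (0, α))
          (𝓝 (0, G (0, α))) :=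
        (continuous_fst.tendsto _).prodMk_nhds (g1.continuousAt.tendsto.comp c2)
      filter_upwards [b3, g2, hd.ev_tors h1 hα, c1.eventually (hΦ.op.mem_nhds hμ),
        c3.eventually b5] with v a1 a2 a3 a4 a5 hv
      rw [a1 hv, p3 _ a4 (a3 hv), a2]
      exact (a5 hv).symm

end Vale.Agent.P290
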