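import Vale.Agent.P290K.KLoc

/-! Pencils on Kummer surfaces. -/

open Set Filter Metric
open scoped Manifold ContDiff Topology

noncomputable section

namespace Vale.Agent.P290

variable {X : Type} [TopologicalSpace X] [ChartedSpace C2 X] [IsManifold 𝓘(ℂ, C2) ω X]
  {Λ : Submodule ℤ (ℂ × ℂ)} {q : ℂ × ℂ → X} {e : ℂ × ℂ → ℂ × ℂ × ℂ → X}

namespace KPcl

theorem rp {α : ℂ × ℂ} (h : α ≠ 0) : Rep α (pt α) := ⟨h, by rw [pt, dif_neg h]⟩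

theorem par {α β : ℂ × ℂ} (hα : α ≠ 0) (hβ : β ≠ 0) (h : α.1 * β.2 = α.2 * β.1) :
    ∃ c : ℂ, c ≠ 0 ∧ β = c • α := by
  have h1 := rp hβ
  rw [← ((rp hα).eq_iff (rp hβ)).2 h] at h1
  exact (rp hα).ratio h1

variable {V : ℂ × ℂ → ℂ × ℂ}

theorem indep (hd : IsDisc Λ)
    (h1 : ∀ x y, x + x ∉ Λ → x - y ∈ Λ ∨ x + y ∈ Λ → (V x).1 * (V y).2 = (V x).2 * (V y).1)
    {μ μ' α α' : ℂ × ℂ} {P P' : ℂ × ℂ × ℂ → ℂ × ℂ} (hμ : μ + μ ∈ Λ) (hα : α ≠ 0) (hα' : α' ≠ 0)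
    (hr : μ - μ' ∈ Λ) (hp : α.1 * α'.2 = α.2 * α'.1) (hP : ELift V μ α P)
    (hP' : ELift V μ' α' P') : pt (P (0, α)) = pt (P' (0, α')) := by
  obtain ⟨c, hc, rfl⟩ := par hα hα' hp
  refine ((rp hP.2.1).eq_iff (rp hP'.2.1)).2 ?_
  have t1 : Tendsto (fun w : ℂ => ((w, α) : ℂ × ℂ × ℂ)) (𝓝[≠] 0) (𝓝 (0, α)) :=
    ((Continuous.prodMk_left α).tendsto 0).mono_left nhdsWithin_le_nhds
  have t2 : Tendsto (fun w : ℂ => ((w ^ 2, α) : ℂ × ℂ × ℂ)) (𝓝[≠] 0) (𝓝 (0, α)) :=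
    (Continuous.tendsto' (by fun_prop) 0 _ (by simp)).mono_left nhdsWithin_le_nhds
  have t3 : Tendsto (fun w : ℂ => ((w / c, c • α) : ℂ × ℂ × ℂ)) (𝓝[≠] 0) (𝓝 (0, c • α)) :=
    (Continuous.tendsto' (by fun_prop) 0 _ (by simp)).mono_left nhdsWithin_le_nhds
  have t4 : Tendsto (fun w : ℂ => (((w / c) ^ 2, c • α) : ℂ × ℂ × ℂ)) (𝓝[≠] 0)
      (𝓝 (0, c • α)) :=
    (Continuous.tendsto' (by fun_prop) 0 _ (by simp)).mono_left nhdsWithin_le_nhds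
  have u1 := hP.1.continuousAt.tendsto.comp t2
  have u2 := hP'.1.continuousAt.tendsto.comp t4
  refine tendsto_nhds_unique_of_eventuallyEq (u1.fst_nhds.mul u2.snd_nhds)
    (u1.snd_nhds.mul u2.fst_nhds) ?_
  filter_upwards [t1.eventually hP.2.2, t3.eventually hP'.2.2, t1.eventually (hd.ev_tors hμ hα),
    self_mem_nhdsWithin] with w a1 a2 a3 hw
  obtain ⟨b, -, e1⟩ := a1 hw
  obtain ⟨b', -, e2⟩ := a2 (div_ne_zero hw hc)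
  have e3 : (w / c) • c • α = w • α := by rw [smul_smul, div_mul_cancel₀ _ hc]
  have e4 := h1 (μ + w • α) (μ' + w • α) (a3 hw) (Or.inl (by rwa [add_sub_add_right_eq_sub]))
  simp only [e3] at e1 e2
  simp only [Function.comp_apply, e1, e2, Prod.smul_fst, Prod.smul_snd, smul_eq_mul]
  linear_combination b * b' * e4

theorem near {μ α : ℂ × ℂ} {P : ℂ × ℂ × ℂ → ℂ × ℂ} (hP : ELift V μ α P) :
    ∀ᶠ β in 𝓝 α, ELift V μ β P := by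
  have t : Tendsto (fun β : ℂ × ℂ => (((0 : ℂ), β) : ℂ × ℂ × ℂ)) (𝓝 α) (𝓝 (0, α)) :=
    (Continuous.prodMk_right (0 : ℂ)).tendsto α
  filter_upwards [t.eventually hP.1.eventually_analyticAt,
    t.eventually (hP.1.continuousAt.eventually_ne hP.2.1),
    t.eventually hP.2.2.eventually_nhds] with β a1 a2 a3
  exact ⟨a1, a2, a3⟩

end KPcl

theorem Kum.pencil (h : Kum Λ q e) (hd : IsDisc Λ) {V : ℂ × ℂ → ℂ × ℂ}
    (h0 : ∀ x, x + x ∉ Λ → V x ≠ 0)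
    (h1 : ∀ x y, x + x ∉ Λ → x - y ∈ Λ ∨ x + y ∈ Λ → (V x).1 * (V y).2 = (V x).2 * (V y).1)
    (h2 : ∀ x, x + x ∉ Λ → ∃ P : ℂ × ℂ → ℂ × ℂ, AnalyticAt ℂ P x ∧
      ∀ᶠ y in 𝓝 x, ∃ c : ℂ, c ≠ 0 ∧ P y = c • V y)
    (h3 : ∀ μ α, μ + μ ∈ Λ → α ≠ 0 → ∃ P, ELift V μ α P) :
    ∃ π : X → P1, HolP π ∧ (∀ x, x + x ∉ Λ → Rep (V x) (π (q x))) ∧
      ∀ μ α P, μ + μ ∈ Λ → α ≠ 0 → ELift V μ α P →
        ∀ᶠ v in 𝓝 (((0 : ℂ), α)), Rep (P v) (π (e μ v)) := by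
  have h4 : ∀ μ α, ∃ P, μ + μ ∈ Λ → α ≠ 0 → ELift V μ α P := fun μ α => by
    by_cases k : μ + μ ∈ Λ ∧ α ≠ 0
    · obtain ⟨P, hP⟩ := h3 μ α k.1 k.2
      exact ⟨P, fun _ _ => hP⟩
    · exact ⟨fun _ => 0, fun a b => absurd ⟨a, b⟩ k⟩
  choose Q hQ using h4
  obtain ⟨π, p1, p2⟩ := h.desc (fun x => pt (V x)) (fun μ α => pt (Q μ α (0, α)))
    (fun x y hx hy hr => ((KPcl.rp (h0 x hx)).eq_iff (KPcl.rp (h0 y hy))).2 (h1 x y hx hr))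
    (fun μ μ' α α' hμ hμ' hα hα' hr hp =>
      KPcl.indep hd h1 hμ hα hα' hr hp (hQ μ α hμ hα) (hQ μ' α' hμ' hα'))
  have r0 : ∀ x, x + x ∉ Λ → Rep (V x) (π (q x)) := fun x hx => by
    rw [p1 x hx]
    exact KPcl.rp (h0 x hx)
  have r1 : ∀ μ α P, μ + μ ∈ Λ → α ≠ 0 → ELift V μ α P → Rep (P (0, α)) (π (e μ (0, α))) :=
    fun μ α P hμ hα hP => by
      rw [p2 μ α hμ hα, KPcl.indep hd h1 hμ hα hα (by simp) (mul_comm _ _) (hQ μ α hμ hα) hP]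
      exact KPcl.rp hP.2.1
  have r2 : ∀ μ α P, μ + μ ∈ Λ → α ≠ 0 → ELift V μ α P →
      ∀ᶠ v in 𝓝 (((0 : ℂ), α)), Rep (P v) (π (e μ v)) := fun μ α P hμ hα hP => by
    refine ev_sq (R := fun v => Rep (P v) (π (e μ v))) ?_ ?_
    · filter_upwards [KPcl.near hP, isOpen_ne.mem_nhds hα] with β a1 a2
      exact r1 μ β P hμ a2 a1
    · filter_upwards [(h.ehol μ α hμ hα).2.2, hP.2.2, hd.ev_tors hμ hα] with v a1 a2 a3 hv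
      obtain ⟨c, hc, e1⟩ := a2 hv
      rw [a1 hv, e1]
      exact (r0 _ (a3 hv)).smul hc
  refine ⟨π, fun y => ?_, r0, r2⟩
  rcases h.cover y with ⟨x, hx, rfl⟩ | ⟨μ, α, hμ, hα, rfl⟩
  · obtain ⟨P, k1, k2⟩ := h2 x hx
    refine lift_of_comp (h.qhol x hx).1 (h.qsurj hx) ⟨P, k1, ?_⟩
    filter_upwards [k2, hd.ev_nt hx] with y a1 a2
    obtain ⟨c, hc, e1⟩ := a1
    rw [e1]
    exact (r0 y a2).smul hc
  · obtain ⟨b1, b2, -⟩ := h.ehol μ α hμ hα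
    exact lift_of_comp b1 b2 ⟨Q μ α, (hQ μ α hμ hα).1, r2 μ α _ hμ hα (hQ μ α hμ hα)⟩

end Vale.Agent.P290
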