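import Vale.Agent.P290K.KPen1
import Vale.Agent.P290K.KFib

/-! The Kummer surface of a product has enough pencils. -/

open Set Filter Metric
open scoped Manifold ContDiff Topology

noncomputable section

namespace Vale.Agent.P290

variable {X : Type} [TopologicalSpace X] [ChartedSpace C2 X] [IsManifold 𝓘(ℂ, C2) ω X]
  {q : ℂ × ℂ → X} {e : ℂ × ℂ → ℂ × ℂ × ℂ → X}
  {X' : Type} [TopologicalSpace X'] [ChartedSpace C2 X'] [IsManifold 𝓘(ℂ, C2) ω X']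
  {q' : ℂ × ℂ → X'} {e' : ℂ × ℂ → ℂ × ℂ × ℂ → X'} {L₁ L₂ : PeriodPair} {a₁ a₂ : ℂ}

theorem KPen.line (x d : ℂ × ℂ) : Tendsto (fun s : ℂ => x + s • d) (𝓝 0) (𝓝 x) := by
  have h : Continuous fun s : ℂ => x + s • d := by fun_prop
  simpa using h.tendsto 0

theorem KPen.reg {Λ : Submodule ℤ (ℂ × ℂ)} (h : Kum Λ q e) (hd : IsDisc Λ)
    {ℓ ℓ' : ℂ × ℂ →L[ℂ] ℂ} {π π' : X → P1} (f : IsFib Λ q e L₁ ℓ π) (f' : IsFib Λ q e L₂ ℓ' π')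
    {x d : ℂ × ℂ} (hx : x + x ∉ Λ) (h0 : ℓ d = 0) (h1 : ℓ' d = 1) :
    ∃ᶠ y in 𝓝 (q x), π y = π (q x) ∧ π' y ≠ π' (q x) := by
  refine ((h.qhol x hx).1.cont.tendsto.comp (KPen.line x d)).frequently ?_
  refine ((wpv_freq (L := L₂) (ℓ' x)).and_eventually
    ((KPen.line x d).eventually (hd.ev_nt hx))).mono fun s hs => ?_
  have r := f.rq _ hs.2
  have r' := f'.rq _ hs.2
  rw [map_add, map_smul, h0, smul_zero, add_zero] at r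
  rw [map_add, map_smul, h1, smul_eq_mul, mul_one] at r'
  exact ⟨r.inj (f.rq x hx), fun k => hs.1 ((r'.eq_iff (f'.rq x hx)).1 k)⟩

theorem KPen.exc {Λ : Submodule ℤ (ℂ × ℂ)} (h : Kum Λ q e) {ℓ : ℂ × ℂ →L[ℂ] ℂ} {π π' : X → P1}
    (f : IsFib Λ q e L₁ ℓ π) {μ α : ℂ × ℂ} (hμ : μ + μ ∈ Λ) (hα : α ≠ 0) {k₁ k₂ : ℂ}
    (h1 : k₁ ≠ 0) (h2 : k₂ ≠ 0)
    (hr : ∀ α : ℂ × ℂ, α ≠ 0 → Rep (k₁ * α.1, k₂ * α.2) (π' (e μ (0, α)))) :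
    ∃ᶠ y in 𝓝 (e μ (0, α)), π y = π (e μ (0, α)) ∧ π' y ≠ π' (e μ (0, α)) := by
  obtain ⟨d, hd⟩ : ∃ d : ℂ × ℂ, d.1 * α.2 - d.2 * α.1 ≠ 0 := by
    by_cases h0 : α.1 = 0
    · exact ⟨(1, 0), by simpa using fun k => hα (Prod.ext h0 k)⟩
    · exact ⟨(0, 1), by simpa using h0⟩
  have ht : Tendsto (fun s : ℂ => ((0 : ℂ), α + s • d)) (𝓝 0) (𝓝 (0, α)) :=
    tendsto_const_nhds.prodMk_nhds (KPen.line α d)
  refine ((h.ehol μ α hμ hα).1.cont.tendsto.comp ht).frequently ?_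
  have hs : ∃ᶠ s in 𝓝 (0 : ℂ), s ≠ 0 :=
    (eventually_mem_nhdsWithin (s := {(0 : ℂ)}ᶜ) (a := 0)).frequently.filter_mono
      nhdsWithin_le_nhds
  refine (hs.and_eventually ((KPen.line α d).eventually_ne hα)).mono fun s hs => ?_
  refine ⟨(f.re μ _ hμ hs.2).inj (f.re μ α hμ hα), fun k => ?_⟩
  have k' := ((hr _ hs.2).eq_iff (hr α hα)).1 k
  simp only [Prod.fst_add, Prod.snd_add, Prod.smul_fst, Prod.smul_snd, smul_eq_mul] at k'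
  exact mul_ne_zero (mul_ne_zero (mul_ne_zero h1 h2) hs.1) hd (by linear_combination k')

theorem Kum.pencils (h : Kum (Adp L₁ L₂ 0 0) q e) : TwoPencils X := by
  obtain ⟨π₁, f₁⟩ := h.fib isDisc_adp (L := L₁) (ℓ := ContinuousLinearMap.fst ℂ ℂ ℂ)
    (fun l hl => (mem_adp0.1 hl).1) fun k => one_ne_zero (DFunLike.congr_fun k (1, 0))
  obtain ⟨π₂, f₂⟩ := h.fib isDisc_adp (L := L₂) (ℓ := ContinuousLinearMap.snd ℂ ℂ ℂ)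
    (fun l hl => (mem_adp0.1 hl).2) fun k => one_ne_zero (DFunLike.congr_fun k (0, 1))
  intro y
  rcases h.cover y with ⟨x, hx, rfl⟩ | ⟨μ, α, hμ, hα, rfl⟩
  · by_cases h2 : 2 * x.2 ∈ L₂.lattice
    · have h1 : 2 * x.1 ∉ L₁.lattice := fun h1 =>
        hx (mem_adp0.2 ⟨by rwa [two_mul] at h1, by rwa [two_mul] at h2⟩)
      exact ⟨π₁, π₂, f₁.hol, f₂.hol, f₁.regq x hx h1,
        KPen.reg h isDisc_adp f₁ f₂ (d := (0, 1)) hx rfl rfl⟩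
    · exact ⟨π₂, π₁, f₂.hol, f₁.hol, f₂.regq x hx h2,
        KPen.reg h isDisc_adp f₂ f₁ (d := (1, 0)) hx rfl rfl⟩
  · obtain ⟨π, k₁, k₂, hπ, h1, h2, hr⟩ := h.pen3 hμ
    by_cases h0 : α.2 = 0
    · exact ⟨π₁, π, f₁.hol, hπ, f₁.rege μ α hμ fun k => hα (Prod.ext k h0),
        KPen.exc h f₁ hμ hα h1 h2 hr⟩
    · exact ⟨π₂, π, f₂.hol, hπ, f₂.rege μ α hμ h0, KPen.exc h f₂ hμ hα h1 h2 hr⟩

end Vale.Agent.P290
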