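import Vale.Agent.P290K.KPcl
import Vale.Agent.P290K.WpD

/-! A pencil that moves on an exceptional curve. -/

open Set Filter Metric
open scoped Manifold ContDiff Topology

noncomputable section

namespace Vale.Agent.P290

namespace KPen1

/-- The pencil in homogeneous coordinates. -/
def VV (d₁ d₂ : ℂ → ℂ × ℂ) (x : ℂ × ℂ) : ℂ × ℂ :=
  ((d₁ x.1).2 * (d₂ x.2).1, (d₂ x.2).2 * (d₁ x.1).1)

/-- Its lift near an exceptional curve. -/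
def PP (U₁ U₂ : ℂ → ℂ) (p₁ q₁ p₂ q₂ a b : ℕ) (v : ℂ × ℂ × ℂ) : ℂ × ℂ :=
  (v.1 ^ a * v.2.1 ^ q₁ * v.2.2 ^ p₂ * U₁ (v.1 * v.2.1 ^ 2),
    v.1 ^ b * v.2.2 ^ q₂ * v.2.1 ^ p₁ * U₂ (v.1 * v.2.2 ^ 2))

/-- The local shape of a map to the projective line. -/
def Shp (d : ℂ → ℂ × ℂ) (y : ℂ) (U : ℂ → ℂ) (p q : ℕ) : Prop :=
  AnalyticAt ℂ U 0 ∧ U 0 ≠ 0 ∧
    ∀ᶠ s in 𝓝 (0 : ℂ), ∃ c : ℂ, c ≠ 0 ∧ (s ^ p, s ^ q * U (s ^ 2)) = c • d (y + s)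

theorem elift {d₁ d₂ : ℂ → ℂ × ℂ} {μ α : ℂ × ℂ} {U₁ U₂ : ℂ → ℂ} {p₁ q₁ p₂ q₂ : ℕ} (k a b : ℕ)
    (h₁ : Shp d₁ μ.1 U₁ p₁ q₁) (h₂ : Shp d₂ μ.2 U₂ p₂ q₂) (ea : q₁ + p₂ = k + 2 * a)
    (eb : q₂ + p₁ = k + 2 * b) (hne : PP U₁ U₂ p₁ q₁ p₂ q₂ a b (0, α) ≠ 0) :
    ELift (VV d₁ d₂) μ α (PP U₁ U₂ p₁ q₁ p₂ q₂ a b) := by
  have f0 : AnalyticAt ℂ (fun v : ℂ × ℂ × ℂ => v.1) (0, α) := analyticAt_fst
  have f1 : AnalyticAt ℂ (fun v : ℂ × ℂ × ℂ => v.2.1) (0, α) :=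
    analyticAt_fst.comp analyticAt_snd
  have f2 : AnalyticAt ℂ (fun v : ℂ × ℂ × ℂ => v.2.2) (0, α) :=
    analyticAt_snd.comp analyticAt_snd
  refine ⟨?_, hne, ?_⟩
  · have u1 : AnalyticAt ℂ (fun v : ℂ × ℂ × ℂ => U₁ (v.1 * v.2.1 ^ 2)) (0, α) :=
      h₁.1.comp_of_eq (f0.mul (f1.pow 2)) (by simp)
    have u2 : AnalyticAt ℂ (fun v : ℂ × ℂ × ℂ => U₂ (v.1 * v.2.2 ^ 2)) (0, α) :=
      h₂.1.comp_of_eq (f0.mul (f2.pow 2)) (by simp)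
    exact ((((f0.pow a).mul (f1.pow q₁)).mul (f2.pow p₂)).mul u1).prod
      ((((f0.pow b).mul (f2.pow q₂)).mul (f1.pow p₁)).mul u2)
  · have t1 : Tendsto (fun v : ℂ × ℂ × ℂ => v.1 * v.2.1) (𝓝 (0, α)) (𝓝 0) := by
      have := (f0.fun_mul f1).continuousAt.tendsto
      simpa using this
    have t2 : Tendsto (fun v : ℂ × ℂ × ℂ => v.1 * v.2.2) (𝓝 (0, α)) (𝓝 0) := by
      have := (f0.fun_mul f2).continuousAt.tendsto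
      simpa using this
    filter_upwards [t1.eventually h₁.2.2, t2.eventually h₂.2.2] with v ⟨c₁, hc₁, e₁⟩ ⟨c₂, hc₂, e₂⟩ hv
    obtain ⟨e11, e12⟩ := Prod.ext_iff.1 e₁
    obtain ⟨e21, e22⟩ := Prod.ext_iff.1 e₂
    simp only [Prod.smul_fst, Prod.smul_snd, smul_eq_mul] at e11 e12 e21 e22
    have hk : v.1 ^ k ≠ 0 := pow_ne_zero k hv
    refine ⟨c₁ * c₂ / v.1 ^ k, div_ne_zero (mul_ne_zero hc₁ hc₂) hk, Prod.ext ?_ ?_⟩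
    · simp only [PP, VV, Prod.smul_fst, Prod.smul_snd, smul_eq_mul, Prod.fst_add, Prod.snd_add]
      rw [div_mul_eq_mul_div, eq_div_iff hk, mul_mul_mul_comm, ← e12, ← e21, ← mul_pow v.1 v.2.1 2,
        mul_pow v.1 v.2.1 q₁, mul_pow v.1 v.2.2 p₂]
      have : v.1 ^ q₁ * v.1 ^ p₂ = v.1 ^ k * (v.1 ^ 2) ^ a := by
        rw [← pow_add, ea, pow_add, pow_mul]
      linear_combination (-(v.2.1 ^ q₁ * v.2.2 ^ p₂ * U₁ ((v.1 * v.2.1) ^ 2))) * this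
    · simp only [PP, VV, Prod.smul_fst, Prod.smul_snd, smul_eq_mul, Prod.fst_add, Prod.snd_add]
      rw [div_mul_eq_mul_div, eq_div_iff hk, mul_comm c₁ c₂, mul_mul_mul_comm, ← e22, ← e11,
        ← mul_pow v.1 v.2.2 2, mul_pow v.1 v.2.2 q₂, mul_pow v.1 v.2.1 p₁]
      have : v.1 ^ q₂ * v.1 ^ p₁ = v.1 ^ k * (v.1 ^ 2) ^ b := by
        rw [← pow_add, eb, pow_add, pow_mul]
      linear_combination (-(v.2.2 ^ q₂ * v.2.1 ^ p₁ * U₂ ((v.1 * v.2.2) ^ 2))) * this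

variable {L : PeriodPair}

theorem shp_zero {c y : ℂ} (hc : 2 * c ∈ L.lattice) (hy : y + y ∈ L.lattice)
    (h : y + c ∉ L.lattice) : ∃ U, Shp (fun z => dpv L (z + c)) y U 0 1 := by
  have h2 : 2 * (y + c) ∈ L.lattice := by
    have := L.lattice.add_mem hy hc
    convert this using 1
    ring
  obtain ⟨U, h1, h3, h4⟩ := dpv_tors h2 h
  refine ⟨U, h1, h3, h4.mono fun s hs => ⟨1, one_ne_zero, ?_⟩⟩
  simp only [one_smul, pow_zero, pow_one]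
  rw [add_right_comm, hs]

theorem shp_pole {c y : ℂ} (h : y + c ∈ L.lattice) :
    ∃ U, Shp (fun z => dpv L (z + c)) y U 3 0 := by
  obtain ⟨U, h1, h3, h4⟩ := dpv_pole h
  refine ⟨U, h1, h3, h4.mono fun s ⟨k, hk, hs⟩ => ⟨k, hk, ?_⟩⟩
  simp only [pow_zero, one_mul]
  rw [add_right_comm, hs]

theorem loc (L : PeriodPair) (c y : ℂ) : ∃ P : ℂ → ℂ × ℂ, AnalyticAt ℂ P y ∧
    ∀ᶠ z in 𝓝 y, ∃ k : ℂ, k ≠ 0 ∧ P z = k • dpv L (z + c) := by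
  by_cases h : y + c ∈ L.lattice
  · obtain ⟨U, h1, -, h4⟩ := dpv_pole h
    have f : AnalyticAt ℂ (fun z : ℂ => z - y) y := analyticAt_id.sub analyticAt_const
    have t : Tendsto (fun z : ℂ => z - y) (𝓝 y) (𝓝 0) := by
      simpa using f.continuousAt.tendsto
    refine ⟨fun z => ((z - y) ^ 3, U ((z - y) ^ 2)),
      (f.pow 3).prod (h1.comp_of_eq (f.pow 2) (by simp)), ?_⟩
    filter_upwards [t.eventually h4] with z ⟨k, hk, hz⟩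
    refine ⟨k, hk, ?_⟩
    rw [hz]
    congr 2
    ring
  · have f : AnalyticAt ℂ (fun z : ℂ => z + c) y := analyticAt_id.add analyticAt_const
    refine ⟨fun z => (1, L.derivWeierstrassP (z + c)), analyticAt_const.prod
      ((L.analyticOnNhd_derivWeierstrassP _ h).comp_of_eq f rfl), ?_⟩
    filter_upwards [f.continuousAt.eventually (L.isClosed_lattice.isOpen_compl.mem_nhds h)]
      with z hz
    refine ⟨1, one_ne_zero, ?_⟩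
    have hz' : z + c ∉ L.lattice := hz
    rw [one_smul, dpv, if_neg hz']

theorem shift (L : PeriodPair) (y : ℂ) : ∃ c, 2 * c ∈ L.lattice ∧ y + c ∉ L.lattice := by
  by_cases h : y ∈ L.lattice
  · refine ⟨L.ω₁ / 2, ?_, fun h' => L.ω₁_div_two_notMem_lattice ?_⟩
    · rw [mul_div_cancel₀ _ two_ne_zero]
      exact L.ω₁_mem_lattice
    · simpa using L.lattice.sub_mem h' h
  · exact ⟨0, by simp, by simpa using h⟩

theorem tors {c y : ℂ} (hc : 2 * c ∈ L.lattice) (h : 2 * (y + c) ∈ L.lattice) :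
    y + y ∈ L.lattice := by
  have := L.lattice.sub_mem h hc
  convert this using 1
  ring

theorem tors' {y : ℂ} (h : y ∈ L.lattice) : 2 * y ∈ L.lattice := by
  rw [two_mul]
  exact L.lattice.add_mem h h

theorem flip {c x y : ℂ} (hc : 2 * c ∈ L.lattice) (h : x + y ∈ L.lattice) :
    ∃ k : ℂ, dpv L (y + c) = k • (-(dpv L (x + c)).1, (dpv L (x + c)).2) := by
  obtain ⟨k, -, hk⟩ := dpv_neg (L := L) (x + c)
  refine ⟨k, ?_⟩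
  rw [← hk, ← dpv_add (-(x + c)) (L.lattice.add_mem h hc)]
  congr 1
  ring

theorem same {c x y : ℂ} (h : x - y ∈ L.lattice) : dpv L (x + c) = dpv L (y + c) := by
  rw [← dpv_add (y + c) h]
  congr 1
  ring

end KPen1

open KPen1

variable {X : Type} [TopologicalSpace X] [ChartedSpace C2 X] [IsManifold 𝓘(ℂ, C2) ω X]
  {q : ℂ × ℂ → X} {e : ℂ × ℂ → ℂ × ℂ × ℂ → X}
  {X' : Type} [TopologicalSpace X'] [ChartedSpace C2 X'] [IsManifold 𝓘(ℂ, C2) ω X']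
  {q' : ℂ × ℂ → X'} {e' : ℂ × ℂ → ℂ × ℂ × ℂ → X'} {L₁ L₂ : PeriodPair} {a₁ a₂ : ℂ}

theorem Kum.pen3 (h : Kum (Adp L₁ L₂ 0 0) q e) {μ : ℂ × ℂ} (hμ : μ + μ ∈ Adp L₁ L₂ 0 0) :
    ∃ (π : X → P1) (k₁ k₂ : ℂ), HolP π ∧ k₁ ≠ 0 ∧ k₂ ≠ 0 ∧
      ∀ α : ℂ × ℂ, α ≠ 0 → Rep (k₁ * α.1, k₂ * α.2) (π (e μ (0, α))) := by
  obtain ⟨c₁, hc₁, hn₁⟩ := shift L₁ μ.1
  obtain ⟨c₂, hc₂, hn₂⟩ := shift L₂ μ.2
  have zz : ∀ {ν α : ℂ × ℂ} {U₁ U₂ : ℂ → ℂ}, α ≠ 0 →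
      Shp (fun z => dpv L₁ (z + c₁)) ν.1 U₁ 0 1 → Shp (fun z => dpv L₂ (z + c₂)) ν.2 U₂ 0 1 →
      ELift (VV (fun z => dpv L₁ (z + c₁)) fun z => dpv L₂ (z + c₂)) ν α
        (PP U₁ U₂ 0 1 0 1 0 0) := by
    intro ν α U₁ U₂ hα s₁ s₂
    refine elift 1 0 0 s₁ s₂ rfl rfl fun h0 => hα ?_
    have h1 := s₁.2.1
    have h2 := s₂.2.1
    simp only [PP, Prod.mk_eq_zero] at h0
    exact Prod.ext (by simpa [h1] using h0.1) (by simpa [h2] using h0.2)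
  refine (h.pencil isDisc_adp
    (V := VV (fun z => dpv L₁ (z + c₁)) fun z => dpv L₂ (z + c₂)) ?_ ?_ ?_ ?_).elim
    fun π ⟨hπ, _, hr⟩ => ?_
  rotate_right
  · obtain ⟨m₁, m₂⟩ := mem_adp0.1 hμ
    obtain ⟨U₁, s₁⟩ := shp_zero hc₁ m₁ hn₁
    obtain ⟨U₂, s₂⟩ := shp_zero hc₂ m₂ hn₂
    refine ⟨π, U₁ 0, U₂ 0, hπ, s₁.2.1, s₂.2.1, fun α hα => ?_⟩
    have h1 := (hr μ α _ hμ hα (zz hα s₁ s₂)).self_of_nhds
    have h2 : PP U₁ U₂ 0 1 0 1 0 0 (0, α) = (U₁ 0 * α.1, U₂ 0 * α.2) := by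
      simp [PP, mul_comm]
    rwa [h2] at h1
  · intro x hx h0
    refine hx (mem_adp0.2 ?_)
    simp only [VV, dpv, Prod.mk_eq_zero] at h0
    by_cases b₁ : x.1 + c₁ ∈ L₁.lattice <;> by_cases b₂ : x.2 + c₂ ∈ L₂.lattice
    · exact ⟨tors hc₁ (tors' b₁), tors hc₂ (tors' b₂)⟩
    · simp [b₁, b₂] at h0
    · simp [b₁, b₂] at h0
    · simp only [b₁, b₂, if_false, mul_one] at h0
      exact ⟨tors hc₁ ((wp'_zero L₁ b₁).1 h0.1), tors hc₂ ((wp'_zero L₂ b₂).1 h0.2)⟩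
  · rintro x y - (hxy | hxy)
    · obtain ⟨m₁, m₂⟩ := mem_adp0.1 hxy
      simp only [VV]
      rw [same (c := c₁) m₁, same (c := c₂) m₂]
      ring
    · obtain ⟨m₁, m₂⟩ := mem_adp0.1 hxy
      obtain ⟨k₁, e₁⟩ := flip hc₁ m₁
      obtain ⟨k₂, e₂⟩ := flip hc₂ m₂
      simp only [VV]
      rw [e₁, e₂]
      simp only [Prod.smul_mk, smul_eq_mul]
      ring
  · intro x _
    obtain ⟨P₁, a₁, b₁⟩ := loc L₁ c₁ x.1
    obtain ⟨P₂, a₂, b₂⟩ := loc L₂ c₂ x.2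
    have g₁ : AnalyticAt ℂ (fun y : ℂ × ℂ => P₁ y.1) x := a₁.comp analyticAt_fst
    have g₂ : AnalyticAt ℂ (fun y : ℂ × ℂ => P₂ y.2) x := a₂.comp analyticAt_snd
    refine ⟨VV P₁ P₂, ((analyticAt_snd.comp g₁).mul (analyticAt_fst.comp g₂)).prod
      ((analyticAt_snd.comp g₂).mul (analyticAt_fst.comp g₁)), ?_⟩
    filter_upwards [continuousAt_fst.eventually b₁, continuousAt_snd.eventually b₂]
      with y ⟨k₁, n₁, e₁⟩ ⟨k₂, n₂, e₂⟩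
    refine ⟨k₁ * k₂, mul_ne_zero n₁ n₂, ?_⟩
    simp only [VV]
    rw [e₁, e₂]
    simp only [Prod.smul_mk, Prod.smul_fst, Prod.smul_snd, smul_eq_mul, Prod.mk.injEq]
    constructor <;> ring
  · intro ν α hν hα
    obtain ⟨m₁, m₂⟩ := mem_adp0.1 hν
    by_cases b₁ : ν.1 + c₁ ∈ L₁.lattice <;> by_cases b₂ : ν.2 + c₂ ∈ L₂.lattice
    · obtain ⟨U₁, s₁⟩ := shp_pole b₁
      obtain ⟨U₂, s₂⟩ := shp_pole b₂
      refine ⟨_, elift 3 0 0 s₁ s₂ rfl rfl fun h0 => hα ?_⟩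
      have h1 := s₁.2.1
      have h2 := s₂.2.1
      simp only [PP, Prod.mk_eq_zero] at h0
      exact Prod.ext (by simpa [h2] using h0.2) (by simpa [h1] using h0.1)
    · obtain ⟨U₁, s₁⟩ := shp_pole b₁
      obtain ⟨U₂, s₂⟩ := shp_zero hc₂ m₂ b₂
      refine ⟨_, elift 0 0 2 s₁ s₂ rfl rfl fun h0 => s₁.2.1 ?_⟩
      simp only [PP, Prod.mk_eq_zero] at h0
      simpa using h0.1
    · obtain ⟨U₁, s₁⟩ := shp_zero hc₁ m₁ b₁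
      obtain ⟨U₂, s₂⟩ := shp_pole b₂
      refine ⟨_, elift 0 2 0 s₁ s₂ rfl rfl fun h0 => s₂.2.1 ?_⟩
      simp only [PP, Prod.mk_eq_zero] at h0
      simpa using h0.2
    · obtain ⟨U₁, s₁⟩ := shp_zero hc₁ m₁ b₁
      obtain ⟨U₂, s₂⟩ := shp_zero hc₂ m₂ b₂
      exact ⟨_, zz hα s₁ s₂⟩

end Vale.Agent.P290
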