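import Vale.Agent.P290K.Defs

/-! The Weierstrass zeta function. -/

open Set Filter Metric
open scoped Manifold ContDiff Topology

noncomputable section

namespace Vale.Agent.P290

/-- One term of the series. -/
def ztT (l z : ℂ) : ℂ := if l = 0 then 0 else 1 / (z - l) + 1 / l + z / l ^ 2

theorem ztT_bound {r : ℝ} (hr : 0 < r) {s l : ℂ} (hs : ‖s‖ < r) (h : 2 * r ≤ ‖l‖) :
    ‖ztT l s‖ ≤ 2 * r ^ 2 * ‖l‖ ^ (-3 : ℝ) := by
  have h0 : 0 < ‖l‖ := by linarith
  have hl : l ≠ 0 := norm_pos_iff.1 h0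
  have h1 : ‖l‖ / 2 ≤ ‖s - l‖ := by
    rw [norm_sub_rev]
    exact .trans (by linarith) (norm_sub_norm_le l s)
  have h2 : s - l ≠ 0 := norm_pos_iff.1 (by linarith)
  have e : ztT l s = s ^ 2 / (l ^ 2 * (s - l)) := by
    rw [ztT, if_neg hl]
    field_simp
    ring
  have e3 : ‖l‖ ^ (-3 : ℝ) = (‖l‖ ^ 3)⁻¹ := by
    rw [Real.rpow_neg h0.le]
    norm_cast
  rw [e, e3, norm_div, norm_mul, norm_pow, norm_pow]
  calc ‖s‖ ^ 2 / (‖l‖ ^ 2 * ‖s - l‖) ≤ r ^ 2 / (‖l‖ ^ 2 * (‖l‖ / 2)) := by gcongr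
    _ = _ := by field_simp

theorem ztT_sum (L : PeriodPair) :
    HasSumLocallyUniformly (fun (l : L.lattice) (z : ℂ) => ztT l z)
      (fun z => ∑' l : L.lattice, ztT l z) := by
  refine L.hasSumLocallyUniformly_aux (u := fun r l => 2 * r ^ 2 * ‖l‖ ^ (-3 : ℝ)) _
    (fun _ _ => (ZLattice.summable_norm_rpow _ _ (by simp; norm_num)).mul_left _) fun r hr =>
    Filter.eventually_atTop.mpr ⟨2 * r, ?_⟩
  rintro _ h s hs l rfl
  exact ztT_bound hr hs h

theorem ztT_der {l z : ℂ} (h : l ≠ 0 → z ≠ l) :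
    HasDerivAt (ztT l) (-(if l = 0 then 0 else 1 / (z - l) ^ 2 - 1 / l ^ 2)) z := by
  unfold ztT
  by_cases hl : l = 0
  · simp only [hl, if_true, neg_zero]
    exact hasDerivAt_const z 0
  · simp only [hl, if_false]
    have h1 : z - l ≠ 0 := sub_ne_zero.2 (h hl)
    have h2 := ((((hasDerivAt_id z).sub_const l).inv h1).add_const (1 / l)).add
      ((hasDerivAt_id z).div_const (l ^ 2))
    refine (h2.congr_deriv ?_).congr_of_eventuallyEq (Eventually.of_forall fun w => ?_)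
    · simp only [id]
      ring
    · simp

theorem ztT_mem {L : PeriodPair} {z : ℂ} (hz : z ∈ ((L.lattice : Set ℂ) \ {0})ᶜ) (l : L.lattice) :
    (l : ℂ) ≠ 0 → z ≠ l := fun h e => hz ⟨e ▸ l.2, e ▸ h⟩

theorem ztT_diff (L : PeriodPair) (s : Finset L.lattice) :
    DifferentiableOn ℂ (fun z => ∑ l ∈ s, ztT l z) ((L.lattice : Set ℂ) \ {0})ᶜ :=
  .fun_sum fun l _ _ hz => (ztT_der (ztT_mem hz l)).differentiableAt.differentiableWithinAt

theorem ztG_diff (L : PeriodPair) :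
    DifferentiableOn ℂ (fun z => ∑' l : L.lattice, ztT l z) ((L.lattice : Set ℂ) \ {0})ᶜ :=
  (ztT_sum L).hasSumLocallyUniformlyOn.differentiableOn (.of_forall (ztT_diff L))
    L.isOpen_compl_lattice_sdiff

theorem ztG_der (L : PeriodPair) {z : ℂ} (hz : z ∈ ((L.lattice : Set ℂ) \ {0})ᶜ) :
    HasDerivAt (fun z => ∑' l : L.lattice, ztT l z) (-L.weierstrassPExcept 0 z) z := by
  have h1 := ((ztG_diff L).differentiableAt (L.isOpen_compl_lattice_sdiff.mem_nhds hz)).hasDerivAt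
  have h2 := (((ztT_sum L).tendstoLocallyUniformlyOn.deriv (.of_forall (ztT_diff L))
    L.isOpen_compl_lattice_sdiff).tendsto_at hz)
  have h3 := (L.hasSum_weierstrassPExcept 0 z).neg
  refine h1.congr_deriv (tendsto_nhds_unique h2 (Tendsto.congr (fun s => ?_) h3))
  exact (HasDerivAt.fun_sum fun l _ => ztT_der (ztT_mem hz l)).deriv.symm

theorem ztG_neg (L : PeriodPair) (z : ℂ) :
    ∑' l : L.lattice, ztT l (-z) = -∑' l : L.lattice, ztT l z := by
  rw [← (Equiv.neg L.lattice).tsum_eq, ← tsum_neg]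
  refine tsum_congr fun l => ?_
  simp only [Equiv.neg_apply, NegMemClass.coe_neg, ztT, neg_eq_zero]
  split_ifs
  · simp
  · have e : -z - -(l : ℂ) = -(z - l) := by ring
    rw [e, div_neg, div_neg, neg_sq]
    ring

theorem exists_zeta (L : PeriodPair) : ∃ ζ, IsZeta L ζ := by
  refine ⟨fun y => y⁻¹ + ∑' l : L.lattice, ztT l y, fun y hy => ?_, fun y _ => ?_, _, ?_,
    Eventually.of_forall fun y => rfl⟩
  · have h0 : y ≠ 0 := fun e => hy (e ▸ L.lattice.zero_mem)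
    refine ((hasDerivAt_inv h0).add (ztG_der L fun h => hy h.1)).congr_deriv ?_
    rw [← L.weierstrassPExcept_add 0 y]
    simp [add_comm]
  · simp only [ztG_neg, inv_neg]
    ring
  · exact (ztG_diff L).analyticAt (L.compl_lattice_sdiff_singleton_mem_nhds 0)

end Vale.Agent.P290
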